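import Vale.Agent.P129.CH.Spec

/-! Special sequences cannot be large on three generic columns. -/

open Finset Filter Topology

namespace Vale.Agent.P129.CH

variable {Ω : Type} [LinearOrder Ω] [Rho Ω]

theorem Code.le_of_le {z : ℕ → V Ω} {j : ℕ → ℕ} {n : ℕ} (h : Code z j n) {l l' : ℕ} (hl : l ≤ l')
    (hl' : l' < n) : j l ≤ j l' := by
  rcases hl.eq_or_lt with rfl | h1
  exacts [le_rfl, (h.mono _ _ h1 hl').le]

theorem Code.lt_of_lt {z : ℕ → V Ω} {j : ℕ → ℕ} {n : ℕ} (h : Code z j n) {l l' : ℕ} (hl : l < n)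
    (e : j l < j l') : l < l' := by
  by_contra! hc
  exact e.not_ge (h.le_of_le hc hl)

theorem Sp.congr {z z' : ℕ → V Ω} {j j' : ℕ → ℕ} {n : ℕ} (h : Sp z j n)
    (e : ∀ i < n, z i = z' i ∧ j i = j' i) : Sp z' j' n := by
  refine ⟨⟨fun l hl => (e l hl).1 ▸ h.1.rat l hl, fun l l' h1 h2 => ?_, fun l l' h1 h2 => ?_,
    fun l hl => ?_⟩, fun l hl => (e l hl).1 ▸ (e l hl).2 ▸ h.2 l hl⟩
  · rw [← (e l (h1.trans h2)).1, ← (e l' h2).1]
    exact h.1.succ l l' h1 h2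
  · rw [← (e l (h1.trans h2)).2, ← (e l' h2).2]
    exact h.1.mono l l' h1 h2
  · obtain ⟨p, η, a1, a2, a3⟩ := h.1.code l hl
    rw [hist_congr fun i hi => e i (hi.trans hl)] at a2 a3
    exact ⟨p, η, fun i hi => (e i (hi.trans hl)).1 ▸ a1 i hi, a2, (e l hl).2 ▸ a3⟩

/-- Finite special sequences. -/
structure FS (Ω : Type) [LinearOrder Ω] [Rho Ω] where
  /-- blocks -/
  z : ℕ → V Ω
  /-- weights -/
  j : ℕ → ℕ
  /-- length -/
  n : ℕ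
  sp : Sp z j n

/-- The action of a window of a special sequence. -/
noncomputable def FS.wa (t : FS Ω) (lo hi : ℕ) (u : V Ω) : ℝ := pr (seg t.z t.j t.n lo hi) u

/-- Sharing a large weight. -/
def Share (J : ℕ) (t t' : FS Ω) : Prop := ∃ l < t.n, ∃ l' < t'.n, t.j l = t'.j l' ∧ J ≤ t.j l

theorem Share.symm {J : ℕ} {t t' : FS Ω} (h : Share J t t') : Share J t' t := by
  obtain ⟨l, h1, l', h2, e, h3⟩ := h
  exact ⟨l', h2, l, h1, e.symm, e ▸ h3⟩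

theorem Share.weight {J : ℕ} {t t' : FS Ω} (h : Share J t t') {i : ℕ} (hi : i < t.n)
    (hJ : t.j i < J) : i < t'.n ∧ t.j i = t'.j i := by
  obtain ⟨l, h1, l', h2, e, h3⟩ := h
  obtain ⟨rfl, h4, -⟩ := t.sp.1.pos_eq t'.sp.1 h1 h2 e
  have := t.sp.1.lt_of_lt hi (hJ.trans_le h3)
  exact ⟨this.trans h2, h4 i this⟩

theorem FS.meet {t : FS Ω} {lo hi : ℕ} {u : V Ω} {ε : ℝ} (hε : 0 < ε) (h : ε ≤ |t.wa lo hi u|) :
    ∃ l < t.n, lo ≤ t.j l ∧ t.j l < hi ∧ ∃ ζ ∈ (t.z l).support, ζ ∈ u.support := by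
  have h1 : t.wa lo hi u ≠ 0 := abs_pos.1 (hε.trans_le h)
  rw [FS.wa, seg, map_sum, LinearMap.sum_apply] at h1
  obtain ⟨l, hl, h2⟩ := exists_ne_zero_of_sum_ne_zero h1
  rw [mem_idx] at hl
  exact ⟨l, hl.1, hl.2.1, hl.2.2, exists_of_pr_ne_zero h2⟩

theorem Share.agree {J : ℕ} {t t' : FS Ω} (h : Share J t t') {lo hi lo' hi' : ℕ} {u u' : V Ω}
    {ε : ℝ} (hε : 0 < ε) (h1 : ε ≤ |t.wa lo hi u|) (h1' : ε ≤ |t'.wa lo' hi' u'|) (hJ : hi ≤ J)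
    (hJ' : hi' ≤ J) (hL : Lev ((u.support ∪ u'.support : Finset Ω) : Set Ω) J) :
    (∀ i < t.n, i < t'.n → t.j i < lo → t'.j i < lo' → t.z i = t'.z i ∧ t.j i = t'.j i) ∧
      ∀ a b y, b ≤ J → (∀ α ∈ y.support, ∀ β ∈ u.support, α < β) →
        (∀ α ∈ y.support, ∀ β ∈ u'.support, α < β) → t.wa a b y = t'.wa a b y := by
  obtain ⟨i0, a1, a2, a3, ζ, a4, a5⟩ := FS.meet hε h1
  obtain ⟨i0', b1, b2, b3, ζ', b4, b5⟩ := FS.meet hε h1'
  obtain ⟨l, c1, l', c2, e, c3⟩ := id h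
  obtain ⟨d1, d2⟩ := t.sp.1.delta t'.sp.1 c1 c2 e hL c3 (t.sp.1.lt_of_lt a1 (by omega))
    (t'.sp.1.lt_of_lt b1 (by omega)) a4 (by simp [Finsupp.mem_support_iff.1 a5]) b4
    (by simp [Finsupp.mem_support_iff.1 b5])
  refine ⟨fun i e1 e2 e3 e4 => ⟨d2 i (t.sp.1.lt_of_lt e1 (by omega))
    (t'.sp.1.lt_of_lt e2 (by omega)), (h.weight e1 (by omega)).2⟩, fun a b y e1 e2 e3 => ?_⟩
  have e4 : idx t.j t.n a b = idx t'.j t'.n a b := by
    ext i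
    simp only [mem_idx]
    refine ⟨fun h1 => ?_, fun h1 => ?_⟩
    · have := h.weight h1.1 (by omega)
      omega
    · have := h.symm.weight h1.1 (by omega)
      omega
  simp only [FS.wa, seg, map_sum, LinearMap.sum_apply, ← e4]
  refine sum_congr rfl fun i hi => pr_congr fun ξ hξ => d1 i ?_ ξ (e2 ξ hξ ζ a5).le (e3 ξ hξ ζ' b5).le
  rw [mem_idx] at hi
  exact t.sp.1.lt_of_lt hi.1 (by omega)

theorem exists_colour {u : V Ω} (hu : nm u ≤ 1) (lo hi : ℕ) {ε : ℝ} (hε : 0 < ε) :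
    ∃ χ : FS Ω → Fin (⌊1 / ε ^ 2⌋₊ + 1), ∀ t t' : FS Ω, ε ≤ |t.wa lo hi u| → ε ≤ |t'.wa lo hi u| →
      χ t = χ t' → Share lo t t' := by
  classical
  let f : FS Ω → ℕ := fun t => sInf {x | ∃ l < t.n, t.j l = x ∧ lo ≤ x}
  have hf : ∀ t : FS Ω, ∀ l < t.n, lo ≤ t.j l →
      f t ≤ t.j l ∧ ∃ l < t.n, t.j l = f t ∧ lo ≤ f t := fun t l h1 h2 =>
    ⟨Nat.sInf_le ⟨l, h1, rfl, h2⟩, Nat.sInf_mem (s := {x | ∃ l < t.n, t.j l = x ∧ lo ≤ x})
      ⟨_, l, h1, rfl, h2⟩⟩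
  have hle : ∀ t t' : FS Ω, Share lo t t' → f t' ≤ f t := by
    rintro t t' ⟨l, h1, l', h2, e, h3⟩
    obtain ⟨a1, i, a2, a3, a4⟩ := hf t l h1 h3
    rcases a1.eq_or_lt with a5 | a5
    · exact a5 ▸ e ▸ (hf t' l' h2 (e ▸ h3)).1
    · obtain ⟨a6, a7⟩ := Share.weight ⟨l, h1, l', h2, e, le_rfl⟩ a2 (a3 ▸ a5)
      exact (hf t' i a6 (by omega)).1.trans (by omega)
  let F : Finset ℕ := (range hi).filter fun x => ∃ t : FS Ω, ε ≤ |t.wa lo hi u| ∧ f t = x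
  have hF : ∀ t : FS Ω, ε ≤ |t.wa lo hi u| → f t ∈ F := fun t ht => by
    obtain ⟨l, a1, a2, a3, -⟩ := FS.meet hε ht
    exact mem_filter.2 ⟨mem_range.2 ((hf t l a1 a2).1.trans_lt a3), t, ht, rfl⟩
  have hcard : F.card ≤ ⌊1 / ε ^ 2⌋₊ + 1 := by
    have : Nonempty (FS Ω) := ⟨⟨0, 0, 0, ⟨⟨by simp, by simp, by simp, by simp⟩, by simp⟩⟩⟩
    choose! τ h1 h2 using fun x (hx : x ∈ F) => (mem_filter.1 hx).2
    have h3 := l2_seg (s := F) (z := fun x => (τ x).z) (j := fun x => (τ x).j)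
      (n := fun x => (τ x).n) (lo := fun _ => lo) (hi := fun _ => hi) (fun x _ => (τ x).sp)
      (fun x hx x' hx' hne l hl l' hl' e => by
        have : Share lo (τ x) (τ x') :=
          ⟨l, (mem_idx.1 hl).1, l', (mem_idx.1 hl').1, e, (mem_idx.1 hl).2.1⟩
        exact hne ((h2 x hx).symm.trans ((le_antisymm (hle _ _ this.symm) (hle _ _ this)).trans
          (h2 x' hx')))) u
    have h4 := card_nsmul_le_sum F (fun x => (τ x).wa lo hi u ^ 2) (ε ^ 2) fun x hx => by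
      rw [← sq_abs ((τ x).wa lo hi u)]
      exact pow_le_pow_left₀ hε.le (h1 x hx) 2
    rw [nsmul_eq_mul] at h4
    refine (Nat.le_floor ?_).trans (Nat.le_succ _)
    rw [le_div_iff₀ (by positivity)]
    exact (h4.trans h3).trans (pow_le_one₀ (nm_nonneg u) hu)
  refine ⟨fun t => if h : f t ∈ F then Fin.castLE hcard (F.equivFin ⟨_, h⟩) else 0,
    fun t t' h1 h2 e => ?_⟩
  simp only [dif_pos (hF t h1), dif_pos (hF t' h2)] at e
  have e1 : f t = f t' := congrArg Subtype.val (F.equivFin.injective (Fin.castLE_injective _ e))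
  obtain ⟨l, a1, a2, -⟩ := FS.meet hε h1
  obtain ⟨l', b1, b2, -⟩ := FS.meet hε h2
  obtain ⟨i, a3, a4, a5⟩ := (hf t l a1 a2).2
  obtain ⟨i', b3, b4, -⟩ := (hf t' l' b1 b2).2
  exact ⟨i, a3, i', b3, by omega, by omega⟩

theorem no_triple {ι : Type} (U : Ultrafilter ι) {st en : ι → ℕ} {v : ι → V Ω}
    (hv : ∀ x, nm (v x) ≤ 1) (hst : Tendsto st U atTop)
    (hs : ∀ x, ∀ᶠ y in U, ∀ α ∈ (v x).support, ∀ β ∈ (v y).support, α < β) {ε : ℝ} (hε : 0 < ε)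
    (hnull : ∀ z j, (∀ n, Sp z j n) →
      ∀ᶠ x in U, |pr (seg z j (en x) (st x) (en x)) (v x)| < ε) :
    ∀ᶠ x in U, ∀ᶠ y in U, ∀ᶠ w in U, ∀ t : FS Ω, ¬ (ε ≤ |t.wa (st x) (en x) (v x)| ∧
      ε ≤ |t.wa (st y) (en y) (v y)| ∧ ε ≤ |t.wa (st w) (en w) (v w)|) := by
  by_contra hc
  simp only [← Ultrafilter.eventually_not, not_forall, not_not] at hc
  choose χ hχ using fun x => exists_colour (hv x) (st x) (en x) hε
  obtain ⟨c, hG⟩ : ∃ c : Fin (⌊1 / ε ^ 2⌋₊ + 1) × Fin (⌊1 / ε ^ 2⌋₊ + 1),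
      ∀ᶠ x in U, ∀ᶠ y in U, ∀ᶠ w in U, ∃ t : FS Ω, (ε ≤ |t.wa (st x) (en x) (v x)| ∧
      ε ≤ |t.wa (st y) (en y) (v y)| ∧ ε ≤ |t.wa (st w) (en w) (v w)|) ∧
      χ y t = c.1 ∧ χ w t = c.2 := by
    simp only [← Ultrafilter.eventually_exists_iff]
    exact hc.mono fun x hx => hx.mono fun y hy => hy.mono fun w ⟨t, ht⟩ =>
      ⟨(χ y t, χ w t), t, ht, rfl, rfl⟩
  generalize hGd : (fun x y w (t : FS Ω) => (ε ≤ |t.wa (st x) (en x) (v x)| ∧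
      ε ≤ |t.wa (st y) (en y) (v y)| ∧ ε ≤ |t.wa (st w) (en w) (v w)|) ∧
      χ y t = c.1 ∧ χ w t = c.2) = G
  have g0 : ∀ᶠ x in U, ∀ᶠ y in U, ∀ᶠ w in U, ∃ t, G x y w t := by rw [← hGd]; exact hG
  have g1 : ∀ {x y w t}, G x y w t → ε ≤ |t.wa (st x) (en x) (v x)| := by
    rw [← hGd]; exact fun h => h.1.1
  have g2 : ∀ {x y w t}, G x y w t → ε ≤ |t.wa (st y) (en y) (v y)| := by
    rw [← hGd]; exact fun h => h.1.2.1
  have g3 : ∀ {x x' y w w' t t'}, G x y w t → G x' y w' t' → Share (st y) t t' := by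
    rw [← hGd]; exact fun h h' => hχ _ _ _ h.1.2.1 h'.1.2.1 (h.2.1.trans h'.2.1.symm)
  have g4 : ∀ {x x' y y' w t t'}, G x y w t → G x' y' w t' → Share (st w) t t' := by
    rw [← hGd]; exact fun h h' => hχ _ _ _ h.1.2.2 h'.1.2.2 (h.2.2.trans h'.2.2.symm)
  clear hG hGd hc hχ
  have hen : ∀ x, ∀ᶠ y in U, en x ≤ st y := fun x => hst.eventually_ge_atTop _
  have hlev : ∀ x x', ∀ᶠ y in U,
      Lev (((v x).support ∪ (v x').support : Finset Ω) : Set Ω) (st y) := fun x x' => by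
    obtain ⟨J, hJ⟩ := exists_lev ((v x).support ∪ (v x').support)
    exact (hst.eventually_ge_atTop J).mono fun y hy => hJ.mono subset_rfl hy
  have e1 : ∀ i, (∀ᶠ x in U, ∀ᶠ y in U, ∀ᶠ w in U, ∀ t, G x y w t → i < t.n ∧ t.j i < en x) →
      ∀ᶠ x in U, ∀ᶠ y in U, ∀ᶠ w in U, ∀ t, G x y w t → i < t.n ∧ t.j i < st x := by
    intro i hi
    obtain ⟨x0, a1, a2⟩ := (g0.and hi).exists
    obtain ⟨y0, a3, a4⟩ := (a1.and a2).exists
    filter_upwards [hen x0] with x hx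
    refine Eventually.of_forall fun y => ?_
    filter_upwards [a3, a4, hen x0] with w ⟨t0, b1⟩ b2 b3 t ht
    have b4 := b2 t0 b1
    have := (g4 b1 ht).weight b4.1 (by omega)
    omega
  have e2 : ∀ i, ∀ᶠ x in U, ∀ᶠ y in U, ∀ᶠ w in U, ∀ t, G x y w t → i < t.n ∧ t.j i < st x := by
    intro i
    induction i with
    | zero =>
      refine e1 0 (Eventually.of_forall fun x => Eventually.of_forall fun y =>
        Eventually.of_forall fun w t ht => ?_)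
      obtain ⟨l, a1, -, a2, -⟩ := FS.meet hε (g1 ht)
      exact ⟨by omega, (t.sp.1.le_of_le (Nat.zero_le l) a1).trans_lt a2⟩
    | succ i ih =>
      refine e1 _ (ih.mono fun x hx => hx.mono fun y hy => hy.mono fun w hw t ht => ?_)
      obtain ⟨l, a1, a2, a3, -⟩ := FS.meet hε (g1 ht)
      have := t.sp.1.lt_of_lt (hw t ht).1 ((hw t ht).2.trans_le a2)
      exact ⟨by omega, (t.sp.1.le_of_le this a1).trans_lt a3⟩
  have e3 : ∀ i, ∃ p : V Ω × ℕ, ∀ᶠ x in U, ∀ᶠ y in U, ∀ᶠ w in U, ∀ t, G x y w t →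
      i < t.n ∧ t.z i = p.1 ∧ t.j i = p.2 := by
    intro i
    obtain ⟨x1, a1, a2⟩ := (g0.and (e2 i)).exists
    obtain ⟨y1, ⟨a3, a4⟩, a5, a6⟩ := ((a1.and a2).and ((hen x1).and (hlev x1 x1))).exists
    obtain ⟨w1, ⟨t1, a7⟩, a8⟩ := (a3.and a4).exists
    refine ⟨(t1.z i, t1.j i), (e2 i).mono fun x hx => hx.mono fun y hy => ?_⟩
    filter_upwards [hy, a3, a4, hen x, hen x1, hlev x x1] with w b1 ⟨t0, b2⟩ b3 b4 b5 b6 t ht
    have c1 := ((g4 ht b2).agree hε (g1 ht) (g1 b2) b4 b5 b6).1 i (b1 t ht).1 (b3 t0 b2).1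
      (b1 t ht).2 (b3 t0 b2).2
    have c2 := ((g3 b2 a7).agree hε (g1 b2) (g1 a7) a5 a5 a6).1 i (b3 t0 b2).1 (a8 t1 a7).1
      (b3 t0 b2).2 (a8 t1 a7).2
    exact ⟨(b1 t ht).1, c1.1.trans c2.1, c1.2.trans c2.2⟩
  choose p hp using e3
  have e4 : ∀ n, ∀ᶠ x in U, ∀ᶠ y in U, ∀ᶠ w in U, ∃ t, G x y w t ∧ n ≤ t.n ∧
      ∀ i < n, t.z i = (p i).1 ∧ t.j i = (p i).2 := by
    intro n
    have : ∀ᶠ x in U, ∀ᶠ y in U, ∀ᶠ w in U, ∀ i ∈ range n, ∀ t, G x y w t →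
        i < t.n ∧ t.z i = (p i).1 ∧ t.j i = (p i).2 := by
      simp only [eventually_all_finset]
      exact fun i _ => hp i
    filter_upwards [this, g0] with x a1 a2
    filter_upwards [a1, a2] with y a1 a2
    filter_upwards [a1, a2] with w a1 ⟨t, a2⟩
    refine ⟨t, a2, ?_, fun i hi => (a1 i (mem_range.2 hi) t a2).2⟩
    by_contra! hlt
    exact (a1 _ (mem_range.2 hlt) t a2).1.false
  have e5 : ∀ n, Sp (fun i => (p i).1) (fun i => (p i).2) n := fun n => by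
    obtain ⟨x, a1⟩ := (e4 n).exists
    obtain ⟨y, a1⟩ := a1.exists
    obtain ⟨w, t, -, a2, a3⟩ := a1.exists
    exact (t.sp.mono a2).congr a3
  obtain ⟨x, a1, a2⟩ := ((hnull _ _ e5).and g0).exists
  obtain ⟨y, a3, a4⟩ := (a2.and (hs x)).exists
  obtain ⟨x', a5, a6⟩ := ((e4 (en x)).and (hs x)).exists
  obtain ⟨y', a7⟩ := a5.exists
  obtain ⟨w, ⟨⟨t, b1⟩, t', b2, b3, b4⟩, ⟨b5, b6⟩, b7, b8⟩ :=
    ((a3.and a7).and (((hen x).and (hen y)).and ((hen x').and (hlev y x')))).exists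
  have c1 := ((g4 b1 b2).agree hε (g2 b1) (g1 b2) b6 b7 b8).2 (st x) (en x) (v x) b5 a4 a6
  refine a1.not_ge ((g1 b1).trans_eq ?_)
  rw [c1, FS.wa, t'.sp.1.seg_stable b3]
  have c2 : idx t'.j (en x) (st x) (en x) = idx (fun i => (p i).2) (en x) (st x) (en x) :=
    filter_congr fun i hi => by rw [(b4 i (mem_range.1 hi)).2]
  unfold seg
  rw [c2, sum_congr rfl fun i hi => (b4 i (mem_idx.1 hi).1).1]

end Vale.Agent.P129.CH
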