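import Vale.Agent.P129.CH.Defs

/-! Existence of a coherent system of finite sets. -/

open Finset Filter Topology

namespace Vale.Agent.P129.CH

theorem exists_wf_rec {α D : Type*} [LT α] [WellFoundedLT α] [Nonempty D]
    (R : (ξ : α) → (∀ η, η < ξ → D) → D → Prop)
    (step : ∀ (ξ : α) (s : α → D), (∀ ζ < ξ, R ζ (fun η _ => s η) (s ζ)) →
      ∃ d, R ξ (fun η _ => s η) d) :
    ∃ s : α → D, ∀ ξ, R ξ (fun η _ => s η) (s ξ) := by
  let s : α → D := (wellFounded_lt (α := α)).fix fun ξ t => Classical.epsilon (R ξ t)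
  have hs : ∀ ξ, s ξ = Classical.epsilon (R ξ fun η _ => s η) := fun ξ =>
    WellFounded.fix_eq _ _ _
  refine ⟨s, fun ξ => ?_⟩
  induction ξ using (wellFounded_lt (α := α)).induction with
  | _ ξ ih =>
    rw [hs]
    exact Classical.epsilon_spec (step ξ s ih)

theorem exists_rho (Ω : Type) [LinearOrder Ω] [WellFoundedLT Ω]
    (hc : ∀ a : Ω, (Set.Iio a).Countable) : Nonempty (Rho Ω) := by
  classical
  let R : (β : Ω) → (∀ η, η < β → ℕ → Finset Ω) → (ℕ → Finset Ω) → Prop := fun β s G =>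
    (∀ p, β ∈ G p) ∧ (∀ p, ∀ ξ ∈ G p, ξ ≤ β) ∧ Monotone G ∧ (∀ ξ ≤ β, ∃ p, ξ ∈ G p) ∧
      (∀ p, ∀ ξ ∈ G p, ∀ h : ξ < β, ∀ ζ, ζ ∈ s ξ h p ↔ ζ ∈ G p ∧ ζ ≤ ξ) ∧
      (∀ p, (G p).card ≤ p + 1) ∧ ∀ c, ∀ᶠ p in atTop, (G p).card + c ≤ p
  have coh : ∀ (s : Ω → ℕ → Finset Ω) (η : Ω), R η (fun η _ => s η) (s η) →
      ∀ p, ∀ ξ ∈ s η p, ∀ ζ, ζ ∈ s ξ p ↔ ζ ∈ s η p ∧ ζ ≤ ξ := by
    intro s η h p ξ hξ ζ
    rcases (h.2.1 p ξ hξ).eq_or_lt with rfl | hlt
    · exact ⟨fun h1 => ⟨h1, h.2.1 p ζ h1⟩, fun h1 => h1.1⟩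
    · exact h.2.2.2.2.1 p ξ hξ hlt ζ
  obtain ⟨s, hs⟩ := exists_wf_rec R fun β s ih => by
    rcases (Set.Iio β).eq_empty_or_nonempty with he | hne
    · have hlt : ∀ ξ, ¬ ξ < β := fun ξ h => (he ▸ h : ξ ∈ (∅ : Set Ω))
      refine ⟨fun _ => {β}, by simp, by simp, monotone_const, fun ξ h => ⟨0, ?_⟩,
        fun p ξ _ h => absurd h (hlt ξ), by simp, fun c => ?_⟩
      · exact mem_singleton.2 (le_antisymm h (not_lt.1 (hlt ξ)))
      · filter_upwards [eventually_ge_atTop (1 + c)] with p hp using by simpa using hp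
    obtain ⟨e, he⟩ := (hc β).exists_eq_range hne
    let α : ℕ → Ω := fun n => (range (n + 1)).sup' nonempty_range_add_one e
    have hαe : ∀ n, e n ≤ α n := fun n => le_sup' e (self_mem_range_succ n)
    have hαβ : ∀ n, α n < β := fun n => (sup'_lt_iff _).2 fun i _ =>
      (he ▸ Set.mem_range_self i : e i ∈ Set.Iio β)
    have hαm : Monotone α := fun n m h =>
      sup'_mono e (range_subset_range.2 (Nat.succ_le_succ h)) _
    have hK : ∀ n, ∃ K, ∀ p ≥ K, (s (α n) p).card + (n + 1) ≤ p ∧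
        ∀ i ∈ range (n + 1), α i ∈ s (α n) p := by
      intro n
      rw [← eventually_atTop]
      refine ((ih _ (hαβ n)).2.2.2.2.2.2 (n + 1)).and ((eventually_all_finset _).2 fun i hi => ?_)
      obtain ⟨p, hp⟩ := (ih _ (hαβ n)).2.2.2.1 (α i) (hαm (Nat.lt_succ_iff.1 (mem_range.1 hi)))
      filter_upwards [eventually_ge_atTop p] with q hq using (ih _ (hαβ n)).2.2.1 hq hp
    choose K hK using hK
    let ν : ℕ → ℕ := fun p => Nat.findGreatest (fun n => ∀ i ≤ n, K i ≤ p) p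
    have hν : ∀ p, K 0 ≤ p → K (ν p) ≤ p := fun p hp =>
      Nat.findGreatest_spec (P := fun n => ∀ i ≤ n, K i ≤ p) (Nat.zero_le p)
        (fun i hi => by rwa [Nat.le_zero.1 hi]) _ le_rfl
    have hνm : Monotone ν := fun p q h =>
      Nat.findGreatest_mono (fun n hn i hi => (hn i hi).trans h) h
    have hνt : ∀ n, ∀ᶠ p in atTop, K 0 ≤ p ∧ n ≤ ν p := fun n => by
      filter_upwards [eventually_ge_atTop n, eventually_ge_atTop ((range (n + 1)).sup K)]
        with p h1 h2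
      have : ∀ i ≤ n, K i ≤ p := fun i hi =>
        (le_sup (f := K) (mem_range.2 (Nat.lt_succ_of_le hi))).trans h2
      exact ⟨this 0 (Nat.zero_le _), Nat.le_findGreatest h1 this⟩
    let H : ℕ → Finset Ω := fun p => if K 0 ≤ p then s (α (ν p)) p else ∅
    have hH1 : ∀ p, ∀ ξ ∈ H p, K 0 ≤ p ∧ ξ ∈ s (α (ν p)) p := by
      intro p ξ hξ
      by_cases h : K 0 ≤ p
      · exact ⟨h, by simpa [H, h] using hξ⟩
      · simp [H, h] at hξ
    have hH2 : ∀ p, K 0 ≤ p → H p = s (α (ν p)) p := fun p h => if_pos h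
    have hsub : ∀ n q, K 0 ≤ q → n ≤ ν q → s (α n) q ⊆ H q := by
      intro n q h1 h2 ξ hξ
      rw [hH2 q h1]
      exact ((coh s _ (ih _ (hαβ _)) q (α n)
        ((hK _ q (hν q h1)).2 n (mem_range.2 (Nat.lt_succ_of_le h2))) ξ).1 hξ).1
    have hcard : ∀ p, K 0 ≤ p → (insert β (H p)).card + ν p ≤ p := by
      intro p hp
      have h1 := card_insert_le β (H p)
      have h2 := (hK _ p (hν p hp)).1
      rw [← hH2 p hp] at h2
      omega
    refine ⟨fun p => insert β (H p), fun p => mem_insert_self _ _, fun p ξ hξ => ?_,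
      fun p q hpq => insert_subset_insert _ fun ξ hξ => ?_, fun ξ hξ => ?_,
      fun p ξ hξ hlt ζ => ?_, fun p => ?_, fun c => ?_⟩
    · rcases mem_insert.1 hξ with rfl | h
      · exact le_rfl
      · exact ((ih _ (hαβ _)).2.1 p ξ (hH1 p ξ h).2).trans (hαβ _).le
    · exact hsub (ν p) q ((hH1 p ξ hξ).1.trans hpq) (hνm hpq)
        ((ih _ (hαβ _)).2.2.1 hpq (hH1 p ξ hξ).2)
    · rcases hξ.eq_or_lt with rfl | hlt
      · exact ⟨0, mem_insert_self _ _⟩
      obtain ⟨n, rfl⟩ : ξ ∈ Set.range e := he ▸ hlt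
      obtain ⟨p, hp⟩ := (ih _ (hαβ n)).2.2.2.1 (e n) (hαe n)
      obtain ⟨q, hq1, hq2⟩ := ((hνt n).and (eventually_ge_atTop p)).exists
      exact ⟨q, mem_insert_of_mem (hsub n q hq1.1 hq1.2 ((ih _ (hαβ n)).2.2.1 hq2 hp))⟩
    · have h1 := hH1 p ξ ((mem_insert.1 hξ).resolve_left hlt.ne)
      rw [coh s _ (ih _ (hαβ _)) p ξ h1.2 ζ, mem_insert, hH2 p h1.1]
      exact ⟨fun h => ⟨Or.inr h.1, h.2⟩, fun h => ⟨h.1.resolve_left (h.2.trans_lt hlt).ne, h.2⟩⟩
    · by_cases h : K 0 ≤ p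
      · exact ((Nat.le_add_right _ _).trans (hcard p h)).trans (Nat.le_succ p)
      · simp [H, h]
    · filter_upwards [hνt c] with p hp
      have := hcard p hp.1
      omega
  exact ⟨{ F := fun p η => s η p
           self_mem := fun p η => (hs η).1 p
           le_of_mem := fun h => (hs _).2.1 _ _ h
           mono := fun η h => (hs η).2.2.1 h
           exhaust := fun h => (hs _).2.2.2.1 _ h
           coh := fun h => coh s _ (hs _) _ _ h
           card_le := fun p η => (hs η).2.2.2.2.2.1 p }⟩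

end Vale.Agent.P129.CH
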