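import Vale.Agent.P129.CH.Delta
import Vale.Agent.P129.CH.RhoEx

/-! Block sequences, chains of columns, and bounded completeness. -/

open Finset Filter Topology

namespace Vale.Agent.P129.CH

theorem exists_rec {α D : Type*} [LT α] [WellFoundedLT α] [Nonempty D]
    (R : α → (α → D) → D → Prop)
    (hc : ∀ ξ s s' d, (∀ η < ξ, s η = s' η) → R ξ s d → R ξ s' d)
    (step : ∀ (ξ : α) (s : α → D), (∀ ζ < ξ, R ζ s (s ζ)) → ∃ d, R ξ s d) :
    ∃ s : α → D, ∀ ξ, R ξ s (s ξ) := by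
  obtain ⟨s, hs⟩ := exists_wf_rec (α := α) (D := D)
    (fun ξ t d => ∀ s : α → D, (∀ η (h : η < ξ), s η = t η h) → R ξ s d) fun ξ s ih => by
      obtain ⟨d, hd⟩ := step ξ s fun ζ hζ => ih ζ hζ s fun _ _ => rfl
      exact ⟨d, fun s' h => hc ξ s s' d (fun η hη => (h η hη).symm) hd⟩
  exact ⟨s, fun ξ => hs ξ s fun _ _ => rfl⟩

theorem card_le_two {S : Finset ℕ} (h : ∀ a ∈ S, ∀ b ∈ S, ∀ c ∈ S, a < b → b < c → False) :
    S.card ≤ 2 := by
  by_contra! hlt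
  let e := S.orderEmbOfFin rfl
  exact h _ (S.orderEmbOfFin_mem rfl ⟨0, by omega⟩) _ (S.orderEmbOfFin_mem rfl ⟨1, by omega⟩) _
    (S.orderEmbOfFin_mem rfl ⟨2, by omega⟩) (e.strictMono (by simp)) (e.strictMono (by simp))

theorem sum_card_le {J : ℕ → Finset ℕ} (h : ∀ l l', l < l' → ∀ k ∈ J l, ∀ k' ∈ J l', k ≤ k')
    {I : Finset ℕ} (hI : ∀ l, J l ⊆ I) (M : ℕ) : ∑ l ∈ range M, (J l).card ≤ I.card + M := by
  have : ∑ l ∈ range M, (J l).card ≤ ((range M).biUnion J).card + M := by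
    induction M with
    | zero => simp
    | succ M ih =>
      have h1 := card_union_add_card_inter (J M) ((range M).biUnion J)
      have h2 : (J M ∩ (range M).biUnion J).card ≤ 1 := card_le_one.2 fun a ha b hb => by
        simp only [mem_inter, mem_biUnion, mem_range] at ha hb
        obtain ⟨l, hl, ha'⟩ := ha.2
        obtain ⟨l', hl', hb'⟩ := hb.2
        exact le_antisymm (h l M hl a ha' b hb.1) (h l' M hl' b hb' a ha.1)
      rw [sum_range_succ, range_add_one, biUnion_insert]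
      omega
  exact this.trans (Nat.add_le_add_right (card_le_card (biUnion_subset.2 fun l _ => hI l)) M)

theorem geo_mm {S : Finset ℕ} {J : ℕ} (h : ∀ x ∈ S, J ≤ x) :
    ∑ x ∈ S, (mm x)⁻¹ ≤ 2 * (mm J)⁻¹ := by
  have h1 := geo_le S J h
  have h2 : ∀ x ∈ S, (mm x)⁻¹ ≤ (1 / 2 : ℝ) ^ x * (2 ^ J * (mm J)⁻¹) := fun x hx => by
    obtain ⟨d, rfl⟩ := Nat.exists_eq_add_of_le (h x hx)
    have : (2 : ℝ) ^ d ≤ 4 ^ d := by gcongr; norm_num
    have e : (1 / 2 : ℝ) ^ (J + d) * (2 ^ J * (mm J)⁻¹) = (mm J * 2 ^ d)⁻¹ := by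
      have := mm_pos J
      rw [one_div, inv_pow, pow_add]
      field_simp
    rw [e, show mm (J + d) = mm J * 4 ^ d by rw [mm, mm]; ring]
    have := mm_pos J
    gcongr
  refine (sum_le_sum h2).trans ?_
  rw [← sum_mul]
  calc _ ≤ 2 * (1 / 2 : ℝ) ^ J * (2 ^ J * (mm J)⁻¹) := by
        have := mm_pos J
        gcongr
    _ = _ := by rw [one_div, inv_pow]; field_simp

theorem mm_mono : Monotone mm := fun a b h => by
  unfold mm
  gcongr
  norm_num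

theorem inv_mm_le' (j : ℕ) : (mm j)⁻¹ ≤ 1 / 16 :=
  (inv_mm_le j).trans (by gcongr; exact pow_le_one₀ (by norm_num) (by norm_num))

variable {Ω : Type}

theorem N_sum_sq {ι : Type*} {s : Finset ι} {w : ι → V Ω}
    (h : ∀ i ∈ s, ∀ l ∈ s, i ≠ l → pr (w i) (w l) = 0) :
    N (∑ i ∈ s, w i) ^ 2 = ∑ i ∈ s, N (w i) ^ 2 := by
  simp only [N_sq, map_sum, LinearMap.sum_apply]
  exact sum_congr rfl fun i hi => sum_eq_single_of_mem i hi fun l hl hne => h l hl i hi hne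

theorem sum_N_res_le {ι : Type*} {s : Finset ι} {E : ι → Set Ω}
    (h : ∀ i ∈ s, ∀ l ∈ s, i ≠ l → ∀ ξ ∈ E i, ξ ∉ E l) (w : V Ω) :
    ∑ i ∈ s, N (res (E i) w) ^ 2 ≤ N w ^ 2 := by
  have h1 := N_sum_sq (s := s) (w := fun i => res (E i) w) fun i hi l hl hne =>
    pr_eq_zero fun ξ h1 h2 => h i hi l hl hne ξ (mem_support_res.1 h1).2 (mem_support_res.1 h2).2
  have h2 : pr (∑ i ∈ s, res (E i) w) w = ∑ i ∈ s, N (res (E i) w) ^ 2 := by
    rw [map_sum, LinearMap.sum_apply]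
    exact sum_congr rfl fun i _ => by rw [N_sq, ← pr_res, res_res, Set.inter_self]
  have h3 := (le_abs_self _).trans (abs_pr_le_N (∑ i ∈ s, res (E i) w) w)
  rw [h2, ← h1] at h3
  rw [← h1]
  nlinarith [sq_nonneg (N (∑ i ∈ s, res (E i) w) - N w)]

/-- Block subspaces. -/
noncomputable def Z (g : ℕ → V Ω) (a b : ℕ) : Submodule ℝ (V Ω) := Submodule.span ℝ (g '' Set.Ico a b)

theorem Z_mono (g : ℕ → V Ω) {a b a' b' : ℕ} (ha : a' ≤ a) (hb : b ≤ b') : Z g a b ≤ Z g a' b' :=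
  Submodule.span_mono (Set.image_mono (Set.Ico_subset_Ico ha hb))

theorem self_mem_Z (g : ℕ → V Ω) (n : ℕ) : g n ∈ Z g n (n + 1) :=
  Submodule.subset_span ⟨n, ⟨le_rfl, Nat.lt_succ_self n⟩, rfl⟩

theorem support_subset_of_span {S : Set (V Ω)} {E : Set Ω} (h : ∀ v ∈ S, ∀ ξ ∈ v.support, ξ ∈ E)
    {v : V Ω} (hv : v ∈ Submodule.span ℝ S) : ∀ ξ ∈ v.support, ξ ∈ E :=
  (Submodule.span_le (p := Finsupp.supported ℝ ℝ E)).2 h hv

theorem support_sum_subset {ι : Type*} {s : Finset ι} {v : ι → V Ω} {E : Set Ω}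
    (h : ∀ i ∈ s, ∀ ξ ∈ (v i).support, ξ ∈ E) : ∀ ξ ∈ (∑ i ∈ s, v i).support, ξ ∈ E :=
  (Finsupp.supported ℝ ℝ E).sum_mem h

theorem support_opf_subset {j : ℕ} {w : ℕ → V Ω} {E : Set Ω}
    (h : ∀ l < nn j, ∀ ξ ∈ (w l).support, ξ ∈ E) : ∀ ξ ∈ (opf j w).support, ξ ∈ E :=
  (Finsupp.supported ℝ ℝ E).smul_mem _ (support_sum_subset fun l hl => h l (mem_range.1 hl))

theorem pr_opf (j : ℕ) (w : ℕ → V Ω) (y : V Ω) :
    pr (opf j w) y = (mm j)⁻¹ * ∑ l ∈ range (nn j), pr (w l) y := by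
  simp [opf]

variable [LinearOrder Ω]

/-- Ranges of block subspaces. -/
def Rg (g : ℕ → V Ω) (a b : ℕ) : Set Ω :=
  {ξ | (∃ i, a ≤ i ∧ ∃ α ∈ (g i).support, α ≤ ξ) ∧ ∃ k, k < b ∧ ∃ β ∈ (g k).support, ξ ≤ β}

theorem Rg_oc (g : ℕ → V Ω) (a b : ℕ) : (Rg g a b).OrdConnected :=
  ⟨fun _ ⟨⟨i, hi, α, hα, h⟩, _⟩ _ ⟨_, k, hk, β, hβ, h'⟩ _ hx =>
    ⟨⟨i, hi, α, hα, h.trans hx.1⟩, k, hk, β, hβ, hx.2.trans h'⟩⟩

theorem Rg_mono (g : ℕ → V Ω) {a b a' b' : ℕ} (ha : a' ≤ a) (hb : b ≤ b') :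
    Rg g a b ⊆ Rg g a' b' := fun _ ⟨⟨i, hi, h⟩, k, hk, h'⟩ =>
  ⟨⟨i, ha.trans hi, h⟩, k, hk.trans_le hb, h'⟩

theorem Rg_lt {g : ℕ → V Ω} (hg : Succ g) {a b a' b' : ℕ} (h : b ≤ a') {ξ η : Ω}
    (h1 : ξ ∈ Rg g a b) (h2 : η ∈ Rg g a' b') : ξ < η := by
  obtain ⟨-, k, hk, β, hβ, h1⟩ := h1
  obtain ⟨⟨i, hi, α, hα, h2⟩, -⟩ := h2
  exact (h1.trans_lt (hg k i (by omega) β hβ α hα)).trans_le h2

theorem mem_Rg {g : ℕ → V Ω} {a b : ℕ} {v : V Ω} (hv : v ∈ Z g a b) :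
    ∀ ξ ∈ v.support, ξ ∈ Rg g a b :=
  support_subset_of_span (by
    rintro _ ⟨i, hi, rfl⟩ ξ hξ
    exact ⟨⟨i, hi.1, ξ, hξ, le_rfl⟩, i, hi.2, ξ, hξ, le_rfl⟩) hv

/-- The charge constraint for a new functional. -/
def ChgV (w : ℕ → V Ω) (l : ℕ) (u : V Ω) : Prop :=
  N u * ((1 + ∑ t ∈ range l, ((w t).support.card : ℝ)) * 2 ^ l) ≤ 1

omit [LinearOrder Ω] in
theorem ChgV.congr {w w' : ℕ → V Ω} {l : ℕ} {u : V Ω} (h : ChgV w l u) (e : ∀ i < l, w i = w' i) :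
    ChgV w' l u := by
  have : ∑ t ∈ range l, ((w t).support.card : ℝ) = ∑ t ∈ range l, ((w' t).support.card : ℝ) :=
    sum_congr rfl fun t ht => by rw [e t (mem_range.1 ht)]
  unfold ChgV at h ⊢
  rwa [← this]

omit [LinearOrder Ω] in
theorem exists_chg (w : ℕ → V Ω) (l : ℕ) : ∃ t > 0, ∀ u : V Ω, N u ≤ t → ChgV w l u :=
  ⟨1 / ((1 + ∑ t ∈ range l, ((w t).support.card : ℝ)) * 2 ^ l), by positivity,
    fun u hu => (le_div_iff₀ (by positivity)).1 hu⟩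

variable [Rho Ω]

/-- A block vector together with a functional on the same range. -/
structure Col (g : ℕ → V Ω) where
  /-- start -/
  a : ℕ
  /-- end -/
  b : ℕ
  /-- the vector -/
  v : V Ω
  /-- the functional -/
  w : V Ω
  hv : v ∈ Z g a b
  hw : ∀ ξ ∈ w.support, ξ ∈ Rg g a b
  hK : InK w
  hab : a ≤ b

instance (g : ℕ → V Ω) : Nonempty (Col g) :=
  ⟨⟨0, 0, 0, 0, zero_mem _, by simp, InK.zero, le_rfl⟩⟩

/-- Successive columns. -/
def Ord {g : ℕ → V Ω} (s : ℕ → Col g) : Prop := ∀ i l, i < l → (s i).b ≤ (s l).a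

variable {g : ℕ → V Ω}

theorem Ord.a_mono {s : ℕ → Col g} (h : Ord s) : Monotone fun l => (s l).a :=
  monotone_nat_of_le_succ fun l => (s l).hab.trans (h l (l + 1) (Nat.lt_succ_self l))

theorem Ord.sum_mem {s : ℕ → Col g} (h : Ord s) (r B : ℕ) :
    ∑ x ∈ range B, (s (r + x)).v ∈ Z g (s r).a (s (r + B)).a :=
  Submodule.sum_mem _ fun x hx => Z_mono g (h.a_mono (Nat.le_add_right r x))
    (h _ _ (Nat.add_lt_add_left (mem_range.1 hx) r)) (s (r + x)).hv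

theorem Ord.succ_v (hg : Succ g) {s : ℕ → Col g} (h : Ord s) : Succ fun l => (s l).v :=
  fun l l' hl α hα β hβ => Rg_lt hg (h l l' hl) (mem_Rg (s l).hv α hα) (mem_Rg (s l').hv β hβ)

theorem Ord.succ_w (hg : Succ g) {s : ℕ → Col g} (h : Ord s) : Succ fun l => (s l).w :=
  fun l l' hl α hα β hβ => Rg_lt hg (h l l' hl) ((s l).hw α hα) ((s l').hw β hβ)

theorem Ord.pr_sum (hg : Succ g) {s : ℕ → Col g} (h : Ord s) {I : Finset ℕ} (i : ℕ) :
    pr (s i).w (∑ l ∈ I, (s l).v) = if i ∈ I then pr (s i).w (s i).v else 0 := by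
  rw [map_sum, ← sum_ite_eq I i fun _ => pr (s i).w (s i).v]
  refine sum_congr rfl fun l _ => ?_
  split_ifs with e
  · rw [e]
  refine pr_eq_zero fun ξ h1 h2 => ?_
  rcases lt_or_gt_of_ne e with hl | hl
  · exact (Rg_lt hg (h _ _ hl) ((s i).hw ξ h1) (mem_Rg (s l).hv ξ h2)).false
  · exact (Rg_lt hg (h _ _ hl) (mem_Rg (s l).hv ξ h2) ((s i).hw ξ h1)).false

theorem exists_chain (Q : Col g → Prop)
    (h : ∀ a, ∀ t > 0, ∃ C : Col g, Q C ∧ a ≤ C.a ∧ N C.w ≤ t) :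
    ∃ s : ℕ → Col g, (∀ l, Q (s l)) ∧ Ord s ∧ ∀ l, Chg (fun i => (s i).w) l := by
  obtain ⟨s, hs⟩ := exists_rec (α := ℕ) (D := Col g)
    (fun l s d => Q d ∧ (∀ i < l, (s i).b ≤ d.a) ∧ ChgV (fun i => (s i).w) l d.w)
    (fun l s s' d e h => ⟨h.1, fun i hi => e i hi ▸ h.2.1 i hi,
      h.2.2.congr fun i hi => by rw [e i hi]⟩)
    fun l s _ => by
      obtain ⟨t, ht, h1⟩ := exists_chg (fun i => (s i).w) l
      obtain ⟨C, c1, c2, c3⟩ := h ((range l).sup fun i => (s i).b) t ht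
      exact ⟨C, c1, fun i hi => (le_sup (f := fun i => (s i).b) (mem_range.2 hi)).trans c2,
        h1 _ c3⟩
  exact ⟨s, fun l => (hs l).1, fun i l hl => (hs l).2.1 i hl, fun l => (hs l).2.2⟩

theorem exists_res_K {v : V Ω} {a b : ℕ} (hab : a ≤ b) (hv : v ∈ Z g a b) {w : V Ω} (hw : InK w) :
    ∃ C : Col g, C.a = a ∧ C.b = b ∧ C.v = v ∧ C.w = res (Rg g a b) w ∧ pr C.w v = pr w v :=
  ⟨⟨a, b, v, res (Rg g a b) w, hv, fun _ h => (mem_support_res.1 h).2, hw.restr _ (Rg_oc g a b) _,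
    hab⟩, rfl, rfl, rfl, rfl, by rw [pr_res, res_eq_self (mem_Rg hv)]⟩

/-- Bounded completeness. -/
theorem bdd_complete (hg : Succ g) {ε : ℝ} (hε : 0 < ε) (h : ∀ n, ε < nm (g n)) (B : ℝ) :
    ∃ M, B < nm (∑ n ∈ range M, g n) := by
  have h1 : ∀ n, ∃ C : Col g, C.a = n ∧ C.b = n + 1 ∧ C.v = g n ∧ ε < pr C.w C.v := fun n => by
    obtain ⟨w, hw, h1⟩ := exists_K (h n)
    obtain ⟨C, c1, c2, c3, -, c4⟩ := exists_res_K (Nat.le_succ n) (self_mem_Z g n) hw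
    exact ⟨C, c1, c2, c3, by rwa [c3, c4]⟩
  choose c c1 c2 c3 c4 using h1
  have hc : Ord c := fun i l hl => by rw [c1, c2]; exact hl
  obtain ⟨s, s1, s2, s3⟩ := exists_chain (g := g)
    (fun C => ∀ M, C.b ≤ M → ε ≤ pr C.w (∑ n ∈ range M, g n)) fun a t ht => by
      obtain ⟨k, hk⟩ := exists_nat_gt (1 / t ^ 2)
      have hk0 : (0 : ℝ) < k := lt_trans (by positivity) hk
      have hcard : (Ico a (a + k)).card = k := by simp
      refine ⟨⟨a, a + k, 0, ∑ n ∈ Ico a (a + k), (((k : ℚ)⁻¹ : ℚ) : ℝ) • (c n).w, zero_mem _,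
        support_sum_subset fun n hn ξ hξ => ?_, InK.comb _ (fun _ => (k : ℚ)⁻¹) _
          (fun n _ => (c n).hK) ?_, Nat.le_add_right a k⟩, fun M hM => ?_, le_rfl, ?_⟩
      · rw [mem_Ico] at hn
        exact Rg_mono g (by rw [c1]; omega) (by rw [c2]; omega)
          ((c n).hw ξ (Finsupp.support_smul hξ))
      · simp [mul_inv_cancel₀ hk0.ne']
      · have e : ∀ n ∈ Ico a (a + k), ε ≤ pr (c n).w (∑ n ∈ range M, g n) := fun n hn => by
          have := hc.pr_sum hg (I := range M) n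
          rw [if_pos (mem_range.2 ((mem_Ico.1 hn).2.trans_le hM))] at this
          simp only [c3] at this
          rw [this, ← c3]
          exact (c4 n).le
        have := card_nsmul_le_sum _ _ _ e
        simp only [← smul_sum, map_smul, LinearMap.smul_apply, smul_eq_mul]
        rw [map_sum pr, LinearMap.sum_apply]
        rw [hcard, nsmul_eq_mul] at this
        push_cast
        rwa [le_inv_mul_iff₀ hk0]
      · have h2 := N_sum_sq (s := Ico a (a + k)) (w := fun n => (c n).w) fun i _ l _ hne =>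
          pr_eq_zero fun ξ h1 h2 => by
            rcases lt_or_gt_of_ne hne with hl | hl
            · exact (hc.succ_w hg _ _ hl ξ h1 ξ h2).false
            · exact (hc.succ_w hg _ _ hl ξ h2 ξ h1).false
        have h3 := sum_le_card_nsmul (Ico a (a + k)) (fun n => N (c n).w ^ 2) 1 fun n _ =>
          pow_le_one₀ (N_nonneg _) (c n).hK.N_le
        rw [hcard, nsmul_eq_mul, mul_one, ← h2] at h3
        simp only [← smul_sum, N_smul]
        push_cast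
        rw [abs_of_pos (inv_pos.2 hk0), inv_mul_le_iff₀ hk0]
        rw [div_lt_iff₀ (by positivity)] at hk
        refine (pow_le_pow_iff_left₀ (N_nonneg _) (by positivity) two_ne_zero).1 (h3.trans ?_)
        nlinarith
  obtain ⟨j, hj⟩ := exists_nat_gt (B / ε)
  refine ⟨(range (nn j)).sup fun l => (s l).b, lt_of_lt_of_le ?_
    (pr_le_nm (InK.op j _ (fun l => (s l).hK) ⟨s2.succ_w hg, fun l _ => s3 l⟩) _)⟩
  have h2 := card_nsmul_le_sum (range (nn j)) _ _ fun l hl =>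
    s1 l _ (le_sup (f := fun l => (s l).b) hl)
  rw [card_range, nsmul_eq_mul] at h2
  rw [pr_opf, lt_inv_mul_iff₀ (mm_pos j)]
  refine lt_of_lt_of_le ?_ h2
  have h3 := mm_sq_le j
  have h4 := le_mm j
  have h5 := mm_pos j
  rw [div_lt_iff₀ hε] at hj
  calc mm j * B < mm j * (mm j * ε) := by gcongr; nlinarith
    _ = mm j ^ 2 * ε := by ring
    _ ≤ _ := by gcongr

end Vale.Agent.P129.CH
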