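import Vale.Agent.P129.CH.Pair
import Vale.Agent.P129.Blk

/-! The transfinite construction of the functionals. -/

open Finset Filter Topology

namespace Vale.Agent.P129.CH

theorem eventually_lo (j : ℕ → ℕ) {P : ℕ → Prop} (h : ∀ᶠ l in atTop, P l) :
    ∀ᶠ lo in atTop, ∀ l, lo ≤ j l → P l := by
  obtain ⟨n, hn⟩ := eventually_atTop.1 h
  filter_upwards [eventually_gt_atTop ((range n).sup j)] with lo h1 l h2
  refine hn l (le_of_not_gt fun h3 => ?_)
  exact (h1.trans_le h2).not_ge (le_sup (f := j) (mem_range.2 h3))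

variable {Ω : Type} [LinearOrder Ω]

theorem Succ.eventually_zero {z : ℕ → V Ω} (hz : Succ z) (y : V Ω) :
    ∀ᶠ l in atTop, pr (z l) y = 0 := by
  have : ∀ᶠ l in atTop, ∀ ξ ∈ y.support, ξ ∉ (z l).support := by
    refine (eventually_all_finset _).2 fun ξ _ => ?_
    by_cases h : ∃ k, ξ ∈ (z k).support
    · obtain ⟨k, hk⟩ := h
      filter_upwards [eventually_gt_atTop k] with l hl h1 using (hz k l hl ξ hk ξ h1).false
    · exact Eventually.of_forall fun l h1 => h ⟨l, h1⟩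
  exact this.mono fun l hl => pr_eq_zero fun ξ h1 h2 => hl ξ h2 h1

variable [Rho Ω]

noncomputable instance : NormedAddCommGroup (V Ω) :=
  AddGroupNorm.toNormedAddCommGroup
    { toFun := nm
      map_zero' := nm_zero
      add_le' := nm_add_le
      neg' := nm_neg
      eq_zero_of_map_eq_zero' := fun _ h => by_contra fun h0 => (nm_pos h0).ne' h }

theorem norm_eq (y : V Ω) : ‖y‖ = nm y := rfl

noncomputable instance : NormedSpace ℝ (V Ω) := ⟨fun c y => nm_smul_le c y⟩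

/-- The functional given by a finitely supported function. -/
noncomputable def fn (w : V Ω) : StrongDual ℝ (V Ω) :=
  (pr w).mkContinuousOfExistsBound ⟨∑ ξ ∈ w.support, |w ξ|, fun y => by
    rw [pr_eq w y subset_rfl, sum_mul]
    refine (abs_sum_le_sum_abs _ _).trans (sum_le_sum fun ξ _ => ?_)
    rw [abs_mul]
    exact mul_le_mul_of_nonneg_left (abs_apply_le_nm y ξ) (abs_nonneg _)⟩

theorem fn_apply (w y : V Ω) : fn w y = pr w y := rfl

theorem InK.norm_fn {w : V Ω} (h : InK w) : ‖fn w‖ ≤ 1 :=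
  ContinuousLinearMap.opNorm_le_bound _ zero_le_one fun y => by
    rw [one_mul]
    exact abs_pr_le_nm h y

theorem l2_seg' {s : Finset Ω} {z : Ω → ℕ → V Ω} {j : Ω → ℕ → ℕ} {n lo : ℕ}
    (hs : ∀ ζ ∈ s, Sp (z ζ) (j ζ) n)
    (hd : ∀ ζ ∈ s, ∀ ζ' ∈ s, ζ ≠ ζ' → ∀ l, lo ≤ j ζ l → j ζ l ≠ j ζ' l) (y : V Ω) :
    ∑ ζ ∈ s, pr (seg (z ζ) (j ζ) n lo n) y ^ 2 ≤ nm y ^ 2 := by
  rcases s.eq_empty_or_nonempty with rfl | ⟨a, -⟩
  · simp [sq_nonneg]
  have : Nonempty Ω := ⟨a⟩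
  obtain ⟨f, hf⟩ := Set.countable_iff_exists_injOn.1 s.countable_toSet
  have h1 : ∀ ζ ∈ s, Function.invFunOn f s (f ζ) = ζ := fun ζ hζ => hf.leftInvOn_invFunOn hζ
  have := l2_seg (s := s.image f) (z := fun i => z (Function.invFunOn f s i))
    (j := fun i => j (Function.invFunOn f s i)) (n := fun _ => n) (lo := fun _ => lo)
    (hi := fun _ => n) (fun i hi => by
      obtain ⟨ζ, hζ, rfl⟩ := mem_image.1 hi
      rw [h1 ζ hζ]
      exact hs ζ hζ) (fun i hi i' hi' hne l hl l' hl' e => by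
      obtain ⟨ζ, hζ, rfl⟩ := mem_image.1 hi
      obtain ⟨ζ', hζ', rfl⟩ := mem_image.1 hi'
      simp only [h1 ζ hζ, h1 ζ' hζ', mem_idx] at hl hl' e
      obtain ⟨rfl, -⟩ := (hs ζ hζ).1.pos_eq (hs ζ' hζ').1 hl.1 hl'.1 e
      exact hd ζ hζ ζ' hζ' (fun h => hne (by rw [h])) l hl.2.1 e) y
  rwa [sum_image hf, sum_congr rfl fun ζ hζ => by rw [h1 ζ hζ]] at this

/-- The tail property of a functional. -/
def Tl (S : Set (StrongDual ℝ (V Ω))) (ξ : Ω) (z : ℕ → V Ω) (j : ℕ → ℕ) (x : StrongDual ℝ (V Ω)) :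
    Prop :=
  ∀ η > 0, ∀ᶠ lo in atTop, ∃ u ∈ Submodule.span ℝ S, ∃ ρ : StrongDual ℝ (V Ω), ‖ρ‖ ≤ η ∧
    ∀ y, Tendsto (fun hi => pr (seg z j hi lo hi) y) (hyperfilter ℕ) (𝓝 (x y - u y - y ξ - ρ y))

theorem exists_ext {x : Ω → StrongDual ℝ (V Ω)} {z : Ω → ℕ → V Ω} {j : Ω → ℕ → ℕ} {w : V Ω}
    (h1 : ∀ ζ ∈ w.support, ∀ n, Sp (z ζ) (j ζ) n)
    (h2 : ∀ ζ ∈ w.support, Tl (x '' Set.Iio ζ) ζ (z ζ) (j ζ) (x ζ))
    (h3 : ∀ ζ ∈ w.support, ∀ ζ' ∈ w.support, ζ < ζ' → ∀ᶠ n in atTop, j ζ n ≠ j ζ' n)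
    {η : ℝ} (hη : 0 < η) (y0 : V Ω) :
    ∃ u ∈ Submodule.span ℝ (x '' {ζ | ∃ α ∈ w.support, ζ ≤ α}), ‖u - fn w‖ ≤ N w + η ∧
      |u y0 - pr w y0| ≤ η * nm y0 := by
  set M := ∑ ζ ∈ w.support, |w ζ| with hM
  have hM0 : 0 ≤ M := sum_nonneg fun _ _ => abs_nonneg _
  have e1 : ∀ᶠ lo in atTop, ∀ ζ ∈ w.support, ∀ ζ' ∈ w.support, ζ ≠ ζ' →
      ∀ l, lo ≤ j ζ l → j ζ l ≠ j ζ' l :=
    (eventually_all_finset _).2 fun ζ hζ => (eventually_all_finset _).2 fun ζ' hζ' => by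
      rcases lt_trichotomy ζ ζ' with h | h | h
      · exact (eventually_lo _ (h3 ζ hζ ζ' hζ' h)).mono fun _ h _ => h
      · exact Eventually.of_forall fun _ h' => absurd h h'
      · exact (eventually_lo _ ((h3 ζ' hζ' ζ hζ h).mono fun _ => Ne.symm)).mono fun _ h _ => h
  have e2 : ∀ᶠ lo in atTop, ∀ ζ ∈ w.support, ∀ l, lo ≤ j ζ l → pr (z ζ l) y0 = 0 :=
    (eventually_all_finset _).2 fun ζ hζ => eventually_lo _ (Succ.eventually_zero
      (fun l l' hl => (h1 ζ hζ (l' + 1)).1.succ l l' hl (Nat.lt_succ_self _)) y0)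
  obtain ⟨lo, ⟨a1, a2⟩, a3⟩ := ((e1.and e2).and ((eventually_all_finset _).2 fun ζ hζ =>
    h2 ζ hζ (η / (M + 1)) (by positivity))).exists
  choose! u b1 ρ b2 b3 using a3
  have c1 : ∀ y, Tendsto (fun hi => ∑ ζ ∈ w.support, w ζ * pr (seg (z ζ) (j ζ) hi lo hi) y)
      (hyperfilter ℕ) (𝓝 ((∑ ζ ∈ w.support, w ζ • (x ζ - u ζ)) y - pr w y -
        (∑ ζ ∈ w.support, w ζ • ρ ζ) y)) := fun y => by
    have := tendsto_finsetSum w.support fun ζ hζ => (b3 ζ hζ y).const_mul (w ζ)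
    rw [pr_eq w y subset_rfl]
    simpa only [_root_.sum_apply, smul_apply, sub_apply, smul_eq_mul, mul_sub, sum_sub_distrib] using this
  have c2 : ∀ y, |(∑ ζ ∈ w.support, w ζ • ρ ζ) y| ≤ η * nm y := fun y => by
    refine ((∑ ζ ∈ w.support, w ζ • ρ ζ).le_opNorm y).trans
      (mul_le_mul_of_nonneg_right ((norm_sum_le _ _).trans ?_) (nm_nonneg y))
    calc _ ≤ ∑ ζ ∈ w.support, |w ζ| * (η / (M + 1)) := sum_le_sum fun ζ hζ => by
          rw [norm_smul]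
          exact mul_le_mul_of_nonneg_left (b2 ζ hζ) (abs_nonneg _)
      _ ≤ _ := by
          rw [← sum_mul, ← hM, ← mul_div_assoc, div_le_iff₀ (by positivity)]
          linarith
  refine ⟨∑ ζ ∈ w.support, w ζ • (x ζ - u ζ), Submodule.sum_mem _ fun ζ hζ =>
    Submodule.smul_mem _ _ (sub_mem (Submodule.subset_span ⟨ζ, ⟨ζ, hζ, le_rfl⟩, rfl⟩)
      (Submodule.span_mono (Set.image_mono fun ζ' h => by exact ⟨ζ, hζ, le_of_lt h⟩) (b1 ζ hζ))),
    ContinuousLinearMap.opNorm_le_bound _ (add_nonneg (N_nonneg _) hη.le) fun y => ?_, ?_⟩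
  · have c3 := le_of_tendsto' (c1 y).abs fun hi => show _ ≤ N w * nm y by
      refine abs_le_of_sq_le_sq' ?_ (mul_nonneg (N_nonneg _) (nm_nonneg _)) |> abs_le.2
      refine (sum_mul_sq_le_sq_mul_sq _ _ _).trans ?_
      rw [mul_pow, N_sq, pr_eq w w subset_rfl]
      simp only [← pow_two]
      exact mul_le_mul_of_nonneg_left (l2_seg' (fun ζ hζ => h1 ζ hζ hi) a1 y)
        (sum_nonneg fun _ _ => sq_nonneg _)
    have c4 := c2 y
    rw [sub_apply, fn_apply, Real.norm_eq_abs, norm_eq]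
    rw [abs_le] at c3 c4 ⊢
    constructor <;> linarith
  · have c3 := tendsto_nhds_unique (c1 y0) (tendsto_const_nhds.congr fun hi =>
      (sum_eq_zero fun ζ hζ => by
        rw [seg, map_sum, LinearMap.sum_apply,
          sum_eq_zero fun l hl => a2 ζ hζ l (mem_idx.1 hl).2.1, mul_zero]).symm)
    rw [sub_eq_zero.1 c3]
    exact c2 y0

theorem exists_branch {g : ℕ → V Ω} (hg : Succ g) {ξ : Ω} (hξ : ∀ n, ∀ α ∈ (g n).support, α < ξ)
    (A : ℕ → Finset ℕ) : ∃ (C : ℕ → Col g) (j : ℕ → ℕ), Ord C ∧ (∀ n, Sp (fun l => (C l).w) j n) ∧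
      ∀ n, n ≤ (C n).a ∧ j n ∉ A n ∧ nm (C n).v ≤ 192 ∧
        ((∀ n, g n ≠ 0) → 1 ≤ pr (C n).w (C n).v) := by
  have sup : ∀ J a, 0 < J → ∃ C : Col g, a ≤ C.a ∧ IsOp J C.w ∧ nm C.v ≤ 192 ∧
      ((∀ n, g n ≠ 0) → 1 ≤ pr C.w C.v) := by
    rintro (_ | J) a hJ
    · exact absurd hJ (lt_irrefl 0)
    by_cases h0 : ∀ n, g n ≠ 0
    · obtain ⟨C, c1, c2, c3, c4⟩ := exact_pair hg h0 J a
      exact ⟨C, c1, c2, c4, fun _ => c3⟩
    · exact ⟨⟨a, a, 0, 0, zero_mem _, by simp, InK.zero, le_rfl⟩, le_rfl, isOp_zero _,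
        by simp [nm_zero], fun h => absurd h h0⟩
  obtain ⟨s, hs⟩ := exists_rec (α := ℕ) (D := Col g × ℕ)
    (fun n s d => (∃ p, (∀ i < n, (s i).1.w.support ⊆ Rho.F p ξ) ∧
      Adm p (hist p (fun i => (s i).1.w) (fun i => (s i).2) n) ∧
      d.2 = Encodable.encode (p, hist p (fun i => (s i).1.w) (fun i => (s i).2) n)) ∧
      (∀ i < n, (s i).1.b ≤ d.1.a ∧ (s i).2 < d.2) ∧ IsOp d.2 d.1.w ∧
      n ≤ d.1.a ∧ d.2 ∉ A n ∧ nm d.1.v ≤ 192 ∧ ((∀ n, g n ≠ 0) → 1 ≤ pr d.1.w d.1.v))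
    (fun n s s' d e ⟨⟨p, a1, a2⟩, a3, a4⟩ => by
      rw [hist_congr (z' := fun i => (s' i).1.w) (j' := fun i => (s' i).2) fun i hi => by
        simp only [e i hi, and_self]] at a2
      exact ⟨⟨p, fun i hi => e i hi ▸ a1 i hi, a2⟩, fun i hi => e i hi ▸ a3 i hi, a4⟩)
    fun n s _ => by
      obtain ⟨p, a1, a2, a3⟩ := exists_code (fun i => (s i).1.w) (fun i => (s i).2) n (η := ξ)
        (fun i _ α hα => by
          obtain ⟨-, k, -, β, b1, b2⟩ := (s i).1.hw α hα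
          exact b2.trans (hξ k β b1).le) (A n ∪ range ((range n).sup (fun i => (s i).2) + 1))
      rw [mem_union, not_or, mem_range, not_lt] at a3
      obtain ⟨C, c1, c2, c3⟩ := sup _ (max n ((range n).sup fun i => (s i).1.b))
        ((Nat.succ_pos _).trans_le a3.2)
      exact ⟨(C, _), ⟨p, a1, a2, rfl⟩, fun i hi =>
        ⟨(le_sup (f := fun i => (s i).1.b) (mem_range.2 hi)).trans (le_of_max_le_right c1),
          (le_sup (f := fun i => (s i).2) (mem_range.2 hi)).trans_lt a3.2⟩, c2,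
        le_of_max_le_left c1, a3.1, c3⟩
  have ho : Ord fun l => (s l).1 := fun i l h => ((hs l).2.1 i h).1
  refine ⟨_, fun l => (s l).2, ho, fun n => ⟨⟨fun l _ => (s l).1.hK.isRat,
    fun l l' h _ => ho.succ_w hg l l' h, fun l l' h _ => ((hs l').2.1 l h).2, fun l _ => ?_⟩,
    fun l _ => (hs l).2.2.1⟩, fun n => (hs n).2.2.2⟩
  obtain ⟨p, h⟩ := (hs l).1
  exact ⟨p, ξ, h⟩

theorem exists_functional {g : ℕ → V Ω} (hg : Succ g) {ξ : Ω}
    (hξ : ∀ n, ∀ α ∈ (g n).support, α < ξ) {C : ℕ → Col g} {j : ℕ → ℕ} (ho : Ord C)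
    (hs : ∀ n, Sp (fun l => (C l).w) j n) {S : Set (StrongDual ℝ (V Ω))}
    {u : ℕ → StrongDual ℝ (V Ω)} (h1 : ∀ n, u n ∈ Submodule.span ℝ S)
    (h2 : ∀ n, ‖u n - fn (C n).w‖ ≤ 1 / 512 / 2 / 2 ^ n) :
    ∃ x : StrongDual ℝ (V Ω), Tl S ξ (fun l => (C l).w) j x ∧
      (∀ η, (∀ n, u n (Finsupp.single η 1) = 0) → (∀ n, η ∉ (C n).w.support) →
        x (Finsupp.single η 1) = Finsupp.single η (1 : ℝ) ξ) ∧
      ∀ n, pr (C n).w (C n).v - 1 / 512 * nm (C n).v ≤ x (C n).v := by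
  obtain ⟨T, hT⟩ := exists_ultralimit (hyperfilter ℕ)
    (fun hi => fn (seg (fun l => (C l).w) j hi 0 hi)) fun hi => ((hs hi).seg_inK _ _).norm_fn
  simp only [fn_apply] at hT
  have hsum := (Summable.of_norm_bounded (summable_geometric_two' (1 / 512)) h2).hasSum
  have hnorm := tsum_of_norm_bounded (hasSum_geometric_two' (1 / 512)) h2
  generalize ∑' n, (u n - fn (C n).w) = σ at hsum hnorm
  have hH : ∀ n, ∀ᶠ r : ℕ in hyperfilter ℕ, n ≤ r := fun n =>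
    Nat.hyperfilter_le_atTop (eventually_ge_atTop n)
  refine ⟨fn (Finsupp.single ξ 1) + T + σ, fun η hη => ?_, fun η a1 a2 => ?_, fun n => ?_⟩
  · have a1 : Tendsto (fun lo => idx j lo 0 lo) atTop atTop :=
      tendsto_atTop_finset_of_monotone (fun a b h l => by simp only [mem_idx]; omega) fun l =>
        ⟨max l (j l) + 1, by simp only [mem_idx]; omega⟩
    filter_upwards [Metric.tendsto_nhds.1 (hsum.comp a1) η hη] with lo a2
    refine ⟨∑ l ∈ idx j lo 0 lo, u l, Submodule.sum_mem _ fun l _ => h1 l,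
      σ - ∑ l ∈ idx j lo 0 lo, (u l - fn (C l).w), ?_, fun y => ?_⟩
    · rw [← dist_eq_norm']
      exact a2.le
    · have a3 := (hT y).sub_const (pr (seg (fun l => (C l).w) j lo 0 lo) y)
      have a4 : (fn (Finsupp.single ξ 1) + T + σ) y - (∑ l ∈ idx j lo 0 lo, u l) y - y ξ -
          (σ - ∑ l ∈ idx j lo 0 lo, (u l - fn (C l).w)) y =
          T y - pr (seg (fun l => (C l).w) j lo 0 lo) y := by
        simp only [add_apply, sub_apply, _root_.sum_apply, fn_apply, pr_single, seg, map_sum,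
          LinearMap.sum_apply, sum_sub_distrib]
        ring
      rw [a4]
      refine a3.congr' ((hH lo).mono fun hi h => ?_)
      have a5 := seg_split (fun l => (C l).w) j hi 0 hi lo
      rw [min_eq_right h, max_eq_right (Nat.zero_le _), (hs hi).1.seg_stable h] at a5
      simp only [a5, map_add, LinearMap.add_apply, add_sub_cancel_left]
  · have b1 : ∀ n, pr (C n).w (Finsupp.single η 1) = 0 := fun n => by
      rw [pr_comm, pr_single, Finsupp.notMem_support_iff.1 (a2 n), mul_zero]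
    have b2 := tendsto_nhds_unique (hT (Finsupp.single η 1)) (tendsto_const_nhds.congr fun hi => by
      rw [seg, map_sum, LinearMap.sum_apply, sum_eq_zero fun l _ => b1 l])
    have b3 := ((ContinuousLinearMap.apply ℝ ℝ (Finsupp.single η (1 : ℝ))).hasSum hsum).unique
      (a₂ := 0) (by simp [a1, fn_apply, b1])
    rw [ContinuousLinearMap.apply_apply] at b3
    simp only [add_apply, fn_apply, pr_single, b2, b3, one_mul, add_zero]
  · have b1 : (C n).v ξ = 0 := Finsupp.notMem_support_iff.1 fun h => by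
      obtain ⟨-, k, -, β, b1, b2⟩ := mem_Rg (C n).hv ξ h
      exact (hξ k β b1).not_ge b2
    have b2 := tendsto_nhds_unique (hT (C n).v) (tendsto_const_nhds.congr'
      ((hH (max n (j n) + 1)).mono fun hi h => show pr (C n).w (C n).v = _ by
        simp only [seg]
        rw [map_sum, LinearMap.sum_apply, sum_eq_single_of_mem n (mem_idx.2 (by omega))]
        intro l _ hl
        simpa [hl] using ho.pr_sum hg (I := {n}) l))
    have b3 := (σ.le_opNorm (C n).v).trans (mul_le_mul_of_nonneg_right hnorm (norm_nonneg _))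
    rw [Real.norm_eq_abs, norm_eq, abs_le] at b3
    simp only [add_apply, fn_apply, pr_single, b1, b2]
    linarith

theorem exists_system [WellFoundedLT Ω] (hc : ∀ a : Ω, (Set.Iio a).Countable) {g : Ω → ℕ → V Ω}
    (hg : ∀ ξ, Succ (g ξ)) (hlt : ∀ ξ n, ∀ α ∈ (g ξ n).support, α < ξ) :
    ∃ x : Ω → StrongDual ℝ (V Ω),
      (∀ ξ η, (∀ n, ∀ α ∈ (g ξ n).support, α < η) →
        x ξ (Finsupp.single η 1) = Finsupp.single η (1 : ℝ) ξ) ∧
      (∀ ξ, (∀ n, g ξ n ≠ 0) → ∃ C : ℕ → Col (g ξ), ∀ n, n ≤ (C n).a ∧ nm (C n).v ≤ 192 ∧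
        1 / 2 ≤ x ξ (C n).v) ∧
      ∀ w, InK w → ∀ y, ∀ η > 0, ∃ u ∈ Submodule.span ℝ (x '' {ζ | ∃ α ∈ w.support, ζ ≤ α}),
        ‖u‖ ≤ 2 + η ∧ |u y - pr w y| ≤ η * nm y := by
  obtain ⟨s, hs⟩ := exists_rec (α := Ω) (D := (ℕ → V Ω) × (ℕ → ℕ) × StrongDual ℝ (V Ω))
    (fun ξ s d => (∀ ζ < ξ, ∀ᶠ n in atTop, (s ζ).2.1 n ≠ d.2.1 n) ∧
      Tl ((fun ζ => (s ζ).2.2) '' Set.Iio ξ) ξ d.1 d.2.1 d.2.2 ∧ (∀ n, Sp d.1 d.2.1 n) ∧
      (∀ η, (∀ n, ∀ α ∈ (g ξ n).support, α < η) →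
        d.2.2 (Finsupp.single η 1) = Finsupp.single η (1 : ℝ) ξ) ∧
      ((∀ n, g ξ n ≠ 0) → ∃ C : ℕ → Col (g ξ), ∀ n, n ≤ (C n).a ∧ nm (C n).v ≤ 192 ∧
        1 / 2 ≤ d.2.2 (C n).v))
    (fun ξ s s' d e ⟨a1, a2, a3⟩ => ⟨fun ζ h => e ζ h ▸ a1 ζ h, by
      rwa [Set.image_congr (g := fun ζ => (s' ζ).2.2) fun ζ h => by rw [e ζ h]] at a2, a3⟩)
    fun ξ s ih => by
      obtain ⟨f, hf⟩ := Set.countable_iff_exists_injOn.1 (hc ξ)
      have hfin : ∀ n, {ζ | ζ < ξ ∧ f ζ ≤ n}.Finite := fun n =>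
        Set.Finite.of_finite_image ((Set.finite_Iic n).subset (by
          rintro _ ⟨ζ, h, rfl⟩
          exact h.2)) (hf.mono fun ζ h => h.1)
      obtain ⟨C, j, a1, a2, a3⟩ := exists_branch (hg ξ) (hlt ξ) fun n =>
        range (n + 10) ∪ (hfin n).toFinset.image fun ζ => (s ζ).2.1 n
      have a4 : ∀ n, ∀ ζ ∈ (C n).w.support, ∃ k, ∃ β ∈ (g ξ k).support, ζ ≤ β := fun n ζ h => by
        obtain ⟨-, k, -, h⟩ := (C n).hw ζ h
        exact ⟨k, h⟩
      have a5 : ∀ n, ∀ ζ ∈ (C n).w.support, ζ < ξ := fun n ζ h => by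
        obtain ⟨k, β, b1, b2⟩ := a4 n ζ h
        exact b2.trans_lt (hlt ξ k β b1)
      choose u b1 b2 using fun n => exists_ext (x := fun ζ => (s ζ).2.2) (w := (C n).w)
        (fun ζ h => (ih ζ (a5 n ζ h)).2.2.1) (fun ζ h => (ih ζ (a5 n ζ h)).2.1)
        (fun ζ _ ζ' h h' => (ih ζ' (a5 n ζ' h)).1 ζ h') (η := 1 / 2048 / 2 ^ n) (by positivity) 0
      obtain ⟨x, c1, c2, c3⟩ := exists_functional (hg ξ) (hlt ξ) a1 a2
        (S := (fun ζ => (s ζ).2.2) '' Set.Iio ξ) (u := u)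
        (fun n => Submodule.span_mono (Set.image_mono fun ζ h => by
          exact h.elim fun α h => h.2.trans_lt (a5 n α h.1)) (b1 n)) fun n => by
          have c1 := ((a2 (n + 1)).2 n (Nat.lt_succ_self n)).N_le
          have c2 := inv_mm_le (j n)
          have c3 : (1 / 2 : ℝ) ^ j n ≤ (1 / 2) ^ (n + 10) :=
            pow_le_pow_of_le_one (by norm_num) (by norm_num) (by
              have := (a3 n).2.1
              rw [mem_union, not_or, mem_range] at this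
              omega)
          have c4 := (b2 n).1
          have c5 : ∀ c : ℝ, c / 2 ^ n = c * (1 / 2) ^ n := fun c => by rw [one_div_pow, mul_one_div]
          rw [pow_add] at c3
          rw [c5] at c4 ⊢
          have : (0 : ℝ) < (1 / 2) ^ n := by positivity
          linarith
      refine ⟨(_, j, x), fun ζ hζ => ?_, c1, a2, fun η hη => c2 η (fun n => ?_) fun n h => ?_,
        fun h0 => ⟨C, fun n => ⟨(a3 n).1, (a3 n).2.2.1, ?_⟩⟩⟩
      · filter_upwards [eventually_ge_atTop (f ζ)] with n hn e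
        exact (a3 n).2.1 (mem_union_right _ (mem_image.2 ⟨ζ, by simp [hζ, hn], e⟩))
      · refine (Submodule.span_le (p := LinearMap.ker (ContinuousLinearMap.apply ℝ ℝ
          (Finsupp.single η (1 : ℝ))).toLinearMap)).2 ?_ (b1 n)
        rintro _ ⟨ζ, ⟨α, d1, d2⟩, rfl⟩
        obtain ⟨k, β, d3, d4⟩ := a4 n α d1
        have d5 := (d2.trans d4).trans_lt (hη k β d3)
        exact ((ih ζ (d2.trans_lt (a5 n α d1))).2.2.2.1 η fun k α h =>
          (hlt ζ k α h).trans d5).trans (Finsupp.single_eq_of_ne d5.ne)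
      · obtain ⟨k, β, d3, d4⟩ := a4 n η h
        exact (hη k β d3).not_ge d4
      · have := c3 n
        have := (a3 n).2.2.1
        have := (a3 n).2.2.2 h0
        simp only
        linarith
  refine ⟨fun ξ => (s ξ).2.2, fun ξ => (hs ξ).2.2.2.1, fun ξ => (hs ξ).2.2.2.2,
    fun w hw y η hη => ?_⟩
  obtain ⟨u, a1, a2, a3⟩ := exists_ext (x := fun ζ => (s ζ).2.2) (w := w)
    (fun ζ _ => (hs ζ).2.2.1) (fun ζ _ => (hs ζ).2.1) (fun ζ _ ζ' _ h' => (hs ζ').1 ζ h') hη y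
  refine ⟨u, a1, ?_, a3⟩
  have := norm_add_le (u - fn w) (fn w)
  have := hw.norm_fn
  have := hw.N_le
  rw [sub_add_cancel] at *
  linarith

end Vale.Agent.P129.CH
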