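import Vale.Agent.P129.CH.Final

/-! The counterexample over an arbitrary field of scalars `ℝ` or `ℂ`. -/

set_option maxSynthPendingDepth 3

open Finset Filter Topology

namespace Vale.Agent.P129.CH

theorem exists_small_subspace {E E' : Type*} [NormedAddCommGroup E] [NormedSpace ℝ E]
    [NormedAddCommGroup E'] [NormedSpace ℝ E'] {W : Submodule ℝ E} (hW : ¬ FiniteDimensional ℝ W)
    (P : E →ₗ[ℝ] E') (h : ∀ W0 ≤ W, ¬ FiniteDimensional ℝ W0 → ∀ ε > 0,
      ∃ φ ∈ W0, ‖φ‖ = 1 ∧ ‖P φ‖ ≤ ε) {δ : ℝ} (hδ : 0 < δ) :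
    ∃ W0 ≤ W, ¬ FiniteDimensional ℝ W0 ∧ ∀ φ ∈ W0, ‖P φ‖ ≤ δ * ‖φ‖ := by
  obtain ⟨s, hs⟩ := exists_rec (α := ℕ) (D := E × StrongDual ℝ E)
    (fun n s d => (d.1 ∈ W ∧ ‖d.1‖ = 1 ∧ ‖P d.1‖ ≤ δ * (1 / 4) ^ n / 2 ∧ ‖d.2‖ ≤ 1 ∧
      d.2 d.1 = 1) ∧ ∀ i < n, (s i).2 d.1 = 0)
    (fun n s s' d e h => ⟨h.1, fun i hi => e i hi ▸ h.2 i hi⟩)
    fun n s _ => by
      let L : E →ₗ[ℝ] Fin n → ℝ := LinearMap.pi fun i => (s i).2.toLinearMap
      obtain ⟨φ, a1, a2, a3⟩ := h (W ⊓ LinearMap.ker L) inf_le_left (fun h0 => hW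
        (Module.Finite.iff_fg.2 (Submodule.fg_of_fg_map_of_fg_inf_ker L
          (IsNoetherian.noetherian _) (Module.Finite.iff_fg.1 h0)))) (δ * (1 / 4) ^ n / 2)
        (by positivity)
      obtain ⟨f, f1, f2⟩ := exists_dual_vector'' ℝ φ
      exact ⟨(φ, f), ⟨a1.1, a2, a3, f1, by simpa [a2] using f2⟩,
        fun i hi => congrFun a1.2 ⟨i, hi⟩⟩
  have key : ∀ n k, ∀ ψ ∈ Submodule.span ℝ ((fun i => (s i).1) '' Set.Ico k (k + n)),
      ‖P ψ‖ ≤ δ * (1 / 4) ^ k * ‖ψ‖ := by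
    intro n
    induction n with
    | zero => simp
    | succ n ih =>
      intro k ψ hψ
      rw [← Set.Ioo_insert_left (by omega), Set.image_insert_eq, Submodule.mem_span_insert] at hψ
      obtain ⟨c, ψ, hψ, rfl⟩ := hψ
      obtain ⟨-, a2, a3, a4, a5⟩ := (hs k).1
      have b1 : (s k).2 ψ = 0 :=
        (Submodule.span_le (p := LinearMap.ker (s k).2.toLinearMap)).2 (by
          rintro _ ⟨i, hi, rfl⟩
          exact (hs i).2 k hi.1) hψ
      have b2 := ((s k).2.le_opNorm (c • (s k).1 + ψ)).trans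
        (mul_le_of_le_one_left (norm_nonneg _) a4)
      have b3 := norm_sub_le (c • (s k).1 + ψ) (c • (s k).1)
      have b4 := ih (k + 1) ψ (Submodule.span_mono (Set.image_mono fun i hi => by
        exact ⟨hi.1, by have := hi.2; omega⟩) hψ)
      have b5 := norm_add_le (c • P (s k).1) (P ψ)
      rw [map_add, map_smul, b1, a5, add_zero, smul_eq_mul, mul_one] at b2
      rw [add_sub_cancel_left, norm_smul, a2, mul_one] at b3
      rw [norm_smul] at b5
      rw [pow_succ, ← mul_assoc] at b4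
      rw [map_add, map_smul]
      have b6 : 0 < δ * (1 / 4) ^ k := by positivity
      generalize δ * (1 / 4) ^ k = t at *
      nlinarith [mul_le_mul b2 a3 (norm_nonneg _) (norm_nonneg _)]
  refine ⟨Submodule.span ℝ (Set.range fun i => (s i).1), Submodule.span_le.2 ?_, fun h0 => ?_,
    fun φ hφ => ?_⟩
  · rintro _ ⟨i, rfl⟩
    exact (hs i).1.1
  · refine Module.Finite.not_linearIndependent_of_infinite (R := ℝ)
      (fun i : ℕ => (⟨(s i).1, Submodule.subset_span ⟨i, rfl⟩⟩ :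
        Submodule.span ℝ (Set.range fun i => (s i).1))) (LinearIndependent.of_comp
      (Submodule.subtype _) (linearIndependent_iff'.2 fun t c hc i => ?_))
    induction i using Nat.strong_induction_on with
    | _ i ih =>
      intro hi
      have := congrArg (s i).2 hc
      rw [map_sum, map_zero, sum_eq_single_of_mem i hi fun l hl hne => by
        rcases lt_or_gt_of_ne hne with h1 | h1
        · simp [ih l h1 hl]
        · simp [(hs l).2 i h1]] at this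
      simpa [(hs i).1.2.2.2.2] using this
  · rw [← Set.image_univ] at hφ
    obtain ⟨l, -, rfl⟩ := (Finsupp.mem_span_image_iff_linearCombination ℝ).1 hφ
    obtain ⟨n, hn⟩ := l.support.exists_nat_subset_range
    simpa using key n 0 _ ((Finsupp.mem_span_image_iff_linearCombination ℝ).2
      ⟨l, fun i hi => by simpa using hn hi, rfl⟩)

theorem Sys.singular {Ω : Type} [LinearOrder Ω] [Rho Ω] [WellFoundedLT Ω] {X : Type}
    [NormedAddCommGroup X] [NormedSpace ℝ X] {x : Ω → X} {ev : V Ω →ₗ[ℝ] StrongDual ℝ X}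
    (h : Sys x ev) {E : Type*} [NormedAddCommGroup E] [NormedSpace ℝ E] {W : Submodule ℝ E}
    (P : E →ₗ[ℝ] StrongDual ℝ X) (d : ℕ → X)
    (hd : ∀ u, ∀ ε > 0, ∃ i, ∀ φ ∈ W, |P φ u - P φ (d i)| ≤ ε * ‖φ‖) :
    ∀ W0 ≤ W, ¬ FiniteDimensional ℝ W0 → ∀ ε > 0, ∃ φ ∈ W0, ‖φ‖ = 1 ∧ ‖P φ‖ ≤ ε := by
  intro W0 h0 h1 ε hε
  by_contra! hc
  have h2 : ∀ φ ∈ W0, ε * ‖φ‖ ≤ ‖P φ‖ := fun φ hφ => by
    rcases eq_or_ne φ 0 with rfl | h3
    · simp
    have h4 := norm_pos_iff.2 h3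
    have := hc (‖φ‖⁻¹ • φ) (W0.smul_mem _ hφ)
      (by rw [norm_smul, norm_inv, norm_norm, inv_mul_cancel₀ h4.ne'])
    rw [map_smul, norm_smul, norm_inv, norm_norm, lt_inv_mul_iff₀ h4] at this
    linarith
  refine h.no_null (W := W0.map P) (fun h3 => h1 (FiniteDimensional.of_injective
    (P.submoduleMap W0) ((injective_iff_map_eq_zero _).2 fun φ hφ => ?_))) d fun u δ hδ => ?_
  · have := h2 φ φ.2
    rw [show P φ = 0 from congrArg Subtype.val hφ, norm_zero] at this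
    exact Subtype.ext (norm_le_zero_iff.1 (nonpos_of_mul_nonpos_right this hε))
  · obtain ⟨i, hi⟩ := hd u (δ * ε) (by positivity)
    refine ⟨i, ?_⟩
    rintro _ ⟨φ, hφ, rfl⟩
    exact (hi φ (h0 hφ)).trans (by rw [mul_assoc]; gcongr; exact h2 φ hφ)

theorem norm_I_le (𝕜 : Type*) [RCLike 𝕜] : ‖(RCLike.I : 𝕜)‖ ≤ 1 := by
  rw [RCLike.norm_I]
  split_ifs <;> norm_num

theorem Sys.no_quotient' {Ω : Type} [LinearOrder Ω] [Rho Ω] [WellFoundedLT Ω] {X : Type}
    [NormedAddCommGroup X] [NormedSpace ℝ X] {x : Ω → X} {ev : V Ω →ₗ[ℝ] StrongDual ℝ X}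
    (h : Sys x ev) {𝕜 Z : Type*} [RCLike 𝕜] [NormedAddCommGroup Z] [NormedSpace 𝕜 Z]
    [NormedSpace ℝ Z] [IsScalarTower ℝ 𝕜 Z] (j : X →L[ℝ] Z)
    (hj : Dense {z : Z | ∃ u v, z = j u + (RCLike.I : 𝕜) • j v ∧ ‖u‖ ≤ ‖z‖ ∧ ‖v‖ ≤ ‖z‖})
    (M : Submodule 𝕜 Z) (hM : IsClosed (M : Set Z))
    (hs : TopologicalSpace.SeparableSpace (Z ⧸ M)) : FiniteDimensional 𝕜 (Z ⧸ M) := by
  by_contra hf
  let L : StrongDual 𝕜 (Z ⧸ M) →ₗ[𝕜] StrongDual 𝕜 Z :=
    { toFun := fun ψ => ψ.comp M.mkQL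
      map_add' := fun _ _ => rfl
      map_smul' := fun _ _ => rfl }
  have hL : Function.Injective L := fun ψ ψ' e => ContinuousLinearMap.ext fun q => by
    obtain ⟨u, rfl⟩ := M.mkQ_surjective q
    exact DFunLike.congr_fun e u
  have hW : ¬ FiniteDimensional ℝ ((LinearMap.range L).restrictScalars ℝ) := fun hW => by
    have : Module.Finite ℝ (LinearMap.range L) := hW
    have := Module.Finite.of_restrictScalars_finite ℝ 𝕜 (LinearMap.range L)
    exact dual_infinite hf (LinearEquiv.ofInjective L hL).symm.finiteDimensional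
  have := (TopologicalSpace.IsSeparable.of_separableSpace
    (Set.range fun u => M.mkQ (j u))).separableSpace
  obtain ⟨q, hq⟩ := TopologicalSpace.exists_dense_seq (Set.range fun u => M.mkQ (j u))
  choose d hd using fun i => (q i).2
  let P : (𝕜 →L[ℝ] ℝ) → StrongDual 𝕜 Z →ₗ[ℝ] StrongDual ℝ X := fun r =>
    { toFun := fun φ => r.comp ((φ.restrictScalars ℝ).comp j)
      map_add' := fun _ _ => by ext u; simp
      map_smul' := fun _ _ => by ext u; simp }
  have hP : ∀ r φ u, P r φ u = r (φ (j u)) := fun _ _ _ => rfl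
  have hsing := fun (r : 𝕜 →L[ℝ] ℝ) (hr : ∀ c, |r c| ≤ ‖c‖) => h.singular
    (W := (LinearMap.range L).restrictScalars ℝ) (P r) d fun u ε hε => by
      obtain ⟨i, hi⟩ := hq.exists_dist_lt ⟨_, u, rfl⟩ (half_pos hε)
      obtain ⟨m, h1, h2⟩ := Submodule.Quotient.norm_mk_lt (M.mkQ (j u) - (q i).1) (half_pos hε)
      refine ⟨i, ?_⟩
      rintro _ ⟨ψ, rfl⟩
      have h3 : L ψ (j u) - L ψ (j (d i)) = L ψ m := by
        change ψ (M.mkQ (j u)) - ψ (M.mkQ (j (d i))) = ψ (Submodule.Quotient.mk m)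
        rw [h1, ← hd, map_sub]
      rw [hP, hP, ← map_sub, h3, mul_comm]
      rw [Subtype.dist_eq, dist_eq_norm] at hi
      exact (hr _).trans (((L ψ).le_opNorm m).trans
        (mul_le_mul_of_nonneg_left (by linarith) (norm_nonneg _)))
  obtain ⟨W0, a1, a2, a3⟩ := exists_small_subspace hW _
    (hsing RCLike.reCLM RCLike.abs_re_le_norm) (δ := 1 / 8) (by norm_num)
  obtain ⟨φ, b1, b2, b3⟩ := hsing RCLike.imCLM RCLike.abs_im_le_norm W0 a1 a2 (1 / 8) (by norm_num)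
  have b4 := a3 φ b1
  have b5 : ∀ u, ‖φ (j u)‖ ≤ 1 / 4 * ‖u‖ := fun u => by
    have c1 := (P RCLike.reCLM φ).le_opNorm u
    have c2 := (P RCLike.imCLM φ).le_opNorm u
    have c3 := norm_add_le (RCLike.re (φ (j u)) : 𝕜) (RCLike.im (φ (j u)) * RCLike.I)
    have c4 := mul_le_of_le_one_right (norm_nonneg (RCLike.im (φ (j u)) : 𝕜)) (norm_I_le 𝕜)
    rw [RCLike.re_add_im, norm_mul] at c3
    rw [RCLike.norm_ofReal] at c4
    simp only [RCLike.norm_ofReal] at c3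
    rw [hP, Real.norm_eq_abs] at c1 c2
    rw [RCLike.reCLM_apply] at c1
    rw [RCLike.imCLM_apply] at c2
    rw [b2] at b4
    nlinarith [norm_nonneg u]
  have b7 : ‖φ‖ ≤ 1 / 2 := ContinuousLinearMap.opNorm_le_bound _ (by norm_num) fun z =>
    hj.induction (P := fun z => ‖φ z‖ ≤ 1 / 2 * ‖z‖) (fun z ⟨u, v, c2, c3, c4⟩ => by
      have c5 := norm_add_le (φ (j u)) ((RCLike.I : 𝕜) • φ (j v))
      rw [← map_smul, ← map_add, ← c2, map_smul, norm_smul] at c5
      have c6 := mul_le_of_le_one_left (norm_nonneg (φ (j v))) (norm_I_le 𝕜)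
      linarith [b5 u, b5 v]) (isClosed_le (by fun_prop) (by fun_prop)) z
  linarith

universe w

theorem exists_complexification (X : Type) [NormedAddCommGroup X] [NormedSpace ℝ X] (𝕜 : Type w)
    [RCLike 𝕜] : ∃ (Z : Type w) (_ : NormedAddCommGroup Z) (_ : NormedSpace 𝕜 Z)
      (_ : NormedSpace ℝ Z) (_ : IsScalarTower ℝ 𝕜 Z) (j : X →L[ℝ] Z), CompleteSpace Z ∧
      Function.Injective j ∧
      Dense {z : Z | ∃ u v, z = j u + (RCLike.I : 𝕜) • j v ∧ ‖u‖ ≤ ‖z‖ ∧ ‖v‖ ≤ ‖z‖} := by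
  let j0 : X →ₗ[ℝ] StrongDual ℝ X →L[ℝ] 𝕜 :=
    { toFun := fun u => RCLike.ofRealCLM.comp (ContinuousLinearMap.apply ℝ ℝ u)
      map_add' := fun u v => by ext f; simp
      map_smul' := fun c u => by ext f; simp [RCLike.real_smul_eq_coe_mul] }
  have hj0 : ∀ u f, j0 u f = (f u : 𝕜) := fun _ _ => rfl
  let Z := (Submodule.span 𝕜 (Set.range j0)).topologicalClosure
  let j : X →ₗ[ℝ] Z := (j0.codRestrict (Z.restrictScalars ℝ) fun u =>
    Submodule.le_topologicalClosure _ (Submodule.subset_span ⟨u, rfl⟩) :)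
  have hn : ∀ u, ‖j u‖ ≤ 1 * ‖u‖ := fun u =>
    ContinuousLinearMap.opNorm_le_bound (j0 u) (by positivity) fun f => by
      rw [hj0, RCLike.norm_ofReal, one_mul, mul_comm]
      exact f.le_opNorm u
  have hrep : ∀ z ∈ Submodule.span 𝕜 (Set.range j0), ∃ u v : X,
      ∀ f, RCLike.re (z f) = f u ∧ RCLike.im (z f) = f v := by
    intro z hz
    induction hz using Submodule.span_induction with
    | mem z hz =>
      obtain ⟨u, rfl⟩ := hz
      exact ⟨u, 0, fun f => by simp [hj0]⟩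
    | zero => exact ⟨0, 0, by simp⟩
    | add z z' _ _ h1 h2 =>
      obtain ⟨u, v, h1⟩ := h1
      obtain ⟨u', v', h2⟩ := h2
      exact ⟨u + u', v + v', fun f => by simp [h1, h2]⟩
    | smul c z _ h1 =>
      obtain ⟨u, v, h1⟩ := h1
      exact ⟨RCLike.re c • u - RCLike.im c • v, RCLike.re c • v + RCLike.im c • u,
        fun f => by simp [h1]⟩
  have b6 : Dense {z : Z | z.1 ∈ Submodule.span 𝕜 (Set.range j0)} :=
    Subtype.dense_iff.2 fun z hz => closure_mono (fun u hu => by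
      exact ⟨⟨u, Submodule.le_topologicalClosure _ hu⟩, hu, rfl⟩) hz
  refine ⟨Z, inferInstance, inferInstance, inferInstance, inferInstance, j.mkContinuous 1 hn,
    inferInstance, (injective_iff_map_eq_zero j).2 fun u hu => ?_, b6.mono fun z hz => ?_⟩
  · refine SeparatingDual.eq_zero_of_forall_dual_eq_zero (R := ℝ) fun f => ?_
    have := hj0 u f
    rw [show j0 u = 0 from congrArg Subtype.val hu] at this
    exact RCLike.ofReal_eq_zero.1 this.symm
  · obtain ⟨u, v, c1⟩ := hrep z.1 hz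
    refine ⟨u, v, Subtype.ext (ContinuousLinearMap.ext fun f => ?_),
      NormedSpace.norm_le_dual_bound ℝ u (norm_nonneg _) fun f => ?_,
      NormedSpace.norm_le_dual_bound ℝ v (norm_nonneg _) fun f => ?_⟩
    · rw [← RCLike.re_add_im (z.1 f), (c1 f).1, (c1 f).2, mul_comm]
      rfl
    · rw [← (c1 f).1]
      exact (RCLike.abs_re_le_norm _).trans (z.1.le_opNorm f)
    · rw [← (c1 f).2]
      exact (RCLike.abs_im_le_norm _).trans (z.1.le_opNorm f)

theorem exists_counterexample' (hCH : Cardinal.continuum.{0} = Cardinal.aleph 1) (𝕜 : Type w)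
    [RCLike 𝕜] : ∃ (Z : Type w) (_ : NormedAddCommGroup Z) (_ : NormedSpace 𝕜 Z),
      CompleteSpace Z ∧ ¬ FiniteDimensional 𝕜 Z ∧ ∀ M : Submodule 𝕜 Z, IsClosed (M : Set Z) →
        TopologicalSpace.SeparableSpace (Z ⧸ M) → FiniteDimensional 𝕜 (Z ⧸ M) := by
  obtain ⟨Ω, _, _, _, _, X, _, _, _, x, ev, h⟩ := exists_sys hCH
  obtain ⟨Z, _, _, _, _, j, h1, h2, h3⟩ := exists_complexification X 𝕜
  refine ⟨Z, _, _, h1, fun hZ => h.not_finite ?_, h.no_quotient' j h3⟩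
  have : Module.Finite ℝ Z := Module.Finite.trans 𝕜 Z
  exact FiniteDimensional.of_injective j.toLinearMap h2

end Vale.Agent.P129.CH
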