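import Mathlib

/-! A Gowers tree type norming set on finitely supported functions on a linear order. -/

open Finset Filter Topology

namespace Vale.Agent.P129.CH

/-- Finitely supported real functions. -/
abbrev V (Ω : Type) := Ω →₀ ℝ

variable {Ω : Type}

/-- The pairing. -/
noncomputable def pr : V Ω →ₗ[ℝ] V Ω →ₗ[ℝ] ℝ :=
  Finsupp.linearCombination ℝ fun ξ => Finsupp.lapply ξ

theorem pr_eq (w y : V Ω) {s : Finset Ω} (h : w.support ⊆ s) :
    pr w y = ∑ ξ ∈ s, w ξ * y ξ := by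
  rw [pr, Finsupp.linearCombination_apply, Finsupp.sum_of_support_subset _ h _ (by simp)]
  simp

theorem pr_comm (w y : V Ω) : pr w y = pr y w := by
  classical
  rw [pr_eq w y (subset_union_left (s₂ := y.support)),
    pr_eq y w (subset_union_right (s₁ := w.support))]
  simp [mul_comm]

theorem pr_eq' (w y : V Ω) {s : Finset Ω} (h : y.support ⊆ s) :
    pr w y = ∑ ξ ∈ s, w ξ * y ξ := by
  rw [pr_comm, pr_eq y w h]
  simp [mul_comm]

theorem pr_single (ξ : Ω) (c : ℝ) (y : V Ω) : pr (Finsupp.single ξ c) y = c * y ξ := by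
  simp [pr]

theorem pr_eq_zero {w y : V Ω} (h : ∀ ξ ∈ w.support, ξ ∉ y.support) : pr w y = 0 := by
  rw [pr_eq w y subset_rfl]
  exact sum_eq_zero fun ξ hξ => by rw [Finsupp.notMem_support_iff.1 (h ξ hξ), mul_zero]

theorem exists_of_pr_ne_zero {w y : V Ω} (h : pr w y ≠ 0) :
    ∃ ξ ∈ w.support, ξ ∈ y.support := by
  by_contra! hc
  exact h (pr_eq_zero hc)

theorem pr_congr {w w' y : V Ω} (h : ∀ ξ ∈ y.support, w ξ = w' ξ) : pr w y = pr w' y := by
  rw [pr_eq' w y subset_rfl, pr_eq' w' y subset_rfl]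
  exact sum_congr rfl fun ξ hξ => by rw [h ξ hξ]

open Classical in
/-- Restriction to a set. -/
noncomputable def res (E : Set Ω) : V Ω →ₗ[ℝ] V Ω where
  toFun w := w.filter (· ∈ E)
  map_add' _ _ := Finsupp.filter_add
  map_smul' _ _ := Finsupp.filter_smul

theorem res_pos {E : Set Ω} (w : V Ω) {ξ : Ω} (h : ξ ∈ E) : res E w ξ = w ξ := by
  simp [res, h]

theorem res_neg {E : Set Ω} (w : V Ω) {ξ : Ω} (h : ξ ∉ E) : res E w ξ = 0 := by
  simp [res, h]

theorem mem_support_res {E : Set Ω} {w : V Ω} {ξ : Ω} :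
    ξ ∈ (res E w).support ↔ ξ ∈ w.support ∧ ξ ∈ E := by
  by_cases h : ξ ∈ E
  · simp [res_pos w h, h]
  · simp [res_neg w h, h]

theorem support_res_subset (E : Set Ω) (w : V Ω) : (res E w).support ⊆ w.support :=
  fun _ h => (mem_support_res.1 h).1

theorem pr_res (E : Set Ω) (w y : V Ω) : pr (res E w) y = pr w (res E y) := by
  rw [pr_eq _ y (support_res_subset E w), pr_eq w _ subset_rfl]
  refine sum_congr rfl fun ξ _ => ?_
  by_cases h : ξ ∈ E
  · rw [res_pos w h, res_pos y h]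
  · rw [res_neg w h, res_neg y h, zero_mul, mul_zero]

theorem res_res (E E' : Set Ω) (w : V Ω) : res E (res E' w) = res (E ∩ E') w := by
  ext ξ
  by_cases h : ξ ∈ E
  · by_cases h' : ξ ∈ E'
    · rw [res_pos _ h, res_pos _ h', res_pos _ (Set.mem_inter h h')]
    · rw [res_pos _ h, res_neg _ h', res_neg _ fun h2 => h' h2.2]
  · rw [res_neg _ h, res_neg _ fun h2 => h h2.1]

theorem res_eq_self {E : Set Ω} {w : V Ω} (h : ∀ ξ ∈ w.support, ξ ∈ E) : res E w = w := by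
  ext ξ
  by_cases h1 : ξ ∈ E
  · exact res_pos _ h1
  · rw [res_neg _ h1, Finsupp.notMem_support_iff.1 fun h2 => h1 (h ξ h2)]

theorem res_eq_zero {E : Set Ω} {w : V Ω} (h : ∀ ξ ∈ w.support, ξ ∉ E) : res E w = 0 := by
  ext ξ
  by_contra h1
  have := mem_support_res.1 (Finsupp.mem_support_iff.2 h1)
  exact h ξ this.1 this.2

theorem res_univ (w : V Ω) : res Set.univ w = w := res_eq_self fun _ _ => trivial

/-- The `ℓ²` norm (charge). -/
noncomputable def N (w : V Ω) : ℝ := √(pr w w)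

theorem pr_self_nonneg (w : V Ω) : 0 ≤ pr w w := by
  rw [pr_eq w w subset_rfl]
  exact sum_nonneg fun _ _ => mul_self_nonneg _

theorem N_nonneg (w : V Ω) : 0 ≤ N w := Real.sqrt_nonneg _

theorem N_sq (w : V Ω) : N w ^ 2 = pr w w := Real.sq_sqrt (pr_self_nonneg w)

theorem N_zero : N (0 : V Ω) = 0 := by simp [N]

theorem abs_pr_le_N (w y : V Ω) : |pr w y| ≤ N w * N y := by
  classical
  have h := sum_mul_sq_le_sq_mul_sq (w.support ∪ y.support) w y
  rw [← pr_eq w y subset_union_left] at h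
  simp only [pow_two] at h
  rw [← pr_eq w w subset_union_left, ← pr_eq y y subset_union_right] at h
  rw [N, N, ← Real.sqrt_mul (pr_self_nonneg w)]
  exact Real.abs_le_sqrt (by rwa [pow_two])

theorem N_add_le (w y : V Ω) : N (w + y) ≤ N w + N y := by
  have h1 := (le_abs_self _).trans (abs_pr_le_N w y)
  have h2 : N (w + y) ^ 2 = N w ^ 2 + 2 * pr w y + N y ^ 2 := by
    simp only [N_sq, map_add, LinearMap.add_apply, pr_comm y w]
    ring
  refine (pow_le_pow_iff_left₀ (N_nonneg _) (add_nonneg (N_nonneg _) (N_nonneg _)) two_ne_zero).1 ?_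
  nlinarith

theorem N_smul (c : ℝ) (w : V Ω) : N (c • w) = |c| * N w := by
  simp only [N, map_smul, LinearMap.smul_apply, smul_eq_mul]
  rw [← mul_assoc, Real.sqrt_mul (mul_self_nonneg c), Real.sqrt_mul_self_eq_abs]

theorem N_sum_le {ι : Type*} (s : Finset ι) (w : ι → V Ω) : N (∑ i ∈ s, w i) ≤ ∑ i ∈ s, N (w i) :=
  le_sum_of_subadditive N N_zero.le N_add_le s w

theorem N_mono {w w' : V Ω} (h : ∀ ξ, |w' ξ| ≤ |w ξ|) : N w' ≤ N w := by
  classical
  refine Real.sqrt_le_sqrt ?_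
  rw [pr_eq w' w' (subset_union_left (s₂ := w.support)),
    pr_eq w w (subset_union_right (s₁ := w'.support))]
  exact sum_le_sum fun ξ _ => abs_le_iff_mul_self_le.1 (h ξ)

theorem abs_res_le (E : Set Ω) (w : V Ω) (ξ : Ω) : |res E w ξ| ≤ |w ξ| := by
  by_cases h : ξ ∈ E
  · rw [res_pos w h]
  · rw [res_neg w h, abs_zero]
    exact abs_nonneg _

theorem N_res_le (E : Set Ω) (w : V Ω) : N (res E w) ≤ N w := N_mono (abs_res_le E w)

theorem N_single (ξ : Ω) : N (Finsupp.single ξ (1 : ℝ)) = 1 := by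
  simp [N, pr_single]

theorem abs_apply_le_N (w : V Ω) (ξ : Ω) : |w ξ| ≤ N w := by
  have := abs_pr_le_N (Finsupp.single ξ 1) w
  rwa [pr_single, N_single, one_mul, one_mul] at this

/-- Weights. -/
noncomputable def mm (j : ℕ) : ℝ := 4 ^ (j + 2)

/-- Admissible lengths. -/
def nn : ℕ → ℕ
  | 0 => 256
  | j + 1 => (2 * nn j) ^ (2 * j + 6)

theorem mm_pos (j : ℕ) : 0 < mm j := by unfold mm; positivity

theorem nn_ge (j : ℕ) : 256 ≤ nn j := by
  induction j with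
  | zero => rfl
  | succ j ih =>
    calc 256 ≤ (2 * nn j) ^ 1 := by rw [pow_one]; omega
      _ ≤ _ := Nat.pow_le_pow_right (by omega) (by omega)

theorem nn_strictMono : StrictMono nn := strictMono_nat_of_lt_succ fun j => by
  have := nn_ge j
  calc nn j < (2 * nn j) ^ 1 := by rw [pow_one]; omega
    _ ≤ _ := Nat.pow_le_pow_right (by omega) (by omega)

theorem mm_eq (j : ℕ) : mm j = 2 ^ (2 * j + 4) := by
  rw [mm, show 2 * j + 4 = 2 * (j + 2) by ring, pow_mul]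
  norm_num

theorem mm_sq_le (j : ℕ) : mm j ^ 2 ≤ nn j := by
  cases j with
  | zero => simp [mm, nn]; norm_num
  | succ j =>
    have h := nn_ge j
    have : 4 ^ (2 * j + 6) ≤ nn (j + 1) := Nat.pow_le_pow_left (by omega) _
    calc mm (j + 1) ^ 2 = ((4 ^ (2 * j + 6) : ℕ) : ℝ) := by
          rw [mm, ← pow_mul]; push_cast; congr 1; ring
      _ ≤ _ := by exact_mod_cast this

theorem inv_mm_le (j : ℕ) : (mm j)⁻¹ ≤ (1 / 2) ^ j / 16 := by
  rw [mm_eq, one_div, inv_pow, ← one_div, ← one_div, div_div, pow_add]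
  gcongr
  · norm_num
  · omega
  · norm_num

theorem le_mm (j : ℕ) : (j : ℝ) + 1 ≤ mm j := by
  have : j + 1 ≤ 4 ^ (j + 2) := by
    have := Nat.lt_pow_self (n := j + 2) (a := 4) (by norm_num)
    omega
  unfold mm
  exact_mod_cast this

theorem geo_le (S : Finset ℕ) (J : ℕ) (h : ∀ j ∈ S, J ≤ j) :
    ∑ j ∈ S, (1 / 2 : ℝ) ^ j ≤ 2 * (1 / 2) ^ J := by
  have e : ∑ j ∈ S, (1 / 2 : ℝ) ^ j = (∑ j ∈ S.image (· - J), (1 / 2 : ℝ) ^ j) * (1 / 2) ^ J := by
    rw [sum_image fun a ha b hb hab => by have := h a ha; have := h b hb; omega,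
      sum_mul]
    exact sum_congr rfl fun j hj => by rw [← pow_add, Nat.sub_add_cancel (h j hj)]
  rw [e]
  gcongr
  exact (summable_geometric_two.sum_le_tsum _ fun i _ => by positivity).trans
    tsum_geometric_two.le

variable [LinearOrder Ω]

/-- Successive supports. -/
def Succ (w : ℕ → V Ω) : Prop :=
  ∀ l l', l < l' → ∀ α ∈ (w l).support, ∀ β ∈ (w l').support, α < β

/-- The charge constraint. -/
def Chg (w : ℕ → V Ω) (l : ℕ) : Prop :=
  N (w l) * ((1 + ∑ t ∈ range l, ((w t).support.card : ℝ)) * 2 ^ l) ≤ 1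

/-- Admissible families of children. -/
def OpOK (w : ℕ → V Ω) : Prop := Succ w ∧ ∀ l, 0 < l → Chg w l

/-- The operation of weight `j`. -/
noncomputable def opf (j : ℕ) (w : ℕ → V Ω) : V Ω := (mm j)⁻¹ • ∑ l ∈ range (nn j), w l

/-- A coherent system of finite sets. -/
class Rho (Ω : Type) [LinearOrder Ω] where
  /-- the finite sets -/
  F : ℕ → Ω → Finset Ω
  self_mem : ∀ p η, η ∈ F p η
  le_of_mem : ∀ {p η ξ}, ξ ∈ F p η → ξ ≤ η
  mono : ∀ {p q} η, p ≤ q → F p η ⊆ F q η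
  exhaust : ∀ {ξ η}, ξ ≤ η → ∃ p, ξ ∈ F p η
  coh : ∀ {p η ξ}, ξ ∈ F p η → ∀ ζ, ζ ∈ F p ξ ↔ ζ ∈ F p η ∧ ζ ≤ ξ
  card_le : ∀ p η, (F p η).card ≤ p + 1

open Classical in
/-- A code for rational reals. -/
noncomputable def rq (x : ℝ) : ℕ :=
  if h : ∃ q : ℚ, (q : ℝ) = x then Encodable.encode h.choose else 0

/-- Rational valued. -/
def IsRat (w : V Ω) : Prop := ∀ ξ, ∃ q : ℚ, (q : ℝ) = w ξ

variable [Rho Ω]

/-- The coded value at the point of rank `k`. -/
noncomputable def entry (p : ℕ) (z : V Ω) (k : ℕ) : ℕ :=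
  ∑ ξ ∈ z.support with (Rho.F p ξ).card = k, (rq (z ξ) + 1)

/-- The coded history. -/
noncomputable def hist (p : ℕ) (z : ℕ → V Ω) (j : ℕ → ℕ) (l : ℕ) : List (ℕ × List ℕ) :=
  (List.range l).map fun i => (j i, (List.range (p + 2)).map (entry p (z i)))

/-- Admissible codes. -/
def Adm (p : ℕ) (c : List (ℕ × List ℕ)) : Prop :=
  c.length ≤ p ∧ ∀ x ∈ c, x.1 ≤ p ∧ x.2.length ≤ p + 2 ∧ ∀ y ∈ x.2, y ≤ p

/-- The coding condition for special sequences of length `n`. -/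
structure Code (z : ℕ → V Ω) (j : ℕ → ℕ) (n : ℕ) : Prop where
  rat : ∀ l < n, IsRat (z l)
  succ : ∀ l l', l < l' → l' < n → ∀ α ∈ (z l).support, ∀ β ∈ (z l').support, α < β
  mono : ∀ l l', l < l' → l' < n → j l < j l'
  code : ∀ l < n, ∃ p η, (∀ i < l, (z i).support ⊆ Rho.F p η) ∧ Adm p (hist p z j l) ∧
    j l = Encodable.encode (p, hist p z j l)

/-- Indices of blocks with weights in a window. -/
def idx (j : ℕ → ℕ) (n lo hi : ℕ) : Finset ℕ := (range n).filter fun l => lo ≤ j l ∧ j l < hi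

/-- Special segments. -/
noncomputable def seg (z : ℕ → V Ω) (j : ℕ → ℕ) (n lo hi : ℕ) : V Ω := ∑ l ∈ idx j n lo hi, z l

/-- Weight-disjoint families. -/
def Disj (s : Finset ℕ) (j : ℕ → ℕ → ℕ) (n lo hi : ℕ → ℕ) : Prop :=
  ∀ i ∈ s, ∀ i' ∈ s, i ≠ i' → ∀ l ∈ idx (j i) (n i) (lo i) (hi i),
    ∀ l' ∈ idx (j i') (n i') (lo i') (hi i'), j i l ≠ j i' l'

/-- The norming set. -/
inductive InK : V Ω → Prop
  | leaf (ξ : Ω) : InK (Finsupp.single ξ 1)
  | comb (s : Finset ℕ) (a : ℕ → ℚ) (w : ℕ → V Ω) (h : ∀ l ∈ s, InK (w l))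
      (ha : ∑ l ∈ s, |(a l : ℝ)| ≤ 1) : InK (∑ l ∈ s, (a l : ℝ) • w l)
  | restr (E : Set Ω) (hE : E.OrdConnected) (w : V Ω) (h : InK w) : InK (res E w)
  | op (j : ℕ) (w : ℕ → V Ω) (h : ∀ l, InK (w l)) (hw : OpOK w) : InK (opf j w)
  | spec (s : Finset ℕ) (c : ℕ → ℚ) (z : ℕ → ℕ → V Ω) (j : ℕ → ℕ → ℕ) (n lo hi : ℕ → ℕ)
      (ch : ℕ → ℕ → ℕ → V Ω) (hK : ∀ i ∈ s, ∀ l < n i, ∀ t, InK (ch i l t))
      (hop : ∀ i ∈ s, ∀ l < n i, OpOK (ch i l) ∧ z i l = opf (j i l) (ch i l))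
      (hc : ∀ i ∈ s, Code (z i) (j i) (n i)) (hd : Disj s j n lo hi)
      (h2 : ∑ i ∈ s, (c i : ℝ) ^ 2 ≤ 1) :
      InK (∑ i ∈ s, (c i : ℝ) • seg (z i) (j i) (n i) (lo i) (hi i))

/-- Functionals of weight `j`. -/
def IsOp (j : ℕ) (z : V Ω) : Prop := ∃ w : ℕ → V Ω, (∀ l, InK (w l)) ∧ OpOK w ∧ z = opf j w

/-- Special sequences of length `n`. -/
def Sp (z : ℕ → V Ω) (j : ℕ → ℕ) (n : ℕ) : Prop := Code z j n ∧ ∀ l < n, IsOp (j l) (z l)

end Vale.Agent.P129.CH
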