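import Vale.Agent.P129.CH.KBasic

/-! The tree-like property of the coding. -/

open Finset Filter Topology

namespace Vale.Agent.P129.CH

theorem rq_inj {x y : ℝ} (hx : ∃ q : ℚ, (q : ℝ) = x) (hy : ∃ q : ℚ, (q : ℝ) = y)
    (h : rq x = rq y) : x = y := by
  rw [rq, rq, dif_pos hx, dif_pos hy] at h
  rw [← hx.choose_spec, ← hy.choose_spec, Encodable.encode_injective h]

theorem finite_lists {α : Type} {s : Set α} (hs : s.Finite) (n : ℕ) :
    {l : List α | l.length ≤ n ∧ ∀ x ∈ l, x ∈ s}.Finite := by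
  have := hs.to_subtype
  refine ((List.finite_length_le s n).image (List.map Subtype.val)).subset ?_
  rintro l ⟨h1, h2⟩
  lift l to List s using h2
  exact ⟨l, by simpa using h1, rfl⟩

theorem finite_adm (P : ℕ) :
    {x : ℕ × List (ℕ × List ℕ) | x.1 ≤ P ∧ Adm x.1 x.2}.Finite := by
  refine ((Set.finite_Iic P).prod (finite_lists ((Set.finite_Iic P).prod
    (finite_lists (Set.finite_Iic P) (P + 2))) P)).subset ?_
  rintro ⟨p, c⟩ ⟨h1, h2, h3⟩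
  exact ⟨h1, h2.trans h1, fun x hx => ⟨(h3 x hx).1.trans h1,
    (h3 x hx).2.1.trans (Nat.add_le_add_right h1 2), fun y hy => ((h3 x hx).2.2 y hy).trans h1⟩⟩

variable {Ω : Type} [LinearOrder Ω] [Rho Ω]

theorem rank_inj {p : ℕ} {η ξ ξ' : Ω} (h : ξ ∈ Rho.F p η) (h' : ξ' ∈ Rho.F p η)
    (e : (Rho.F p ξ).card = (Rho.F p ξ').card) : ξ = ξ' := by
  wlog hle : ξ ≤ ξ' generalizing ξ ξ'
  · exact (this h' h e.symm (le_of_not_ge hle)).symm
  have hs : Rho.F p ξ ⊆ Rho.F p ξ' := fun ζ hζ =>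
    (Rho.coh h' ζ).2 ⟨((Rho.coh h ζ).1 hζ).1, (Rho.le_of_mem hζ).trans hle⟩
  have := eq_of_subset_of_card_le hs e.ge
  exact le_antisymm hle (Rho.le_of_mem (this ▸ Rho.self_mem p ξ'))

theorem entry_eq {p : ℕ} {η ξ : Ω} {z : V Ω} (hz : z.support ⊆ Rho.F p η) (h : ξ ∈ Rho.F p η) :
    entry p z (Rho.F p ξ).card = if ξ ∈ z.support then rq (z ξ) + 1 else 0 := by
  unfold entry
  split_ifs with h1
  · refine sum_eq_single_of_mem ξ (mem_filter.2 ⟨h1, rfl⟩) fun ζ hζ hne => ?_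
    exact absurd (rank_inj (hz (mem_filter.1 hζ).1) h (mem_filter.1 hζ).2) hne
  · refine sum_eq_zero fun ζ hζ => ?_
    exact absurd (rank_inj (hz (mem_filter.1 hζ).1) h (mem_filter.1 hζ).2 ▸ (mem_filter.1 hζ).1) h1

theorem Code.pos_eq {z z' : ℕ → V Ω} {j j' : ℕ → ℕ} {n n' l l' : ℕ} (h : Code z j n)
    (h' : Code z' j' n') (hl : l < n) (hl' : l' < n') (e : j l = j' l') :
    l = l' ∧ (∀ i < l, j i = j' i) ∧ ∃ p c η η', Adm p c ∧ j l = Encodable.encode (p, c) ∧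
      (∀ i < l, (z i).support ⊆ Rho.F p η) ∧ (∀ i < l, (z' i).support ⊆ Rho.F p η') ∧
      ∀ i < l, ∀ ξ ∈ Rho.F p η, ξ ∈ Rho.F p η' → z i ξ = z' i ξ := by
  obtain ⟨p, η, h1, h2, h3⟩ := h.code l hl
  obtain ⟨p', η', h1', -, h3'⟩ := h'.code l' hl'
  have e1 := Encodable.encode_injective (h3.symm.trans (e.trans h3'))
  obtain ⟨rfl, e2⟩ := Prod.ext_iff.1 e1
  obtain rfl : l = l' := by simpa [hist] using congrArg List.length e2
  have e3 := List.map_inj_left.1 e2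
  refine ⟨rfl, fun i hi => (Prod.ext_iff.1 (e3 i (List.mem_range.2 hi))).1, p, _, η, η', h2, h3,
    h1, h1', fun i hi ξ hξ hξ' => ?_⟩
  have e4 := List.map_inj_left.1 (Prod.ext_iff.1 (e3 i (List.mem_range.2 hi))).2
    (Rho.F p ξ).card (List.mem_range.2 (Nat.lt_succ_of_le (Rho.card_le p ξ)))
  rw [entry_eq (h1 i hi) hξ, entry_eq (h1' i hi) hξ'] at e4
  split_ifs at e4 with a b b
  · exact rq_inj (h.rat i (hi.trans hl) ξ) (h'.rat i (hi.trans hl') ξ) (Nat.succ_injective e4)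
  · rw [Finsupp.notMem_support_iff.1 a, Finsupp.notMem_support_iff.1 b]

/-- Weights at least `J` have a level that sees `D` correctly. -/
def Lev (D : Set Ω) (J : ℕ) : Prop :=
  ∀ p c, Adm p c → J ≤ Encodable.encode (p, c) → ∀ ξ ∈ D, ∀ ζ ∈ D, ξ ≤ ζ → ξ ∈ Rho.F p ζ

theorem Lev.mono {D D' : Set Ω} {J J' : ℕ} (h : Lev D J) (hD : D' ⊆ D) (hJ : J ≤ J') :
    Lev D' J' := fun p c h1 h2 ξ hξ ζ hζ => h p c h1 (hJ.trans h2) ξ (hD hξ) ζ (hD hζ)

theorem eventually_mem_F {ξ η : Ω} (h : ξ ≤ η) : ∀ᶠ p in atTop, ξ ∈ Rho.F p η := by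
  obtain ⟨p, hp⟩ := Rho.exhaust h
  filter_upwards [eventually_ge_atTop p] with q hq using Rho.mono η hq hp

theorem exists_lev (D : Finset Ω) : ∃ J, Lev (D : Set Ω) J := by
  have : ∀ᶠ p in atTop, ∀ ξ ∈ D, ∀ ζ ∈ D, ξ ≤ ζ → ξ ∈ Rho.F p ζ := by
    refine (eventually_all_finset _).2 fun ξ _ => (eventually_all_finset _).2 fun ζ _ => ?_
    by_cases h : ξ ≤ ζ
    · exact (eventually_mem_F h).mono fun p hp _ => hp
    · exact Eventually.of_forall fun p h' => absurd h' h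
  obtain ⟨P, hP⟩ := eventually_atTop.1 this
  obtain ⟨J, hJ⟩ := ((finite_adm P).image Encodable.encode).bddAbove
  refine ⟨J + 1, fun p c h1 h2 => hP p ?_⟩
  by_contra! hlt
  have := hJ ⟨(p, c), ⟨hlt.le, h1⟩, rfl⟩
  omega

theorem Code.delta {z z' : ℕ → V Ω} {j j' : ℕ → ℕ} {n n' l l' : ℕ} (h : Code z j n)
    (h' : Code z' j' n') (hl : l < n) (hl' : l' < n') (e : j l = j' l') {D : Set Ω} {J : ℕ}
    (hD : Lev D J) (hJ : J ≤ j l) {i0 i0' : ℕ} (hi : i0 < l) (hi' : i0' < l') {ζ ζ' : Ω}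
    (h1 : ζ ∈ (z i0).support) (h2 : ζ ∈ D) (h1' : ζ' ∈ (z' i0').support) (h2' : ζ' ∈ D) :
    (∀ i < l, ∀ ξ, ξ ≤ ζ → ξ ≤ ζ' → z i ξ = z' i ξ) ∧ ∀ i < i0, i < i0' → z i = z' i := by
  wlog hle : ζ ≤ ζ' generalizing z z' j j' n n' l l' i0 i0' ζ ζ'
  · obtain ⟨a, b⟩ := this h' h hl' hl e.symm (e ▸ hJ) hi' hi h1' h2' h1 h2 (le_of_not_ge hle)
    obtain ⟨rfl, -⟩ := h.pos_eq h' hl hl' e
    exact ⟨fun i hi ξ x y => (a i hi ξ y x).symm, fun i x y => (b i y x).symm⟩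
  obtain ⟨rfl, -, p, c, η, η', a1, a2, a3, a4, a5⟩ := h.pos_eq h' hl hl' e
  have b1 : ζ ∈ Rho.F p η := a3 i0 hi h1
  have b2 : ζ ∈ Rho.F p η' :=
    ((Rho.coh (a4 i0' hi' h1') ζ).1 (hD p c a1 (a2 ▸ hJ) ζ h2 ζ' h2' hle)).1
  have key : ∀ i < l, ∀ ξ, ξ ≤ ζ → z i ξ = z' i ξ := by
    intro i hil ξ hξ
    by_cases hm : ξ ∈ Rho.F p ζ
    · exact a5 i hil ξ ((Rho.coh b1 ξ).1 hm).1 ((Rho.coh b2 ξ).1 hm).1
    · rw [Finsupp.notMem_support_iff.1 fun hh => hm ((Rho.coh b1 ξ).2 ⟨a3 i hil hh, hξ⟩),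
        Finsupp.notMem_support_iff.1 fun hh => hm ((Rho.coh b2 ξ).2 ⟨a4 i hil hh, hξ⟩)]
  refine ⟨fun i hil ξ hξ _ => key i hil ξ hξ, fun i hii _ => ?_⟩
  have b3 : ζ ∈ (z' i0).support := by
    rw [Finsupp.mem_support_iff, ← key i0 hi ζ le_rfl]
    exact Finsupp.mem_support_iff.1 h1
  ext ξ
  rcases le_or_gt ξ ζ with hξ | hξ
  · exact key i (hii.trans hi) ξ hξ
  · rw [Finsupp.notMem_support_iff.1 fun hh => (h.succ i i0 hii (hi.trans hl) ξ hh ζ h1).not_gt hξ,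
      Finsupp.notMem_support_iff.1 fun hh => (h'.succ i i0 hii (hi.trans hl') ξ hh ζ b3).not_gt hξ]

theorem hist_congr {p : ℕ} {z z' : ℕ → V Ω} {j j' : ℕ → ℕ} {l : ℕ}
    (h : ∀ i < l, z i = z' i ∧ j i = j' i) : hist p z j l = hist p z' j' l :=
  List.map_congr_left fun i hi => by
    rw [(h i (List.mem_range.1 hi)).1, (h i (List.mem_range.1 hi)).2]

/-- Any finite history can be coded by a weight outside a given finite set. -/
theorem exists_code (z : ℕ → V Ω) (j : ℕ → ℕ) (n : ℕ) {η : Ω}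
    (hη : ∀ i < n, ∀ α ∈ (z i).support, α ≤ η) (S : Finset ℕ) :
    ∃ p, (∀ i < n, (z i).support ⊆ Rho.F p η) ∧ Adm p (hist p z j n) ∧
      Encodable.encode (p, hist p z j n) ∉ S := by
  have h1 : ∀ᶠ p in atTop, ∀ i ∈ range n, ∀ α ∈ (z i).support, α ∈ Rho.F p η :=
    (eventually_all_finset _).2 fun i hi => (eventually_all_finset _).2 fun α hα =>
      eventually_mem_F (hη i (mem_range.1 hi) α hα)
  have h2 : ∀ᶠ p in atTop, ∀ i ∈ range n, j i ≤ p ∧ ∑ ξ ∈ (z i).support, (rq (z i ξ) + 1) ≤ p :=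
    (eventually_all_finset _).2 fun i _ => (eventually_ge_atTop _).and (eventually_ge_atTop _)
  have h3 : ∀ᶠ p in atTop, Encodable.encode (p, hist p z j n) ∉ S := by
    have hinj : Function.Injective fun p => Encodable.encode (p, hist p z j n) :=
      fun p q h => (Prod.ext_iff.1 (Encodable.encode_injective h)).1
    rw [← Nat.cofinite_eq_atTop]
    exact hinj.tendsto_cofinite.eventually S.eventually_cofinite_notMem
  obtain ⟨p, ⟨⟨a1, a2⟩, a3⟩, a4⟩ := (((h1.and h2).and h3).and (eventually_ge_atTop n)).exists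
  refine ⟨p, fun i hi => a1 i (mem_range.2 hi), ⟨by simpa [hist] using a4, fun x hx => ?_⟩, a3⟩
  obtain ⟨i, hi, rfl⟩ := List.mem_map.1 hx
  have a5 := a2 i (mem_range.2 (List.mem_range.1 hi))
  refine ⟨a5.1, by simp, fun y hy => ?_⟩
  obtain ⟨k, -, rfl⟩ := List.mem_map.1 hy
  exact (sum_le_sum_of_subset (filter_subset _ _)).trans a5.2

end Vale.Agent.P129.CH
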