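import Vale.Agent.P129.CH.Build

/-! Systems of functionals: the dual of the closed span is the completion. -/

open Finset Filter Topology

namespace Vale.Agent.P129.CH

variable {Ω : Type}

/-- The lower set generated by a finite set. -/
def Low [LE Ω] (D : Finset Ω) : Set Ω := {η | ∃ α ∈ D, η ≤ α}

theorem res_add_res {S T : Set Ω} (h : T ⊆ S) (y : V Ω) : res T y + res (S \ T) y = res S y := by
  ext ξ
  by_cases h1 : ξ ∈ T
  · rw [Finsupp.add_apply, res_pos _ h1, res_neg _ fun h2 => h2.2 h1, res_pos _ (h h1), add_zero]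
  · rw [Finsupp.add_apply, res_neg _ h1, zero_add]
    by_cases h2 : ξ ∈ S
    · rw [res_pos _ h2, res_pos _ (Set.mem_sdiff_of_mem h2 h1)]
    · rw [res_neg _ h2, res_neg _ fun h3 => h2 h3.1]

variable [LinearOrder Ω]

theorem isLowerSet_Low (D : Finset Ω) : IsLowerSet (Low D) :=
  fun _ _ h ⟨α, h1, h2⟩ => ⟨α, h1, h.trans h2⟩

theorem subset_Low (D : Finset Ω) : (D : Set Ω) ⊆ Low D := fun α h => ⟨α, h, le_rfl⟩

theorem Low_mono {D D' : Finset Ω} (h : D ⊆ D') : Low D ⊆ Low D' :=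
  fun _ ⟨α, h1, h2⟩ => ⟨α, h h1, h2⟩

theorem Low_subset {S : Set Ω} (hS : IsLowerSet S) {D : Finset Ω} (h : (D : Set Ω) ⊆ S) :
    Low D ⊆ S := fun _ ⟨_, h1, h2⟩ => hS h2 (h h1)

theorem Low_ind {P : Set Ω → Prop} {S : Set Ω} (h0 : P ∅) (h : ∀ ξ ∈ S, P (Set.Iic ξ))
    {D : Finset Ω} (hD : (D : Set Ω) ⊆ S) : P (Low D) := by
  rcases D.eq_empty_or_nonempty with rfl | hne
  · simpa [Low] using h0
  · have : Low D = Set.Iic (D.max' hne) := Set.ext fun η =>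
      ⟨fun ⟨α, h1, h2⟩ => h2.trans (le_max' D α h1), fun h1 => ⟨_, max'_mem D hne, h1⟩⟩
    exact this ▸ h _ (hD (max'_mem D hne))

theorem succ_res {S : Set Ω} {L : ℕ → Set Ω} (hL : ∀ n, IsLowerSet (L n)) {y : ℕ → V Ω}
    (h : ∀ i n, i < n → ∀ α ∈ (y i).support, α ∈ S → α ∈ L n) :
    Succ fun n => res (S \ L n) (y n) := fun l l' hl α hα β hβ => by
  rw [mem_support_res] at hα hβ
  exact lt_of_not_ge fun h1 => hβ.2.2 (hL l' h1 (h l l' hl α hα.1 hα.2.1))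

variable [Rho Ω] {X : Type} [NormedAddCommGroup X] [NormedSpace ℝ X]

/-- The properties of the system. -/
structure Sys (x : Ω → X) (ev : V Ω →ₗ[ℝ] StrongDual ℝ X) : Prop where
  norm_le : ∀ y, ‖ev y‖ ≤ nm y
  dense : Dense (Submodule.span ℝ (Set.range x) : Set X)
  zero : ∀ ξ η, ξ < η → ev (Finsupp.single η 1) (x ξ) = 0
  one : ∀ ξ, ev (Finsupp.single ξ 1) (x ξ) = 1
  emb : ∀ S, IsLowerSet S → ∀ y c, 0 ≤ c →
    (∀ u ∈ Submodule.span ℝ (x '' S), |ev y u| ≤ c * ‖u‖) → nm (res S y) ≤ 2 * c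
  kill : ∀ g : ℕ → V Ω, Succ g → (∀ n, g n ≠ 0) → ∀ D : ℕ → Finset Ω, ∃ ξ,
    (∀ i, ∀ η ∈ D i, (∀ n, ∀ α ∈ (g n).support, α < η) → ev (Finsupp.single η 1) (x ξ) = 0) ∧
    ∃ C : ℕ → Col g, ∀ n, n ≤ (C n).a ∧ nm (C n).v ≤ 192 ∧ 1 / 2 ≤ ev (C n).v (x ξ)

variable {x : Ω → X} {ev : V Ω →ₗ[ℝ] StrongDual ℝ X}

theorem Sys.abs_ev_le (h : Sys x ev) (y : V Ω) (u : X) : |ev y u| ≤ nm y * ‖u‖ :=
  ((ev y).le_opNorm u).trans (mul_le_mul_of_nonneg_right (h.norm_le y) (norm_nonneg _))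

/-- Approximation on a lower set. -/
def Good (x : Ω → X) (ev : V Ω →ₗ[ℝ] StrongDual ℝ X) (S : Set Ω) : Prop :=
  ∀ φ : StrongDual ℝ X, ∀ ε > 0, ∃ y : V Ω, (∀ ξ ∈ y.support, ξ ∈ S) ∧
    ∀ u ∈ Submodule.span ℝ (x '' S), |φ u - ev y u| ≤ ε * ‖u‖

theorem Sys.good_step (h : Sys x ev) {ξ : Ω} (hξ : Good x ev (Set.Iio ξ)) :
    Good x ev (Set.Iic ξ) := by
  intro φ ε hε
  obtain ⟨y, h1, h2⟩ := hξ φ (ε / (1 + ‖x ξ‖)) (by positivity)
  refine ⟨y + (φ (x ξ) - ev y (x ξ)) • Finsupp.single ξ 1,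
    (Finsupp.supported ℝ ℝ (Set.Iic ξ)).add_mem (fun η hη => le_of_lt (h1 η hη))
      (Submodule.smul_mem _ _ (Finsupp.single_mem_supported ℝ 1 (Set.mem_Iic.2 le_rfl))),
    fun u hu => ?_⟩
  rw [← Set.Iio_insert, Set.image_insert_eq, Submodule.mem_span_insert] at hu
  obtain ⟨t, u, hu, rfl⟩ := hu
  have h3 : ev (Finsupp.single ξ 1) u = 0 :=
    (Submodule.span_le (p := LinearMap.ker (ev (Finsupp.single ξ 1)).toLinearMap)).2 (by
      rintro _ ⟨ζ, hζ, rfl⟩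
      exact h.zero ζ ξ hζ) hu
  have h4 := (h.abs_ev_le (Finsupp.single ξ 1) (t • x ξ + u)).trans
    (mul_le_of_le_one_left (norm_nonneg _) (nm_single_le ξ))
  have h5 := norm_sub_le (t • x ξ + u) (t • x ξ)
  rw [add_sub_cancel_left, norm_smul, Real.norm_eq_abs] at h5
  generalize ‖t • x ξ + u‖ = r at h4 h5 ⊢
  simp only [map_add, map_smul, add_apply, smul_apply, smul_eq_mul, h3, h.one] at h4 ⊢
  rw [mul_one, add_zero] at h4
  calc _ = |φ u - ev y u| := by congr 1; ring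
    _ ≤ ε / (1 + ‖x ξ‖) * (r + r * ‖x ξ‖) := (h2 u hu).trans (by gcongr; exact h5.trans (by gcongr))
    _ = _ := by field_simp

theorem Sys.good_limit (h : Sys x ev) {S : Set Ω} (hS : IsLowerSet S)
    (hg : ∀ ξ ∈ S, Good x ev (Set.Iic ξ)) : Good x ev S := by
  have h0 : Good x ev ∅ := fun φ ε hε => ⟨0, by simp, by simp⟩
  intro φ ε hε
  by_contra! hc
  obtain ⟨s, hs⟩ := exists_rec (α := ℕ) (D := Finset Ω × V Ω)
    (fun n s d => ((d.1 : Set Ω) ⊆ S ∧ (∀ ξ ∈ d.2.support, ξ ∈ Low d.1) ∧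
      ∀ u ∈ Submodule.span ℝ (x '' Low d.1), |φ u - ev d.2 u| ≤ ε / 16 * (1 / 2) ^ n * ‖u‖) ∧
      ∀ i < n, (s i).1 ⊆ d.1 ∧
        ∃ u ∈ Submodule.span ℝ (x '' Low d.1), ε * ‖u‖ < |φ u - ev (s i).2 u|)
    (fun n s s' d e h => ⟨h.1, fun i hi => e i hi ▸ h.2 i hi⟩)
    fun n s ih => by
      have a1 : ∀ i < n, ∃ D : Finset Ω, (D : Set Ω) ⊆ S ∧
          ∃ u ∈ Submodule.span ℝ (x '' D), ε * ‖u‖ < |φ u - ev (s i).2 u| := fun i hi => by
        obtain ⟨u, a1, a2⟩ := hc (s i).2 fun ξ hξ =>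
          Low_subset hS (ih i hi).1.1 ((ih i hi).1.2.1 ξ hξ)
        obtain ⟨l, a3, rfl⟩ := (Finsupp.mem_span_image_iff_linearCombination ℝ).1 a1
        exact ⟨l.support, a3, _, (Finsupp.mem_span_image_iff_linearCombination ℝ).2
          ⟨l, Finsupp.mem_supported_support ℝ l, rfl⟩, a2⟩
      choose! D a2 u a3 a4 using a1
      have a5 : (((range n).biUnion fun i => (s i).1 ∪ D i : Finset Ω) : Set Ω) ⊆ S := by
        intro ξ hξ
        obtain ⟨i, hi, h1⟩ := mem_biUnion.1 hξ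
        exact (mem_union.1 h1).elim (fun h => (ih i (mem_range.1 hi)).1.1 h)
          fun h => a2 i (mem_range.1 hi) h
      obtain ⟨y, a6, a7⟩ := Low_ind h0 hg a5 φ (ε / 16 * (1 / 2) ^ n) (by positivity)
      refine ⟨(_, y), ⟨a5, a6, a7⟩, fun i hi => ?_⟩
      have a8 := subset_biUnion_of_mem (fun i => (s i).1 ∪ D i) (mem_range.2 hi)
      exact ⟨subset_union_left.trans a8, u i, Submodule.span_mono (Set.image_mono
        ((coe_subset.2 (subset_union_right.trans a8)).trans (subset_Low _))) (a3 i hi), a4 i hi⟩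
  have b0 : ∀ n, (1 / 2 : ℝ) ^ n ≤ 1 := fun n => pow_le_one₀ (by norm_num) (by norm_num)
  have b1 : ∀ n, nm (s n).2 ≤ 2 * (‖φ‖ + ε) := fun n => by
    rw [← res_eq_self (hs n).1.2.1]
    refine h.emb _ (isLowerSet_Low _) _ _ (by positivity) fun u hu => ?_
    have c1 := (hs n).1.2.2 u hu
    have c2 := φ.le_opNorm u
    have c3 : ε / 16 * (1 / 2) ^ n * ‖u‖ ≤ ε * ‖u‖ := by
      gcongr
      nlinarith [b0 n]
    rw [Real.norm_eq_abs] at c2
    rw [abs_le] at c1 c2 ⊢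
    constructor <;> linarith
  have b2 : ∀ n, nm (res (Low (s n).1) ((s (n + 1)).2 - (s n).2)) ≤ ε / 4 * (1 / 2) ^ n := by
    intro n
    refine (h.emb _ (isLowerSet_Low _) _ (ε / 8 * (1 / 2) ^ n) (by positivity)
      fun u hu => ?_).trans_eq (by ring)
    have c1 := (hs n).1.2.2 u hu
    have c2 := (hs (n + 1)).1.2.2 u (Submodule.span_mono (Set.image_mono
      (Low_mono ((hs (n + 1)).2 n (Nat.lt_succ_self n)).1)) hu)
    have c3 : 0 ≤ ε * (1 / 2) ^ n * ‖u‖ := by positivity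
    rw [map_sub, sub_apply]
    rw [pow_succ] at c2
    rw [abs_le] at c1 c2 ⊢
    constructor <;> linarith
  have b3 : ∀ n, res (S \ Low (s n).1) (s (n + 1)).2 =
      (s (n + 1)).2 - (s n).2 - res (Low (s n).1) ((s (n + 1)).2 - (s n).2) := fun n => by
    have := res_add_res (Low_subset hS (hs n).1.1) (s (n + 1)).2
    rw [res_eq_self (E := S) fun ξ hξ =>
      Low_subset hS (hs _).1.1 ((hs _).1.2.1 ξ hξ)] at this
    rw [map_sub, res_eq_self (hs n).1.2.1, eq_sub_of_add_eq' this]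
    abel
  obtain ⟨M, hM⟩ := bdd_complete (g := fun n => res (S \ Low (s n).1) (s (n + 1)).2)
    (succ_res (fun n => isLowerSet_Low _) fun i n hi α hα _ => by
      rcases (Nat.succ_le_of_lt hi).eq_or_lt with rfl | h1
      exacts [(hs _).1.2.1 α hα, Low_mono ((hs n).2 _ h1).1 ((hs _).1.2.1 α hα)])
    (half_pos hε) (fun n => by
      obtain ⟨-, u, c1, c2⟩ := (hs (n + 1)).2 n (Nat.lt_succ_self n)
      have c3 := (hs (n + 1)).1.2.2 u c1
      have c4 := h.abs_ev_le ((s (n + 1)).2 - (s n).2) u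
      have c5 := nm_add_le (res (S \ Low (s n).1) (s (n + 1)).2)
        (res (Low (s n).1) ((s (n + 1)).2 - (s n).2))
      have c6 : ε / 16 * (1 / 2) ^ (n + 1) * ‖u‖ ≤ ε / 16 * ‖u‖ := by
        gcongr
        nlinarith [b0 (n + 1)]
      have c7 := abs_add_le (φ u - ev (s (n + 1)).2 u) (ev ((s (n + 1)).2 - (s n).2) u)
      rw [map_sub, sub_apply, sub_add_sub_cancel, ← sub_apply (ev _) (ev _), ← map_sub] at c7
      have c8 : 15 / 16 * ε < nm ((s (n + 1)).2 - (s n).2) :=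
        lt_of_mul_lt_mul_right (by linarith) (norm_nonneg u)
      rw [b3, sub_add_cancel, ← b3] at c5
      nlinarith [b2 n, b0 n]) (4 * (‖φ‖ + ε) + ε / 2)
  simp only [b3, sum_sub_distrib] at hM
  rw [← sum_sub_distrib, sum_range_sub fun n => (s n).2] at hM
  have c1 := geo_le (range M) 0 (by simp)
  have c2 := (nm_sum_le _ _).trans (sum_le_sum (s := range M) fun n _ => b2 n)
  rw [← mul_sum] at c2
  have c3 := hM.trans_le ((nm_sub_le _ _).trans (add_le_add (nm_sub_le _ _) c2))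
  nlinarith [b1 M, b1 0]

theorem Sys.approx [WellFoundedLT Ω] (h : Sys x ev) (φ : StrongDual ℝ X) {ε : ℝ} (hε : 0 < ε) :
    ∃ y, ‖φ - ev y‖ ≤ ε := by
  have h1 : ∀ ξ, Good x ev (Set.Iic ξ) := fun ξ => by
    induction ξ using (wellFounded_lt (α := Ω)).induction with
    | _ ξ ih => exact h.good_step (h.good_limit (isLowerSet_Iio ξ) ih)
  obtain ⟨y, -, h2⟩ := h.good_limit isLowerSet_univ (fun ξ _ => h1 ξ) φ ε hε
  rw [Set.image_univ] at h2
  exact ⟨y, ContinuousLinearMap.opNorm_le_bound _ hε.le fun u =>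
    closure_minimal (t := {u | ‖(φ - ev y) u‖ ≤ ε * ‖u‖}) h2
      (isClosed_le (by fun_prop) (by fun_prop)) (h.dense u)⟩

end Vale.Agent.P129.CH
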