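import Vale.Agent.P129.CH.Dense
import Vale.Agent.P129.DR

/-! A system of functionals spans a space without separable infinite-dimensional quotients. -/

set_option maxSynthPendingDepth 3

open Finset Filter Topology

namespace Vale.Agent.P129.CH

variable {X : Type} [NormedAddCommGroup X] [NormedSpace ℝ X]

theorem exists_unit {W : Submodule ℝ (StrongDual ℝ X)} (hW : ¬ FiniteDimensional ℝ W)
    (F : Finset (StrongDual ℝ (StrongDual ℝ X))) : ∃ φ ∈ W, (∀ f ∈ F, f φ = 0) ∧ ‖φ‖ = 1 := by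
  let L : W →ₗ[ℝ] F → ℝ := LinearMap.pi fun f => f.1.toLinearMap ∘ₗ W.subtype
  have : ¬ Function.Injective L := fun h => hW (FiniteDimensional.of_injective L h)
  rw [injective_iff_map_eq_zero] at this
  push Not at this
  obtain ⟨w, h1, h2⟩ := this
  have h3 : ‖w.1‖ ≠ 0 := norm_ne_zero_iff.2 fun h => h2 (Subtype.ext h)
  refine ⟨‖w.1‖⁻¹ • w.1, W.smul_mem _ w.2, fun f hf => ?_, ?_⟩
  · rw [map_smul, show f w.1 = 0 from congrFun h1 ⟨f, hf⟩, smul_zero]
  · rw [norm_smul, norm_inv, norm_norm, inv_mul_cancel₀ h3]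

variable {Ω : Type} [LinearOrder Ω] [Rho Ω] {x : Ω → X} {ev : V Ω →ₗ[ℝ] StrongDual ℝ X}

/-- Restriction to `S` is small somewhere on every finite codimensional subspace. -/
def Small (ev : V Ω →ₗ[ℝ] StrongDual ℝ X) (W : Submodule ℝ (StrongDual ℝ X)) (S : Set Ω) : Prop :=
  ∀ F : Finset (StrongDual ℝ (StrongDual ℝ X)), ∀ ε > 0, ∃ φ ∈ W, (∀ f ∈ F, f φ = 0) ∧ ‖φ‖ = 1 ∧
    ∃ y, ‖φ - ev y‖ ≤ ε ∧ nm (res S y) ≤ ε

theorem Small.step {W : Submodule ℝ (StrongDual ℝ X)} {ξ : Ω} (h : Small ev W (Set.Iio ξ)) :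
    Small ev W (Set.Iic ξ) := by
  classical
  intro F ε hε
  obtain ⟨φ, a1, a2, a3, y, a4, a5⟩ := h F (ε / 3) (by positivity)
  obtain ⟨f, f1, f2⟩ := exists_dual_vector'' ℝ φ
  obtain ⟨ψ, b1, b2, b3, z, b4, b5⟩ := h (insert f F) (ε / 3) (by positivity)
  obtain ⟨a, b, c1, c2⟩ : ∃ a b : ℝ, 0 < |a| + |b| ∧ a * y ξ + b * z ξ = 0 := by
    rcases eq_or_ne (y ξ) 0 with h0 | h0
    · exact ⟨1, 0, by simp, by simp [h0]⟩
    · exact ⟨z ξ, -y ξ, add_pos_of_nonneg_of_pos (abs_nonneg _) (abs_pos.2 (neg_ne_zero.2 h0)),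
        by ring⟩
  have c3 : |a| ≤ ‖a • φ + b • ψ‖ := by
    have := (f.le_opNorm (a • φ + b • ψ)).trans (mul_le_of_le_one_left (norm_nonneg _) f1)
    simpa [f2, a3, b2 f (mem_insert_self _ _)] using this
  have c4 : |b| ≤ ‖a • φ + b • ψ‖ + |a| := by
    simpa [norm_smul, a3, b3] using norm_sub_le (a • φ + b • ψ) (a • φ)
  generalize hr : ‖a • φ + b • ψ‖ = r at c3 c4
  have c5 : 0 < r := by linarith
  have c6 : ∀ s t : ℝ, s ≤ ε / 3 → t ≤ ε / 3 → r⁻¹ * (|a| * s + |b| * t) ≤ ε := fun s t hs ht => by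
    rw [inv_mul_le_iff₀ c5]
    nlinarith [abs_nonneg a, abs_nonneg b]
  refine ⟨r⁻¹ • (a • φ + b • ψ), W.smul_mem _ (W.add_mem (W.smul_mem _ a1) (W.smul_mem _ b1)),
    fun g hg => by simp [a2 g hg, b2 g (mem_insert_of_mem hg)], ?_, r⁻¹ • (a • y + b • z), ?_, ?_⟩
  · rw [norm_smul, hr, norm_inv, Real.norm_of_nonneg c5.le, inv_mul_cancel₀ c5.ne']
  · refine le_trans ?_ (c6 _ _ a4 b4)
    rw [map_smul, ← smul_sub, norm_smul, norm_inv, Real.norm_of_nonneg c5.le, map_add, map_smul,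
      map_smul, add_sub_add_comm, ← smul_sub, ← smul_sub]
    gcongr
    exact (norm_add_le _ _).trans_eq (by rw [norm_smul, norm_smul]; rfl)
  · refine le_trans ?_ (c6 _ _ a5 b5)
    rw [← res_add_res Set.Iio_subset_Iic_self, res_eq_zero (E := _ \ _) fun η h1 h2 => by
      obtain rfl : η = ξ := le_antisymm h2.1 (not_lt.1 h2.2)
      simp [← mul_add, c2] at h1, add_zero, map_smul, nm_smul, abs_of_pos (inv_pos.2 c5), map_add, map_smul,
      map_smul]
    gcongr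
    exact (nm_add_le _ _).trans_eq (by rw [nm_smul, nm_smul])

omit [LinearOrder Ω] [Rho Ω] in
theorem Sys.ev_eq_zero {y : V Ω} {u : X} (h : ∀ η ∈ y.support, ev (Finsupp.single η 1) u = 0) :
    ev y u = 0 := by
  rw [← Finsupp.sum_single y, Finsupp.sum, map_sum, _root_.sum_apply]
  refine sum_eq_zero fun η hη => ?_
  rw [← mul_one (y η), ← smul_eq_mul, ← Finsupp.smul_single, map_smul, smul_apply, h η hη, smul_zero]

theorem Sys.no_null [WellFoundedLT Ω] (h : Sys x ev) {W : Submodule ℝ (StrongDual ℝ X)}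
    (hW : ¬ FiniteDimensional ℝ W) (d : ℕ → X)
    (hd : ∀ u, ∀ ε > 0, ∃ i, ∀ φ ∈ W, |φ u - φ (d i)| ≤ ε * ‖φ‖) : False := by
  classical
  have s0 : Small ev W ∅ := fun F ε hε => by
    obtain ⟨φ, a1, a2, a3⟩ := exists_unit hW F
    obtain ⟨y, hy⟩ := h.approx φ hε
    exact ⟨φ, a1, a2, a3, y, hy, by rw [res_eq_zero (by simp), nm_zero]; exact hε.le⟩
  obtain ⟨S, hS, s1, s2⟩ : ∃ S, IsLowerSet S ∧ ¬ Small ev W S ∧
      ∀ ξ ∈ S, Small ev W (Set.Iic ξ) := by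
    by_cases hc : ∀ ξ, Small ev W (Set.Iio ξ)
    · refine ⟨Set.univ, isLowerSet_univ, fun h1 => ?_, fun ξ _ => (hc ξ).step⟩
      obtain ⟨φ, -, -, a1, y, a2, a3⟩ := h1 ∅ (1 / 4) (by norm_num)
      have := norm_add_le (φ - ev y) (ev y)
      have := h.norm_le y
      rw [res_univ] at a3
      rw [sub_add_cancel] at *
      linarith
    · obtain ⟨ξ, h1, h2⟩ := (wellFounded_lt (α := Ω)).has_min {ξ | ¬ Small ev W (Set.Iio ξ)}
        (not_forall.1 hc)
      exact ⟨_, isLowerSet_Iio ξ, h1, fun ζ hζ => Small.step (not_not.1 fun h3 => h2 ζ h3 hζ)⟩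
  simp only [Small, not_forall] at s1
  obtain ⟨F, ε, hε, s1⟩ := s1
  have s3 : ∀ ψ ∈ W, (∀ f ∈ F, f ψ = 0) → ∀ y B, ‖ψ - ev y‖ ≤ B → nm (res S y) ≤ B →
      ε * ‖ψ‖ ≤ B := by
    intro ψ a1 a2 y B a3 a4
    by_contra! hlt
    have a5 : 0 < ‖ψ‖ := pos_of_mul_pos_right (((norm_nonneg _).trans a3).trans_lt hlt) hε.le
    have a6 : ‖ψ‖⁻¹ * B ≤ ε := by rw [inv_mul_le_iff₀ a5]; linarith
    refine s1 ⟨‖ψ‖⁻¹ • ψ, W.smul_mem _ a1, fun f hf => by simp [a2 f hf], ?_, ‖ψ‖⁻¹ • y,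
      le_trans ?_ a6, le_trans ?_ a6⟩
    · rw [norm_smul, norm_inv, norm_norm, inv_mul_cancel₀ a5.ne']
    · rw [map_smul, ← smul_sub, norm_smul, norm_inv, norm_norm]
      gcongr
    · rw [map_smul, nm_smul, abs_of_pos (inv_pos.2 a5)]
      gcongr
  obtain ⟨s, hs⟩ := exists_rec (α := ℕ) (D := StrongDual ℝ X × V Ω × Finset Ω)
    (fun n s p => (p.1 ∈ W ∧ (∀ f ∈ F, f p.1 = 0) ∧ (∀ i < n, p.1 (d i) = 0) ∧ ‖p.1‖ = 1 ∧
      (p.2.2 : Set Ω) ⊆ S ∧ ‖p.1 - ev p.2.1‖ ≤ ε / 4 * (1 / 2) ^ n ∧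
      nm (res (Low p.2.2) p.2.1) ≤ ε / 4 * (1 / 2) ^ n) ∧
      ∀ i < n, ∀ α ∈ (s i).2.1.support, α ∈ S → α ∈ Low p.2.2)
    (fun n s s' d e h => ⟨h.1, fun i hi => e i hi ▸ h.2 i hi⟩)
    fun n s _ => by
      have a1 : ((((range n).biUnion fun i => (s i).2.1.support).filter (· ∈ S) : Finset Ω) :
        Set Ω) ⊆ S := fun α hα => (mem_filter.1 hα).2
      obtain ⟨φ, a2, a3, a4, y, a5⟩ := Low_ind s0 s2 a1 (F ∪ (range n).image fun i =>
        ContinuousLinearMap.apply ℝ ℝ (d i)) (ε / 4 * (1 / 2) ^ n) (by positivity)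
      exact ⟨(φ, y, _), ⟨a2, fun f hf => a3 f (mem_union_left _ hf), fun i hi => a3 _
        (mem_union_right _ (mem_image_of_mem _ (mem_range.2 hi))), a4, a1, a5⟩,
        fun i hi α h1 h2 => subset_Low _ (mem_filter.2
          ⟨mem_biUnion.2 ⟨i, mem_range.2 hi, h1⟩, h2⟩)⟩
  have b0 : ∀ n, (1 / 2 : ℝ) ^ n ≤ 1 := fun n => pow_le_one₀ (by norm_num) (by norm_num)
  set g : ℕ → V Ω := fun n => res (S \ Low (s n).2.2) (s n).2.1 with hg
  have b1 : Succ g := succ_res (fun n => isLowerSet_Low _) fun i n hi => (hs n).2 i hi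
  have b2 : ∀ n, res (Low (s n).2.2) (s n).2.1 + g n = res S (s n).2.1 := fun n =>
    res_add_res (Low_subset hS (hs n).1.2.2.2.2.1) _
  have b3 : ∀ n, ε / 2 ≤ nm (g n) := fun n => by
    obtain ⟨⟨c1, c2, -, c3, -, c4, c5⟩, -⟩ := hs n
    have c6 := nm_add_le (res (Low (s n).2.2) (s n).2.1) (g n)
    have c7 := s3 _ c1 c2 _ _ (c4.trans (le_add_of_nonneg_right (nm_nonneg (g n))))
      (by rw [← b2]; linarith)
    rw [c3] at c7
    nlinarith [b0 n]
  obtain ⟨ξ, k1, C, k2⟩ := h.kill g b1 (fun n h0 => by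
    have := b3 n
    rw [h0, nm_zero] at this
    linarith) fun i => (s i).2.1.support
  obtain ⟨i, hi⟩ := hd (x ξ) (ε / 1536) (by positivity)
  obtain ⟨n, n1, n2⟩ := ((eventually_gt_atTop i).and (((tendsto_pow_atTop_nhds_zero_of_lt_one
    one_half_pos.le one_half_lt_one).mul_const ‖x ξ‖).eventually_lt_const
      (show 0 * ‖x ξ‖ < 1 / 1536 by norm_num))).exists
  obtain ⟨k3, k4, k5⟩ := k2 n
  have k6 := (C n).hv
  rw [Z, ← coe_Ico, Submodule.mem_span_image_finset_iff_exists_fun'] at k6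
  obtain ⟨c, hc⟩ := k6
  generalize (C n).a = a at hc k3
  generalize (C n).b = b at hc
  have c1 : ∀ k ∈ Ico a b, |c k| ≤ 384 / ε := fun k hk => by
    have e1 := (nm_res_le (Rg_oc g k (k + 1)) (C n).v).trans k4
    rw [← hc, map_sum, sum_eq_single_of_mem k hk fun l _ hl => by
      rw [map_smul, res_eq_zero fun α h1 h2 => by
        have h3 := mem_Rg (self_mem_Z g l) α h1
        rcases lt_or_gt_of_ne hl with hl | hl
        exacts [(Rg_lt b1 hl h3 h2).false, (Rg_lt b1 hl h2 h3).false], smul_zero],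
      map_smul, res_eq_self (mem_Rg (self_mem_Z g k)), nm_smul] at e1
    rw [le_div_iff₀ hε]
    nlinarith [b3 k, abs_nonneg (c k)]
  have c2 : ∀ t : ℕ → ℝ, (∀ k, t k ≤ ε / 4 * (1 / 2) ^ k) →
      ∑ k ∈ Ico a b, |c k| * t k ≤ 192 * (1 / 2) ^ n := fun t ht => by
    have e1 := geo_le (Ico a b) n fun k hk => k3.trans (mem_Ico.1 hk).1
    calc _ ≤ ∑ k ∈ Ico a b, 384 / ε * (ε / 4 * (1 / 2) ^ k) := sum_le_sum fun k hk =>
          (mul_le_mul_of_nonneg_left (ht k) (abs_nonneg _)).trans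
            (mul_le_mul_of_nonneg_right (c1 k hk) (by positivity))
      _ = 96 * ∑ k ∈ Ico a b, (1 / 2 : ℝ) ^ k := by
          rw [mul_sum]
          exact sum_congr rfl fun k _ => by field_simp; ring
      _ ≤ _ := by linarith
  have c3 : ‖∑ k ∈ Ico a b, c k • (s k).1 - ev (∑ k ∈ Ico a b, c k • (s k).2.1)‖ ≤
      192 * (1 / 2) ^ n := by
    simp only [map_sum, map_smul, ← sum_sub_distrib, ← smul_sub]
    exact (norm_sum_le _ _).trans ((sum_le_sum fun k _ => (norm_smul _ _).le).trans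
      (c2 _ fun k => (hs k).1.2.2.2.2.2.1))
  have c4 : nm (∑ k ∈ Ico a b, c k • res (Low (s k).2.2) (s k).2.1) ≤ 192 * (1 / 2) ^ n :=
    (nm_sum_le _ _).trans ((sum_le_sum fun k _ => (nm_smul _ _).le).trans
      (c2 _ fun k => (hs k).1.2.2.2.2.2.2))
  have c5 : res S (∑ k ∈ Ico a b, c k • (s k).2.1) =
      ∑ k ∈ Ico a b, c k • res (Low (s k).2.2) (s k).2.1 + (C n).v := by
    simp only [← hc, map_sum, map_smul, ← b2, smul_add, sum_add_distrib]
  have c6 : ∑ k ∈ Ico a b, c k • (s k).1 ∈ W :=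
    W.sum_mem fun k _ => W.smul_mem _ (hs k).1.1
  have c7 := s3 _ c6 (fun f hf => by simp [(hs _).1.2.1 f hf]) _ 384
    (c3.trans (by linarith [b0 n])) (by
      rw [c5]
      linarith [nm_add_le (∑ k ∈ Ico a b, c k • res (Low (s k).2.2) (s k).2.1) (C n).v, b0 n])
  have c8 := hi _ c6
  have c9 : (∑ k ∈ Ico a b, c k • (s k).1) (d i) = 0 := by
    rw [_root_.sum_apply]
    exact sum_eq_zero fun k hk => by
      rw [smul_apply, (hs k).1.2.2.1 i (n1.trans_le (k3.trans (mem_Ico.1 hk).1)), smul_zero]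
  have d1 := res_add_res (Set.subset_univ S) (∑ k ∈ Ico a b, c k • (s k).2.1)
  have d2 : ev (res (Set.univ \ S) (∑ k ∈ Ico a b, c k • (s k).2.1)) (x ξ) = 0 := by
    refine Sys.ev_eq_zero fun η hη => ?_
    rw [mem_support_res] at hη
    obtain ⟨k, hk⟩ : ∃ k, η ∈ (s k).2.1.support := support_sum_subset
      (E := {η | ∃ k, η ∈ (s k).2.1.support})
      (fun k _ α hα => ⟨k, Finsupp.support_smul hα⟩) η hη.1
    exact k1 k η hk fun n α hα => lt_of_not_ge fun h1 =>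
      hη.2.2 (hS h1 (mem_support_res.1 hα).2.1)
  have d3 := congrArg (fun y => ev y (x ξ)) d1
  simp only [res_univ, c5, map_add, add_apply, d2] at d3
  have d4 := (ContinuousLinearMap.le_opNorm _ (x ξ)).trans
    (mul_le_mul_of_nonneg_right c3 (norm_nonneg _))
  have d5 := (h.abs_ev_le _ (x ξ)).trans (mul_le_mul_of_nonneg_right c4 (norm_nonneg _))
  rw [sub_apply, Real.norm_eq_abs, abs_le] at d4
  rw [c9, sub_zero] at c8
  rw [abs_le] at c8 d5
  linarith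

theorem Sys.not_finite [Infinite Ω] (h : Sys x ev) : ¬ FiniteDimensional ℝ X := by
  intro hX
  have h1 : Function.Injective ev := (injective_iff_map_eq_zero _).2 fun y hy => by
    have := h.emb _ isLowerSet_univ y 0 le_rfl fun u _ => by simp [hy]
    rw [res_univ, mul_zero] at this
    by_contra h0
    exact (nm_pos h0).not_ge this
  have := FiniteDimensional.of_injective ev h1
  exact Module.Finite.not_linearIndependent_of_infinite _ (Finsupp.basisSingleOne (R := ℝ) (ι := Ω)).linearIndependent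

theorem Sys.no_quotient [WellFoundedLT Ω] (h : Sys x ev) (M : Submodule ℝ X)
    (hM : IsClosed (M : Set X)) (hs : TopologicalSpace.SeparableSpace (X ⧸ M)) :
    FiniteDimensional ℝ (X ⧸ M) := by
  by_contra hf
  let L : StrongDual ℝ (X ⧸ M) →ₗ[ℝ] StrongDual ℝ X :=
    { toFun := fun ψ => ψ.comp M.mkQL
      map_add' := fun _ _ => rfl
      map_smul' := fun _ _ => rfl }
  have hL : Function.Injective L := fun ψ ψ' e => ContinuousLinearMap.ext fun q => by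
    obtain ⟨u, rfl⟩ := M.mkQ_surjective q
    exact DFunLike.congr_fun e u
  obtain ⟨q, hq⟩ := TopologicalSpace.exists_dense_seq (X ⧸ M)
  choose d hd using fun i => M.mkQ_surjective (q i)
  refine h.no_null (W := LinearMap.range L) (fun hW => dual_infinite hf
    (LinearEquiv.ofInjective L hL).symm.finiteDimensional) d fun u ε hε => ?_
  obtain ⟨i, hi⟩ := hq.exists_dist_lt (M.mkQ u) (half_pos hε)
  obtain ⟨m, h1, h2⟩ := Submodule.Quotient.norm_mk_lt (M.mkQ u - q i) (half_pos hε)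
  refine ⟨i, ?_⟩
  rintro _ ⟨ψ, rfl⟩
  have h3 : L ψ u - L ψ (d i) = L ψ m := by
    change ψ (M.mkQ u) - ψ (M.mkQ (d i)) = ψ (Submodule.Quotient.mk m)
    rw [h1, hd, map_sub]
  rw [h3, mul_comm]
  rw [dist_eq_norm] at hi
  exact ((L ψ).le_opNorm m).trans (mul_le_mul_of_nonneg_left (by linarith) (norm_nonneg _))

end Vale.Agent.P129.CH
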