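import Vale.Agent.P129.CH.End

/-! The counterexample under the continuum hypothesis. -/

set_option maxSynthPendingDepth 3

open Finset Filter Topology

namespace Vale.Agent.P129.CH

theorem exists_enum (hCH : Cardinal.continuum.{0} = Cardinal.aleph 1) :
    ∃ (Ω : Type) (_ : LinearOrder Ω) (_ : WellFoundedLT Ω) (_ : Infinite Ω),
      (∀ a : Ω, (Set.Iio a).Countable) ∧ ∃ e : Ω → ℕ → V Ω, ∀ g : ℕ → V Ω, ∀ D : Set Ω,
        D.Countable → ∃ ξ, e ξ = g ∧ ∀ α ∈ D, α < ξ := by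
  let Ω : Type := (Cardinal.aleph 1).ord.ToType
  have hΩ : Cardinal.mk Ω = Cardinal.aleph 1 := Cardinal.mk_ord_toType _
  have hinf : Infinite Ω := Cardinal.infinite_iff.2 (hΩ ▸ Cardinal.aleph0_le_aleph 1)
  have hc : ∀ a : Ω, (Set.Iio a).Countable := fun a => by
    rw [← Cardinal.le_aleph0_iff_set_countable, ← Cardinal.lt_aleph_one_iff]
    exact (Cardinal.mk_Iio_lt a (by simp [Ω])).trans_eq hΩ
  obtain ⟨e⟩ : Nonempty (Ω ≃ (ℕ → V Ω) × Ω) := by
    rw [← Cardinal.eq, Cardinal.mk_prod, Cardinal.lift_id, Cardinal.lift_id, ← Cardinal.power_def,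
      Cardinal.mk_finsupp_of_infinite, hΩ, ← hCH, Cardinal.mk_real, Cardinal.mk_nat, max_self,
      Cardinal.continuum_power_aleph0, Cardinal.continuum_mul_self]
  refine ⟨Ω, inferInstance, inferInstance, hinf, hc, fun ξ => (e ξ).1, fun g D hD => ?_⟩
  by_contra! h
  have h1 : (⋃ α ∈ D, Set.Iic α).Countable :=
    hD.biUnion fun α _ => by rw [← Set.Iio_insert]; exact (hc α).insert α
  have h2 : (Set.univ : Set Ω).Countable :=
    (h1.image fun ξ => (e ξ).2).mono fun ζ _ => by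
      obtain ⟨α, a1, a2⟩ := h (e.symm (g, ζ)) (by simp)
      exact ⟨_, Set.mem_biUnion a1 a2, by simp⟩
  rw [← Cardinal.le_aleph0_iff_set_countable, ← Cardinal.lt_aleph_one_iff, Cardinal.mk_univ,
    hΩ] at h2
  exact h2.false

theorem exists_sys (hCH : Cardinal.continuum.{0} = Cardinal.aleph 1) :
    ∃ (Ω : Type) (_ : LinearOrder Ω) (_ : WellFoundedLT Ω) (_ : Infinite Ω) (_ : Rho Ω)
      (X : Type) (_ : NormedAddCommGroup X) (_ : NormedSpace ℝ X) (_ : CompleteSpace X)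
      (x : Ω → X) (ev : V Ω →ₗ[ℝ] StrongDual ℝ X), Sys x ev := by
  classical
  obtain ⟨Ω, _, _, _, hc, e, he⟩ := exists_enum hCH
  obtain ⟨_⟩ := exists_rho Ω hc
  let g : Ω → ℕ → V Ω := fun ξ =>
    if Succ (e ξ) ∧ ∀ n, ∀ α ∈ (e ξ n).support, α < ξ then e ξ else 0
  have hg : ∀ ξ, Succ (g ξ) ∧ ∀ n, ∀ α ∈ (g ξ n).support, α < ξ := fun ξ => by
    simp only [g]
    split_ifs with h
    exacts [h, ⟨fun _ _ _ α hα => by simp at hα, by simp⟩]
  obtain ⟨x, h1, h2, h3⟩ := exists_system hc (fun ξ => (hg ξ).1) fun ξ => (hg ξ).2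
  let X := (Submodule.span ℝ (Set.range x)).topologicalClosure
  let xx : Ω → X := fun ξ =>
    ⟨x ξ, Submodule.le_topologicalClosure _ (Submodule.subset_span ⟨ξ, rfl⟩)⟩
  let ev : V Ω →ₗ[ℝ] StrongDual ℝ X :=
    { toFun := fun y => (ContinuousLinearMap.apply ℝ ℝ y).comp X.subtypeL
      map_add' := fun _ _ => ContinuousLinearMap.ext fun u => map_add u.1 _ _
      map_smul' := fun _ _ => ContinuousLinearMap.ext fun u => map_smul u.1 _ _ }
  have hev : ∀ y (u : X), ev y u = u.1 y := fun _ _ => rfl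
  have hsp : ∀ S : Set Ω, (Submodule.span ℝ (xx '' S)).map X.subtype = Submodule.span ℝ (x '' S) :=
    fun S => by rw [Submodule.map_span, Set.image_image]; rfl
  refine ⟨Ω, inferInstance, inferInstance, inferInstance, inferInstance, X, inferInstance,
    inferInstance, inferInstance, xx, ev, fun y => ?_, ?_, fun ξ η h => ?_, fun ξ => ?_,
    fun S hS y c hc0 h => ?_, fun γ a1 a2 D => ?_⟩
  · exact ContinuousLinearMap.opNorm_le_bound _ (nm_nonneg y) fun u =>
      (u.1.le_opNorm y).trans_eq (mul_comm _ _)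
  · refine Subtype.dense_iff.2 fun u hu => ?_
    have := congrArg SetLike.coe (hsp Set.univ)
    rw [Set.image_univ, Set.image_univ, Submodule.map_coe] at this
    exact this ▸ hu
  · exact (h1 ξ η fun n α hα => ((hg ξ).2 n α hα).trans h).trans (Finsupp.single_eq_of_ne h.ne)
  · exact (h1 ξ ξ (hg ξ).2).trans Finsupp.single_eq_same
  · refine nm_le fun w hw => le_of_forall_pos_le_add fun δ hδ => ?_
    have b0 := nm_nonneg y
    obtain ⟨u, b1, b2, b3⟩ := h3 _ (hw.restr S hS.ordConnected _) y (δ / (c + nm y + 1))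
      (by positivity)
    obtain ⟨u, b4, rfl⟩ := (hsp S).ge (Submodule.span_mono (Set.image_mono fun ζ hζ => by
      exact hζ.elim fun α hα => hS hα.2 (mem_support_res.1 hα.1).2) b1)
    have b5 := (h u b4).trans (mul_le_mul_of_nonneg_left b2 hc0)
    have b6 : δ / (c + nm y + 1) * (c + nm y) ≤ δ := by
      rw [div_mul_eq_mul_div, div_le_iff₀ (by positivity)]
      nlinarith
    rw [pr_res, Submodule.subtype_apply, abs_le] at b3
    rw [hev, abs_le] at b5
    linarith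
  · obtain ⟨ξ, rfl, b1⟩ := he γ ((⋃ n, (γ n).support) ∪ ⋃ i, D i)
      ((Set.countable_iUnion fun _ => countable_toSet _).union
        (Set.countable_iUnion fun _ => countable_toSet _))
    have b2 : g ξ = e ξ :=
      if_pos ⟨a1, fun n α hα => b1 α (Or.inl (Set.mem_iUnion.2 ⟨n, hα⟩))⟩
    refine ⟨ξ, fun i η hη b3 => (h1 ξ η (b2 ▸ b3)).trans (Finsupp.single_eq_of_ne
      (b1 η (Or.inr (Set.mem_iUnion.2 ⟨i, hη⟩))).ne'), ?_⟩
    rw [← b2] at a2 ⊢
    exact h2 ξ a2

theorem exists_counterexample (hCH : Cardinal.continuum.{0} = Cardinal.aleph 1) :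
    ∃ (X : Type) (_ : NormedAddCommGroup X) (_ : NormedSpace ℝ X), CompleteSpace X ∧
      ¬ FiniteDimensional ℝ X ∧ ∀ M : Submodule ℝ X, IsClosed (M : Set X) →
        TopologicalSpace.SeparableSpace (X ⧸ M) → FiniteDimensional ℝ (X ⧸ M) := by
  obtain ⟨Ω, _, _, _, _, X, _, _, hX, x, ev, h⟩ := exists_sys hCH
  exact ⟨X, _, _, hX, h.not_finite, h.no_quotient⟩

end Vale.Agent.P129.CH
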