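import Vale.Agent.P129.CH.Spec

/-! Every block subspace contains unsplittable vectors normed by functionals of small charge. -/

open Finset Filter Topology

namespace Vale.Agent.P129.CH

variable {Ω : Type} [LinearOrder Ω]

theorem Succ.abs_sum_le {y : ℕ → V Ω} (hy : Succ y) {I : Finset ℕ} {ξ : Ω} {c : ℝ} (hc : 0 ≤ c)
    (h : ∀ k ∈ I, |y k ξ| ≤ c) : |(∑ k ∈ I, y k) ξ| ≤ c := by
  rw [Finsupp.finsetSum_apply]
  by_cases h1 : ∃ k ∈ I, ξ ∈ (y k).support
  · obtain ⟨k, hk, h1⟩ := h1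
    rw [sum_eq_single_of_mem k hk fun l _ hne => Finsupp.notMem_support_iff.1 fun h2 => ?_]
    · exact h k hk
    rcases lt_or_gt_of_ne hne with hl | hl
    · exact (hy _ _ hl ξ h2 ξ h1).false
    · exact (hy _ _ hl ξ h1 ξ h2).false
  · rw [sum_eq_zero fun k hk => Finsupp.notMem_support_iff.1 fun h2 => h1 ⟨k, hk, h2⟩, abs_zero]
    exact hc

variable [Rho Ω]

theorem op_flat {w : ℕ → V Ω} (hK : ∀ l, InK (w l)) (hw : OpOK w) {v : V Ω} (hv : nm v ≤ 1)
    {L : ℕ} (hL : 0 < L) (hη : ∀ ξ, |v ξ| ≤ 1 / L) {c : ℝ}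
    (hc : ∀ u, InK u → N u ≤ 2 / L → |pr u v| ≤ c) (j : ℕ) :
    |pr (opf j w) v| ≤ 2 * (mm j)⁻¹ + c := by
  let S : ℕ → ℝ := fun l => ∑ t ∈ range l, ((w t).support.card : ℝ)
  let w' : ℕ → V Ω := fun l => if L < S l then w l else 0
  have hL' : (0 : ℝ) < L := by exact_mod_cast hL
  have hm := inv_pos.2 (mm_pos j)
  have h1 : |pr (opf j w') v| ≤ c := by
    refine hc _ (InK.op j _ (fun l => ?_) (hw.mono fun l ξ => ?_)) ?_
    · simp only [w']
      split_ifs
      exacts [hK l, InK.zero]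
    · simp only [w']
      split_ifs <;> simp
    · rw [opf, N_smul, abs_of_pos hm]
      refine (mul_le_of_le_one_left (N_nonneg _) ((inv_mm_le' j).trans (by norm_num))).trans
        ((N_sum_le _ _).trans ?_)
      have h2 := geo_le (range (nn j)) 0 (by simp)
      calc _ ≤ ∑ l ∈ range (nn j), (1 / 2 : ℝ) ^ l / L := by
            refine sum_le_sum fun l _ => ?_
            simp only [w']
            split_ifs with h
            · refine (hw.2 l (Nat.pos_of_ne_zero ?_)).N_le hL' (by linarith)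
              rintro rfl
              simp only [S, range_zero, sum_empty] at h
              linarith
            · rw [N_zero]
              positivity
        _ ≤ _ := by rw [← sum_div]; gcongr; simpa using h2
  have h2 : ∑ l ∈ range (nn j) with ¬ L < S l, |pr (w l) v| ≤ 2 := by
    rcases ((range (nn j)).filter fun l => ¬ L < S l).eq_empty_or_nonempty with he | hne
    · rw [he, sum_empty]
      norm_num
    have h3 := not_lt.1 (mem_filter.1 (max'_mem _ hne)).2
    refine (sum_le_sum_of_subset_of_nonneg (t := range (max' _ hne + 1))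
      (fun l hl => mem_range.2 (Nat.lt_succ_of_le (le_max' _ l hl)))
      fun _ _ _ => abs_nonneg _).trans ?_
    rw [sum_range_succ]
    have h4 := (abs_pr_le_nm (hK (max' _ hne)) v).trans hv
    have h5 : ∑ l ∈ range (max' _ hne), |pr (w l) v| ≤ S (max' _ hne) * (1 / L) := by
      rw [sum_mul]
      refine sum_le_sum fun l _ => ?_
      rw [pr_eq _ _ subset_rfl, ← nsmul_eq_mul]
      refine (abs_sum_le_sum_abs _ _).trans (sum_le_card_nsmul _ _ _ fun ξ _ => ?_)
      rw [abs_mul]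
      exact (mul_le_of_le_one_left (abs_nonneg _) ((hK l).abs_apply_le ξ)).trans (hη ξ)
    have h6 : S (max' _ hne) * (1 / L) ≤ 1 := by rwa [mul_one_div, div_le_one hL']
    linarith
  have e : pr (opf j w) v = (mm j)⁻¹ * ∑ l ∈ range (nn j) with ¬ L < S l, pr (w l) v +
      pr (opf j w') v := by
    rw [pr_opf, pr_opf, ← mul_add, ← sum_filter_not_add_sum_filter _ fun l => L < S l,
      sum_filter fun l => L < S l]
    congr 2
    refine sum_congr rfl fun l _ => ?_
    simp only [w']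
    split_ifs <;> simp
  rw [e]
  refine (abs_add_le _ _).trans (add_le_add ?_ h1)
  rw [abs_mul, abs_of_pos hm, mul_comm]
  gcongr
  exact (abs_sum_le_sum_abs _ _).trans h2

variable {g : ℕ → V Ω}

theorem exists_flat (hg : Succ g) (h0 : ∀ n, g n ≠ 0) (a : ℕ) {η : ℝ} (hη : 0 < η) :
    ∃ b, a ≤ b ∧ ∃ v ∈ Z g a b, nm v = 1 ∧ ∀ ξ, |v ξ| ≤ η := by
  let d : ℕ → V Ω := fun n => (nm (g (a + n)))⁻¹ • g (a + n)
  have hd : ∀ n, nm (d n) = 1 := fun n => by
    have := nm_pos (h0 (a + n))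
    rw [nm_smul, abs_of_pos (inv_pos.2 this), inv_mul_cancel₀ this.ne']
  have hs : Succ d := fun l l' hl α hα β hβ => hg _ _ (Nat.add_lt_add_left hl a) α
    (Finsupp.support_smul hα) β (Finsupp.support_smul hβ)
  obtain ⟨M, hM⟩ := bdd_complete hs one_half_pos (fun n => by rw [hd]; norm_num) η⁻¹
  have hp := (inv_pos.2 hη).trans hM
  refine ⟨a + M, Nat.le_add_right a M, (nm (∑ n ∈ range M, d n))⁻¹ • ∑ n ∈ range M, d n,
    Submodule.smul_mem _ _ (Submodule.sum_mem _ fun n hn => Submodule.smul_mem _ _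
      (Z_mono g (Nat.le_add_right a n) (Nat.add_lt_add_left (mem_range.1 hn) a)
        (self_mem_Z g (a + n)))), ?_, fun ξ => ?_⟩
  · rw [nm_smul, abs_of_pos (inv_pos.2 hp), inv_mul_cancel₀ hp.ne']
  · rw [Finsupp.smul_apply, smul_eq_mul, abs_mul, abs_of_pos (inv_pos.2 hp)]
    exact (mul_le_of_le_one_right (inv_pos.2 hp).le (hs.abs_sum_le zero_le_one fun k _ =>
      (abs_apply_le_nm _ ξ).trans (hd k).le)).trans (inv_le_of_inv_le₀ hη hM.le)

theorem exists_small_charge (hg : Succ g) (h0 : ∀ n, g n ≠ 0) : ∃ c > 0, ∀ a, ∀ t > 0,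
    ∃ C : Col g, (nm C.v ≤ 1 ∧ c ≤ pr C.w C.v) ∧ a ≤ C.a ∧ N C.w ≤ t := by
  by_contra! hc
  have hneg : ∀ c > 0, ∃ a, ∃ t > 0, ∀ b, a ≤ b → ∀ v ∈ Z g a b, nm v ≤ 1 → ∀ w, InK w → N w ≤ t →
      |pr w v| ≤ c := by
    intro c hc0
    obtain ⟨a, t, ht, h⟩ := hc c hc0
    refine ⟨a, t, ht, fun b hab v hv h1 => ?_⟩
    have key : ∀ w, InK w → N w ≤ t → pr w v ≤ c := fun w hw h2 => by
      obtain ⟨C, c1, -, rfl, c4, c5⟩ := exists_res_K hab hv hw
      by_contra! hlt
      exact (h C ⟨h1, c5 ▸ hlt.le⟩ c1.ge).not_ge (c4 ▸ (N_res_le _ _).trans h2)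
    intro w hw h2
    refine abs_le'.2 ⟨key w hw h2, ?_⟩
    simpa using key _ hw.neg (by simpa using (N_smul (-1) w).trans_le (by simpa using h2))
  obtain ⟨a1, t1, ht1, h1⟩ := hneg (1 / 8) (by norm_num)
  obtain ⟨J, hJ⟩ := exists_pow_lt_of_lt_one ht1 one_half_lt_one
  obtain ⟨a2, t2, ht2, h2⟩ := hneg (1 / (8 * (J + 1))) (by positivity)
  obtain ⟨L, hL⟩ := exists_nat_gt (2 / t2 + 2)
  have hL2 : (2 : ℝ) < L := lt_of_le_of_lt (le_add_of_nonneg_left (by positivity)) hL
  obtain ⟨b, hb, v, hv, v1, v2⟩ := exists_flat hg h0 (max a1 a2) (η := 1 / L) (by positivity)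
  have k1 := h1 b (le_of_max_le_left hb) v (Z_mono g (le_max_left _ _) le_rfl hv) v1.le
  have k2 := h2 b (le_of_max_le_right hb) v (Z_mono g (le_max_right _ _) le_rfl hv) v1.le
  have k3 : ∀ j z, IsOp j z → |pr z v| ≤ 2 * (mm j)⁻¹ + 1 / (8 * (J + 1)) := by
    rintro j _ ⟨w, w1, w2, rfl⟩
    refine op_flat w1 w2 v1.le (by exact_mod_cast two_pos.trans hL2) v2 (fun u hu h => k2 u hu
      (h.trans ?_)) j
    rw [div_le_iff₀ (two_pos.trans hL2), mul_comm, ← div_le_iff₀ ht2]
    linarith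
  have k4 : (1 : ℝ) / (8 * (J + 1)) ≤ 1 / 8 := by
    gcongr
    exact le_mul_of_one_le_right (by norm_num) (by simp)
  have : nm v ≤ 1 / 2 := nm_le fun w hw => (le_abs_self _).trans <|
    InK.bound (κ := Unit) (fun _ => v) (fun _ => 1 / 2)
      (fun _ ξ => (v2 ξ).trans (by gcongr)) (fun _ => by norm_num)
      (fun j w w1 _ w2 _ => by
        have := k3 j _ ⟨w, w1, w2, rfl⟩
        have := inv_mm_le' j
        linarith)
      (fun E s c z j n lo hi hE hs _ _ => by
        have e1 := k1 _ ((hs.right J).inK.restr E hE _) ((N_res_le _ _).trans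
          (((hs.right J).N_le fun i _ => le_max_right _ _).trans (by linarith)))
        have e2 : |pr (spc s c z j n lo fun i => min (hi i) J) (res E v)| ≤ 3 / 8 := by
          refine (hs.left J).abs_le (fun x => 2 * (mm x)⁻¹ + 1 / (8 * (J + 1))) (fun i hi l hl => ?_)
            fun S hS => ?_
          · rw [← pr_res]
            exact k3 _ _ (((hs.sp i hi).2 l (mem_idx.1 hl).1).res hE)
          · have e3 := geo_mm (S := S) (J := 0) fun _ _ => Nat.zero_le _
            have e4 := inv_mm_le' 0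
            have e5 : (S.card : ℝ) ≤ J + 1 := by
              have : S ⊆ range J := fun x hx => by
                obtain ⟨i, -, -, h⟩ := hS x hx
                exact mem_range.2 (h.trans_le (min_le_right _ _))
              have := card_le_card this
              rw [card_range] at this
              exact_mod_cast this.trans (Nat.le_succ J)
            have e6 : (S.card : ℝ) * (1 / (8 * (J + 1))) ≤ 1 / 8 := by
              rw [mul_one_div, div_le_iff₀ (by positivity)]
              linarith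
            rw [sum_add_distrib, ← mul_sum, sum_const, nsmul_eq_mul]
            linarith
        rw [spc_split _ _ _ _ _ _ _ J, map_add, map_add, LinearMap.add_apply, pr_res]
        refine (abs_add_le _ _).trans ?_
        linarith) hw ()
  linarith

theorem sum_range_mul' {M : Type*} [AddCommMonoid M] (f : ℕ → M) (r n B : ℕ) :
    ∑ x ∈ range (n * B), f (r + x) = ∑ i ∈ range n, ∑ x ∈ range B, f (r + i * B + x) := by
  induction n with
  | zero => simp
  | succ n ih => simp only [Nat.succ_mul, sum_range_add, ih, sum_range_succ, add_assoc]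

theorem add_mul_le {i l : ℕ} (h : i < l) (r B : ℕ) : r + i * B + B ≤ r + l * B := by
  have := Nat.mul_le_mul_right B (Nat.succ_le_of_lt h)
  rw [Nat.succ_mul] at this
  omega

theorem exists_unspl (hg : Succ g) (h0 : ∀ n, g n ≠ 0) (M a : ℕ) {t : ℝ} (ht : 0 < t) :
    ∃ C : Col g, (nm C.v ≤ 1 ∧ 1 / 4 ≤ pr C.w C.v ∧ Unspl C.v M) ∧ a ≤ C.a ∧ N C.w ≤ t := by
  obtain ⟨c, hc, h⟩ := exists_small_charge hg h0
  obtain ⟨s, s1, s2, s3⟩ := exists_chain (g := g)
    (fun C => (nm C.v ≤ 1 ∧ c ≤ pr C.w C.v) ∧ a ≤ C.a) fun a' t' ht' => by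
      obtain ⟨C, c1, c2, c3⟩ := h (max a a') t' ht'
      exact ⟨C, ⟨c1, le_of_max_le_left c2⟩, le_of_max_le_right c2, c3⟩
  by_contra! hneg
  obtain ⟨R, hR⟩ := exists_nat_gt (4 / t ^ 2)
  have hR0 : (0 : ℝ) < R := lt_trans (by positivity) hR
  have key : ∀ k r, nm (∑ x ∈ range ((R * (M + 1)) ^ k), (s (r + x)).v) ≤
      (R * (M + 1) / 2) ^ k := by
    intro k
    induction k with
    | zero => simpa using fun r => (s1 r).1.1
    | succ k ih =>
      intro r
      generalize hB : (R * (M + 1)) ^ k = B at ih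
      generalize hα : ((R : ℝ) * (M + 1) / 2) ^ k = α at ih
      have hα0 : 0 < α := by rw [← hα]; positivity
      rw [pow_succ', pow_succ', hB, hα, mul_assoc, sum_range_mul' fun x => (s x).v]
      refine nm_le fun w hw => ?_
      let E : ℕ → Set Ω := fun i =>
        Rg g (s (r + i * ((M + 1) * B))).a (s (r + i * ((M + 1) * B) + (M + 1) * B)).a
      have h1 : ∀ i, pr w (∑ x ∈ range ((M + 1) * B), (s (r + i * ((M + 1) * B) + x)).v) ≤
          (M + 1) * α * (1 / 4 + N (res (E i) w) ^ 2 / t ^ 2) := by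
        intro i
        have hp : (0 : ℝ) < ((M + 1 : ℕ) : ℝ) * α := by positivity
        have e := sum_range_mul' (fun x => (s x).v) (r + i * ((M + 1) * B)) (M + 1) B
        have h2 := unspl_avg (y := fun l => ∑ x ∈ range B, (s (r + i * ((M + 1) * B) + l * B + x)).v)
          (fun l l' hl α hα β hβ => Rg_lt hg (s2.a_mono (add_mul_le hl _ _))
            (mem_Rg (s2.sum_mem _ B) α hα) (mem_Rg (s2.sum_mem _ B) β hβ))
          (Nat.le_succ M) hα0 (Nat.succ_pos M) fun l _ => ih _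
        have h3 : nm ((((M + 1 : ℕ) : ℝ) * α)⁻¹ •
            ∑ x ∈ range ((M + 1) * B), (s (r + i * ((M + 1) * B) + x)).v) ≤ 1 := by
          rw [nm_smul, abs_of_pos (inv_pos.2 hp), inv_mul_le_iff₀ hp, mul_one, e, ← nsmul_eq_mul]
          refine (nm_sum_le _ _).trans ((sum_le_card_nsmul _ _ _ fun l _ => ih _).trans ?_)
          rw [card_range]
        rw [← e] at h2
        obtain ⟨C, c1, -, c3, c4, c5⟩ := exists_res_K (s2.a_mono (Nat.le_add_right _ _))
          (Submodule.smul_mem _ (((M + 1 : ℕ) : ℝ) * α)⁻¹ (s2.sum_mem (r + i * ((M + 1) * B))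
            ((M + 1) * B))) hw
        rw [← c3] at h2 h3
        have h4 := hneg C
        have h5 := pr_le_nm C.hK C.v
        rw [← c3, c3, map_smul (pr w), ← c3, smul_eq_mul] at c5
        push_cast at c5 hp
        rw [← inv_mul_le_iff₀ hp, ← c5]
        rcases lt_or_ge (pr C.w C.v) (1 / 4) with h6 | h6
        · exact h6.le.trans (le_add_of_nonneg_right (by positivity))
        have h7 := h4 ⟨h3, h6, h2⟩ (c1 ▸ (s1 _).2)
        rw [c4] at h7
        have h8 : 1 ≤ N (res (E i) w) ^ 2 / t ^ 2 := by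
          rw [le_div_iff₀ (by positivity), one_mul]
          exact pow_le_pow_left₀ ht.le h7.le 2
        linarith
      have h2 := sum_N_res_le (s := range R) (E := E) (fun i _ l _ hne ξ h1 h2 => by
        rcases lt_or_gt_of_ne hne with hl | hl
        · exact (Rg_lt hg (s2.a_mono (add_mul_le hl _ _)) h1 h2).false
        · exact (Rg_lt hg (s2.a_mono (add_mul_le hl _ _)) h2 h1).false) w
      have h3 : N w ^ 2 ≤ 1 := pow_le_one₀ (N_nonneg _) hw.N_le
      rw [map_sum]
      refine (sum_le_sum fun i _ => h1 i).trans ?_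
      rw [← mul_sum, sum_add_distrib, ← sum_div _ _ (t ^ 2), sum_const, card_range, nsmul_eq_mul]
      have h4 : (∑ i ∈ range R, N (res (E i) w) ^ 2) / t ^ 2 ≤ R / 4 := by
        rw [div_lt_iff₀ (by positivity)] at hR
        rw [div_le_iff₀ (by positivity)]
        linarith
      calc _ ≤ (M + 1) * α * (R * (1 / 4) + R / 4) := by gcongr
        _ = _ := by ring
  obtain ⟨i, hi⟩ := exists_nat_gt (max (1 / c) ((R * (M + 1)) ^ 2 : ℕ))
  have h1 : (R * (M + 1)) ^ (2 * (2 * i + 6)) ≤ nn (i + 1) := by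
    rw [pow_mul]
    refine Nat.pow_le_pow_left ?_ _
    have h2 : (R * (M + 1)) ^ 2 < i := by exact_mod_cast (max_lt_iff.1 hi).2
    have := nn_strictMono.le_apply (x := i)
    omega
  have h2 := (pr_le_nm (InK.op (i + 1) _ (fun l => (s l).hK)
    ⟨s2.succ_w hg, fun l _ => s3 l⟩) _).trans (key (2 * (2 * i + 6)) 0)
  simp only [zero_add, pr_opf, s2.pr_sum hg] at h2
  rw [← sum_filter, filter_mem_eq_inter, inter_eq_right.2 (range_subset_range.2 h1)] at h2
  have h3 := card_nsmul_le_sum (range ((R * (M + 1)) ^ (2 * (2 * i + 6)))) _ _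
    fun l _ => (s1 l).1.2
  rw [card_range, nsmul_eq_mul] at h3
  push_cast at h3
  have h4 := mm_pos (i + 1)
  have h5 := le_mm (i + 1)
  have h6 := (max_lt_iff.1 hi).1
  rw [div_pow, mul_comm 2 (2 * i + 6), pow_mul (2 : ℝ), show 2 * i + 6 = 2 * (i + 1) + 4 by ring,
    ← mm_eq, inv_mul_le_iff₀ h4] at h2
  rw [mul_comm 2 (2 * i + 6), show 2 * i + 6 = 2 * (i + 1) + 4 by ring] at h3
  have h7 := h3.trans h2
  rw [div_lt_iff₀ hc] at h6
  generalize hP : ((R : ℝ) * (M + 1)) ^ ((2 * (i + 1) + 4) * 2) = P at h7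
  have hP0 : 0 < P := by rw [← hP]; positivity
  rw [pow_two, ← mul_div_assoc, mul_div_mul_left _ _ h4.ne', le_div_iff₀ h4] at h7
  push_cast at h5
  nlinarith [mul_pos hP0 hc]

end Vale.Agent.P129.CH
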