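import Vale.Agent.P129.CH.AI
import Vale.Agent.P129.CH.Regime

/-! The basic inequality for rapidly increasing sequences. -/

open Finset Filter Topology

namespace Vale.Agent.P129.CH

variable {Ω : Type} [LinearOrder Ω] [Rho Ω]

/-- The accuracy demanded after a column. -/
noncomputable def acc (j0 e : ℕ) : ℝ := 1 / ((nn j0 : ℝ) ^ 2 * (e + 1))

theorem acc_pos (j0 e : ℕ) : 0 < acc j0 e := by
  have : (0 : ℝ) < nn j0 := by exact_mod_cast (nn_ge j0).trans_lt' (by norm_num)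
  unfold acc
  positivity

/-- Rapidly increasing sequences. -/
structure RIS (j0 : ℕ) (v : ℕ → V Ω) (st en : ℕ → ℕ) : Prop where
  succ : Succ v
  nm_le : ∀ k, nm (v k) ≤ 1
  unspl : ∀ k, Unspl (v k) (nn (st k))
  high : ∀ k, N (v k) * mm (st k) ≤ 2 ^ en k
  le_st : ∀ k, j0 ≤ st k
  en_le : ∀ k k', k < k' → en k ≤ st k'
  sel : ∀ k0 k1 k2 k3, k0 < k1 → k1 < k2 → k2 < k3 → ∀ t : FS Ω,
    ¬ (acc j0 (en k0) ≤ |t.wa (st k1) (en k1) (v k1)| ∧
      acc j0 (en k0) ≤ |t.wa (st k2) (en k2) (v k2)| ∧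
      acc j0 (en k0) ≤ |t.wa (st k3) (en k3) (v k3)|)

variable {j0 : ℕ} {v : ℕ → V Ω} {st en : ℕ → ℕ}

theorem inv_mm_anti {a b : ℕ} (h : a ≤ b) : (mm b)⁻¹ ≤ (mm a)⁻¹ := inv_anti₀ (mm_pos a) (mm_mono h)

theorem RIS.op_high (h : RIS j0 v st en) {j : ℕ} (hj : j0 ≤ j) {z : V Ω} (hz : IsOp j z)
    (I : Finset ℕ) : |pr z (∑ k ∈ I, v k)| ≤ I.card * (2 * (mm j0)⁻¹) + 1 := by
  have h1 : ∀ k ∈ I, |pr z (v k)| ≤ 2 * (mm j0)⁻¹ + if st k ≤ j ∧ j < en k then 1 else 0 := by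
    intro k _
    have h0 := inv_pos.2 (mm_pos j0)
    split_ifs with h2
    · have := (abs_pr_le_nm hz.inK _).trans (h.nm_le k)
      linarith
    rcases lt_or_ge j (st k) with h3 | h3
    · have := (h.unspl k).op h3.le hz
      have := inv_mm_anti hj
      linarith
    · have h4 : (1 / 2 : ℝ) ^ j ≤ (1 / 2) ^ en k :=
        pow_le_pow_of_le_one (by norm_num) (by norm_num) (by omega)
      have h5 := inv_mm_le j
      have h6 : (0 : ℝ) < (1 / 2) ^ j := by positivity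
      have := high_le (w := z) (h.high k) (hz.N_le.trans (by linarith))
      have := inv_mm_anti (h.le_st k)
      linarith
  rw [map_sum]
  refine (abs_sum_le_sum_abs _ _).trans ((sum_le_sum h1).trans ?_)
  rw [sum_add_distrib, sum_const, nsmul_eq_mul, sum_boole]
  gcongr
  refine Nat.cast_le_one.2 (card_le_one.2 fun a ha b hb => ?_)
  have h2 := (mem_filter.1 ha).2
  have h3 := (mem_filter.1 hb).2
  have := h.en_le a b
  have := h.en_le b a
  omega

theorem RIS.exists_big (h : RIS j0 v st en) (t : FS Ω) (lo hi : ℕ) (I : Finset ℕ) :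
    ∃ Bg : Finset ℕ, Bg.card ≤ 3 ∧ ∀ k ∈ I, k ∉ Bg →
      |t.wa (max lo (st k)) (min hi (en k)) (v k)| ≤
        ∑ k ∈ I, acc j0 (en k) * (idx t.j t.n (max lo (st k)) (min hi (en k))).card := by
  have h0 : ∀ k ∈ I, 0 ≤ acc j0 (en k) * (idx t.j t.n (max lo (st k)) (min hi (en k))).card :=
    fun k _ => mul_nonneg (acc_pos _ _).le (Nat.cast_nonneg _)
  have h1 : ∀ k, ¬ (idx t.j t.n (max lo (st k)) (min hi (en k))).Nonempty →
      |t.wa (max lo (st k)) (min hi (en k)) (v k)| ≤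
        ∑ k ∈ I, acc j0 (en k) * (idx t.j t.n (max lo (st k)) (min hi (en k))).card := by
    intro k hk
    rw [FS.wa, seg, not_nonempty_iff_eq_empty.1 hk]
    simpa using sum_nonneg h0
  rcases (I.filter fun k =>
    (idx t.j t.n (max lo (st k)) (min hi (en k))).Nonempty).eq_empty_or_nonempty with he | hne
  · exact ⟨∅, by simp, fun k hk _ => h1 k (filter_eq_empty_iff.1 he hk)⟩
  obtain ⟨k0, h2, h3⟩ := exists_min_image _ id hne
  rw [mem_filter] at h2
  have hex : ∃ l, ¬ (l < t.n ∧ t.j l < hi) := ⟨t.n, by omega⟩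
  have h4 : ∀ l, l < Nat.find hex ↔ l < t.n ∧ t.j l < hi := fun l =>
    ⟨fun hl => not_not.1 (Nat.find_min hex hl), fun hl => by
      refine lt_of_not_ge fun hc => ?_
      exact Nat.find_spec hex ⟨hc.trans_lt hl.1, (t.sp.1.le_of_le hc hl.1).trans_lt hl.2⟩⟩
  let t' : FS Ω := ⟨t.z, t.j, Nat.find hex, t.sp.mono (Nat.find_min' hex (by omega))⟩
  refine ⟨insert k0 (I.filter fun k => k0 < k ∧ acc j0 (en k0) ≤ |t'.wa (st k) (en k) (v k)|),
    (card_insert_le _ _).trans (Nat.succ_le_succ (card_le_two fun a ha b hb c hc h5 h6 =>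
      h.sel k0 a b c (mem_filter.1 ha).2.1 h5 h6 t'
        ⟨(mem_filter.1 ha).2.2, (mem_filter.1 hb).2.2, (mem_filter.1 hc).2.2⟩)), fun k hk h5 => ?_⟩
  by_cases h6 : (idx t.j t.n (max lo (st k)) (min hi (en k))).Nonempty
  swap
  · exact h1 k h6
  rw [mem_insert, not_or, mem_filter] at h5
  have h7 : k0 < k := lt_of_le_of_ne (h3 k (mem_filter.2 ⟨hk, h6⟩)) (Ne.symm h5.1)
  have h8 : idx t.j t.n (max lo (st k)) (min hi (en k)) = idx t.j (Nat.find hex) (st k) (en k) := by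
    obtain ⟨l0, h8⟩ := h2.2
    rw [mem_idx] at h8
    have := h.en_le k0 k h7
    ext l
    simp only [mem_idx, h4]
    omega
  have h9 : |t'.wa (st k) (en k) (v k)| < acc j0 (en k0) := not_le.1 fun h9 => h5.2 ⟨hk, h7, h9⟩
  refine le_trans ?_ (single_le_sum h0 h2.1)
  rw [FS.wa, seg, h8]
  exact h9.le.trans (le_mul_of_one_le_right (acc_pos _ _).le (Nat.one_le_cast.2 h2.2.card_pos))

theorem RIS.window (h : RIS j0 v st en) {s : Finset ℕ} {c : ℕ → ℚ} {z : ℕ → ℕ → V Ω}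
    {j : ℕ → ℕ → ℕ} {n lo hi : ℕ → ℕ} (hs : SpD s c z j n lo hi) {I : Finset ℕ}
    (hI : I.card ≤ nn j0) {L : ℝ} (hL : 0 < L) :
    ∑ k ∈ I, |pr (spc s c z j n (fun i => max (lo i) (st k)) fun i => min (hi i) (en k)) (v k)| ≤
      3 / 2 * L + I.card / (2 * L) + 1 := by
  choose! Bg h1 h2 using fun i (his : i ∈ s) => h.exists_big ⟨_, _, _, hs.sp i his⟩ (lo i) (hi i) I
  simp only [FS.wa] at h2
  set b : ℕ → ℕ → ℝ := fun i k =>
    pr (seg (z i) (j i) (n i) (max (lo i) (st k)) (min (hi i) (en k))) (v k) with hb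
  set δ : ℕ → ℝ := fun i => ∑ k ∈ I, acc j0 (en k) *
    (idx (j i) (n i) (max (lo i) (st k)) (min (hi i) (en k))).card with hδ
  have h3 : ∀ k ∈ I, ∀ i ∈ s, |c i * b i k| ≤
      L / 2 * c i ^ 2 * (if k ∈ Bg i then 1 else 0) + b i k ^ 2 / (2 * L) + δ i := by
    intro k hk i hi
    have h4 : 0 ≤ δ i := sum_nonneg fun k _ => mul_nonneg (acc_pos _ _).le (Nat.cast_nonneg _)
    rw [abs_mul]
    split_ifs with h5
    · have : |(c i : ℝ)| * |b i k| ≤ L / 2 * c i ^ 2 + b i k ^ 2 / (2 * L) := by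
        rw [← sq_abs (c i : ℝ), ← sq_abs (b i k), ← sub_nonneg]
        have : L / 2 * |(c i : ℝ)| ^ 2 + |b i k| ^ 2 / (2 * L) - |(c i : ℝ)| * |b i k| =
            (L * |(c i : ℝ)| - |b i k|) ^ 2 / (2 * L) := by field_simp; ring
        rw [this]
        positivity
      linarith
    · have := (mul_le_of_le_one_left (abs_nonneg _) (abs_le_one_of_sq hs.sq hi)).trans
        (h2 i hi k hk h5)
      have : 0 ≤ b i k ^ 2 / (2 * L) := by positivity
      linarith
  have h4 : ∑ k ∈ I, ∑ i ∈ s, L / 2 * c i ^ 2 * (if k ∈ Bg i then 1 else 0 : ℝ) ≤ 3 / 2 * L := by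
    rw [sum_comm]
    calc _ ≤ ∑ i ∈ s, L / 2 * (c i : ℝ) ^ 2 * 3 := by
          refine sum_le_sum fun i hi => ?_
          rw [← mul_sum, sum_boole]
          gcongr
          exact_mod_cast (card_le_card fun k hk => (mem_filter.1 hk).2).trans (h1 i hi)
      _ ≤ _ := by
          rw [← sum_mul, ← mul_sum]
          nlinarith [hs.sq]
  have h5 : ∑ k ∈ I, ∑ i ∈ s, b i k ^ 2 / (2 * L) ≤ I.card / (2 * L) := by
    simp only [← sum_div]
    gcongr
    rw [← mul_one (I.card : ℝ), ← nsmul_eq_mul]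
    exact sum_le_card_nsmul _ _ _ fun k _ => (l2_seg hs.sp ((hs.right (st k)).left (en k)).disj
      (v k)).trans (pow_le_one₀ (nm_nonneg _) (h.nm_le k))
  have h6 : ∑ k ∈ I, ∑ i ∈ s, δ i ≤ 1 := by
    have hN : (0 : ℝ) < nn j0 := by exact_mod_cast (nn_ge j0).trans_lt' (by norm_num)
    have h7 : ∑ i ∈ s, δ i ≤ I.card • (1 / (nn j0 : ℝ) ^ 2) := by
      rw [sum_comm]
      refine sum_le_card_nsmul _ _ _ fun k _ => ?_
      obtain ⟨S, hS, e⟩ := blocks_sum (fun i hi => (hs.sp i hi).1)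
        ((hs.right (st k)).left (en k)).disj fun _ => 1
      simp only [sum_const, nsmul_eq_mul, mul_one] at e
      have h8 : S.card ≤ en k + 1 := by
        have : S ⊆ range (en k) := fun x hx => by
          obtain ⟨i, -, -, h⟩ := hS x hx
          exact mem_range.2 (h.trans_le (min_le_right _ _))
        exact (card_le_card this).trans (by simp)
      rw [← mul_sum, e, acc, ← div_div, div_mul_eq_mul_div, div_le_iff₀ (by positivity)]
      gcongr
      exact_mod_cast h8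
    have h8 : (I.card : ℝ) ≤ nn j0 := by exact_mod_cast hI
    rw [sum_const, nsmul_eq_mul]
    rw [nsmul_eq_mul] at h7
    calc _ ≤ (nn j0 : ℝ) * (nn j0 * (1 / (nn j0 : ℝ) ^ 2)) := by
          refine (mul_le_mul_of_nonneg_left h7 (Nat.cast_nonneg _)).trans ?_
          gcongr
      _ = 1 := by field_simp
  refine le_trans ?_ (add_le_add (add_le_add h4 h5) h6)
  simp only [← sum_add_distrib]
  refine sum_le_sum fun k hk => ?_
  rw [pr_spc]
  exact (abs_sum_le_sum_abs _ _).trans (sum_le_sum (h3 k hk))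

theorem RIS.cut (h : RIS j0 v st en) {E : Set Ω} (hE : E.OrdConnected) (I : Finset ℕ) :
    ∃ I' ⊆ I, ∀ f, InK f → |pr (res E f) (∑ k ∈ I, v k)| ≤ |pr f (∑ k ∈ I', v k)| + 2 := by
  classical
  refine ⟨I.filter fun k => ∀ ξ ∈ (v k).support, ξ ∈ E, filter_subset _ _, fun f hf => ?_⟩
  rw [pr_res, ← sum_filter_add_sum_filter_not I fun k => ∀ ξ ∈ (v k).support, ξ ∈ E, map_add,
    map_add, res_eq_self (support_sum_subset fun k hk => (mem_filter.1 hk).2)]
  refine (abs_add_le _ _).trans (add_le_add_right ?_ _)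
  rw [map_sum, map_sum, ← sum_filter_of_ne (p := fun k => ∃ ξ ∈ (v k).support, ξ ∈ E)
    fun k _ hk => by
      by_contra! hc
      exact hk (by rw [res_eq_zero hc, map_zero])]
  refine (abs_sum_le_sum_abs _ _).trans ((sum_le_card_nsmul _ _ 1 fun k _ =>
    (abs_pr_le_nm hf _).trans ((nm_res_le hE _).trans (h.nm_le k))).trans ?_)
  rw [nsmul_eq_mul, mul_one]
  refine Nat.cast_le_ofNat.2 (card_le_two fun a ha b hb c hc h1 h2 => ?_)
  obtain ⟨α, a1, a2⟩ := (mem_filter.1 ha).2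
  obtain ⟨γ, c1, c2⟩ := (mem_filter.1 hc).2
  exact (mem_filter.1 (mem_filter.1 hb).1).2 fun β hβ =>
    hE.out a2 c2 ⟨(h.succ a b h1 α a1 β hβ).le, (h.succ b c h2 β hβ γ c1).le⟩

/-- The bound in the basic inequality. -/
noncomputable def Phi (j m i : ℕ) : ℝ := 12 * (m + (2 * nn j) ^ i) / 2 ^ i

theorem Phi_eq (j m i : ℕ) : Phi j m i = 12 * (m / 2 ^ i + nn j ^ i) := by
  rw [Phi, mul_pow]
  field_simp

omit [Rho Ω] in
theorem op_low (hv : Succ v) {j1 j i : ℕ} (hj : j ≤ j1) {w : ℕ → V Ω} (hw : Succ w) {I : Finset ℕ}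
    (h : ∀ l, ∀ I' ⊆ I, |pr (w l) (∑ k ∈ I', v k)| ≤ Phi j1 I'.card i) :
    |pr (opf j w) (∑ k ∈ I, v k)| ≤ 2 * (mm j)⁻¹ * Phi j1 I.card (i + 1) := by
  have h1 := sum_meets_le hw hv I (nn j)
  have h2 : (nn j : ℝ) ≤ nn j1 := by exact_mod_cast nn_strictMono.monotone hj
  have h3 : (1 : ℝ) ≤ (2 * nn j1) ^ i :=
    one_le_pow₀ (by exact_mod_cast (by have := nn_ge j1; omega : 1 ≤ 2 * nn j1))
  rw [pr_opf, abs_mul, abs_of_pos (inv_pos.2 (mm_pos j)), mul_comm 2, mul_assoc]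
  gcongr
  · exact (inv_pos.2 (mm_pos j)).le
  refine (abs_sum_le_sum_abs _ _).trans ((sum_le_sum fun l _ =>
    (pr_sum_meets (w l) v I ▸ h l _ (mts_subset (w l) v I))).trans ?_)
  simp only [Phi, ← sum_div, ← mul_sum, sum_add_distrib, sum_const, card_range, nsmul_eq_mul]
  rw [pow_succ (2 : ℝ) i, pow_succ, ← mul_div_assoc, mul_comm (2 ^ i) 2,
    mul_div_mul_left _ _ two_ne_zero]
  refine div_le_div_of_nonneg_right ?_ (by positivity)
  nlinarith [Nat.cast_nonneg (α := ℝ) (nn j)]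

theorem RIS.basic {j1 : ℕ} (h : RIS (j1 + 1) v st en) :
    nm (∑ k ∈ range (nn (j1 + 1)), v k) ≤ 24 * nn (j1 + 1) / mm (j1 + 1) := by
  have hn : (256 : ℝ) ≤ nn j1 := by exact_mod_cast nn_ge j1
  have h0 : ∀ w, InK w → ∀ I : Finset ℕ, |pr w (∑ k ∈ I, v k)| ≤ Phi j1 I.card 0 := by
    intro w hw I
    have := (abs_pr_le_nm hw _).trans ((nm_sum_le I v).trans
      (sum_le_card_nsmul _ _ 1 fun k _ => h.nm_le k))
    rw [nsmul_eq_mul] at this
    rw [Phi_eq, pow_zero, pow_zero, div_one]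
    linarith [Nat.cast_nonneg (α := ℝ) I.card]
  have h1 : ∀ i, (1 : ℝ) ≤ nn j1 ^ i := fun i => one_le_pow₀ (by linarith)
  have h2 : ∀ i ≤ 2 * j1 + 6, ∀ m : ℕ, m * (mm (j1 + 1))⁻¹ ≤ m / 2 ^ i := fun i hi m => by
    rw [mm_eq, ← div_eq_mul_inv]
    gcongr
    · norm_num
    · omega
  have h3 : ∀ (m i : ℕ), (0 : ℝ) ≤ m / 2 ^ i := fun m i => by positivity
  refine CH.nm_le fun w hw => (le_abs_self _).trans ((InK.bound
    (κ := {x : Finset ℕ × ℕ // x.1.card ≤ nn (j1 + 1) ∧ x.2 ≤ 2 * j1 + 6})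
    (fun x => ∑ k ∈ x.1.1, v k) (fun x => Phi j1 x.1.1.card x.1.2) ?_ ?_ ?_ ?_ hw
    ⟨(range (nn (j1 + 1)), 2 * j1 + 6), by simp, le_rfl⟩).trans_eq ?_)
  · rintro ⟨⟨I, i⟩, -⟩ ξ
    have := h.succ.abs_sum_le (I := I) zero_le_one fun k _ => (abs_apply_le_nm _ ξ).trans (h.nm_le k)
    have := h1 i
    have := h3 I.card i
    simp only [Phi_eq]
    linarith
  · rintro ⟨⟨I, i⟩, -⟩
    simp only [Phi]
    positivity
  · rintro j w w1 w2 w3 ⟨⟨I, i⟩, hI, hi⟩
    rcases i with _ | i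
    · exact h0 _ (InK.op j w w1 w3) I
    rcases le_or_gt j j1 with hj | hj
    · refine (op_low h.succ hj w3.1 fun l I' hI' =>
        w2 l ⟨(I', i), (card_le_card hI').trans hI, Nat.le_of_succ_le hi⟩).trans
        (mul_le_of_le_one_left (by simp only [Phi]; positivity) ?_)
      linarith [inv_mm_le' j]
    · have := h.op_high hj ⟨w, w1, w3, rfl⟩ I
      have := h1 (i + 1)
      have := h2 (i + 1) hi I.card
      have := h3 I.card (i + 1)
      simp only [Phi_eq]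
      linarith
  · rintro E s c z j n lo hi hE hs hch ⟨⟨I, i⟩, hI, hi'⟩
    rcases i with _ | i
    · exact h0 _ (hs.inK.restr E hE _) I
    obtain ⟨I', a1, a2⟩ := h.cut hE I
    have a3 := (card_le_card a1).trans hI
    have a4 : |pr (spc s c z j n lo fun i => min (hi i) (j1 + 1)) (∑ k ∈ I', v k)| ≤
        1 / 4 * Phi j1 I'.card (i + 1) := by
      refine (hs.left _).abs_le (fun x => 2 * (mm x)⁻¹ * Phi j1 I'.card (i + 1))
        (fun t ht l hl => ?_) fun S _ => ?_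
      · rw [mem_idx] at hl
        obtain ⟨ch, b1, b2, b3⟩ := hch t ht l hl.1
        rw [b3]
        exact op_low h.succ (by omega) b2.1 fun l I'' hI' =>
          b1 l ⟨(I'', i), (card_le_card hI').trans a3, Nat.le_of_succ_le hi'⟩
      · have := geo_mm (S := S) (J := 0) fun _ _ => Nat.zero_le _
        have := inv_mm_le' 0
        rw [← sum_mul, ← mul_sum]
        gcongr
        · simp only [Phi]
          positivity
        · linarith
    have hs' := hs.right (j1 + 1)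
    have a5 : ∀ k ∈ I', |pr (spc s c z j n (fun i => max (lo i) (j1 + 1)) hi) (v k)| ≤
        5 * (mm (j1 + 1))⁻¹ + |pr (spc s c z j n (fun i => max (max (lo i) (j1 + 1)) (st k))
          fun i => min (hi i) (en k)) (v k)| := by
      intro k _
      have b1 := (h.unspl k).low (hs'.left (st k)) fun i _ => ⟨le_max_right _ _, min_le_right _ _⟩
      have b2 := (high_le (h.high k) (((hs'.right (st k)).right (en k)).N_le
        fun i _ => le_max_right _ _)).trans (inv_mm_anti (h.le_st k))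
      rw [spc_split _ _ _ _ _ _ _ (st k), spc_split _ _ _ _ _ (fun i => max (max _ _) _) _ (en k)]
      simp only [map_add, LinearMap.add_apply]
      refine (abs_add_le _ _).trans ((add_le_add_right (abs_add_le _ _) _).trans ?_)
      linarith
    have a6 := (abs_sum_le_sum_abs _ _).trans (sum_le_sum a5)
    rw [sum_add_distrib, sum_const, nsmul_eq_mul, ← map_sum] at a6
    have a7 := h.window hs' a3 (L := 2 ^ (i + 1)) (by positivity)
    have a8 := a2 _ hs.inK
    rw [spc_split s c z j n lo hi (j1 + 1), map_add pr, LinearMap.add_apply,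
      ← spc_split s c z j n lo hi (j1 + 1)] at a8
    have a9 := abs_add_le (pr (spc s c z j n lo fun i => min (hi i) (j1 + 1)) (∑ k ∈ I', v k))
      (pr (spc s c z j n (fun i => max (lo i) (j1 + 1)) hi) (∑ k ∈ I', v k))
    have b1 := h1 (i + 1)
    have b2 := h2 (i + 1) hi' I'.card
    have b3 := h3 I'.card (i + 1)
    have b4 : (2 : ℝ) ^ (i + 1) ≤ nn j1 ^ (i + 1) := pow_le_pow_left₀ (by norm_num) (by linarith) _
    have b5 : (I'.card : ℝ) / 2 ^ (i + 1) ≤ I.card / 2 ^ (i + 1) := by gcongr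
    rw [mul_comm 2, ← div_div] at a7
    simp only [Phi_eq] at a4 ⊢
    linarith
  · simp only [Phi, card_range, mm_eq, nn]
    push_cast
    ring

end Vale.Agent.P129.CH
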