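import Vale.Agent.P129.CH.Defs

/-! Basic properties of the norming set and of the norm. -/

open Finset Filter Topology

namespace Vale.Agent.P129.CH

variable {Ω : Type} [LinearOrder Ω]

theorem mem_idx {j : ℕ → ℕ} {n lo hi l : ℕ} : l ∈ idx j n lo hi ↔ l < n ∧ lo ≤ j l ∧ j l < hi := by
  simp [idx]

omit [LinearOrder Ω] in
theorem Chg.N_le {w : ℕ → V Ω} {l : ℕ} (h : Chg w l) {L : ℝ} (hL : 0 < L)
    (hle : L ≤ 1 + ∑ t ∈ range l, ((w t).support.card : ℝ)) : N (w l) ≤ (1 / 2) ^ l / L := by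
  rw [one_div, inv_pow, ← one_div, div_div, le_div_iff₀ (by positivity), mul_comm _ L]
  refine le_trans ?_ h
  gcongr
  exact N_nonneg _

theorem OpOK.mono {w w' : ℕ → V Ω} (h : OpOK w) (hle : ∀ l ξ, |w' l ξ| ≤ |w l ξ|) : OpOK w' := by
  have hs : ∀ l, (w' l).support ⊆ (w l).support := fun l ξ hξ => by
    rw [Finsupp.mem_support_iff] at hξ ⊢
    exact fun h0 => hξ (abs_nonpos_iff.1 (by simpa [h0] using hle l ξ))
  refine ⟨fun l l' hl α hα β hβ => h.1 l l' hl α (hs l hα) β (hs l' hβ), fun l hl => ?_⟩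
  refine le_trans ?_ (h.2 l hl)
  gcongr
  · exact N_nonneg _
  · exact N_mono (hle l)
  · exact hs _

theorem N_opf_le {w : ℕ → V Ω} (h : OpOK w) (h0 : N (w 0) ≤ 1) (j : ℕ) :
    N (opf j w) ≤ 2 * (mm j)⁻¹ := by
  rw [opf, N_smul, abs_of_pos (inv_pos.2 (mm_pos j)), mul_comm]
  gcongr
  · exact (inv_pos.2 (mm_pos j)).le
  refine (N_sum_le _ _).trans (le_trans (sum_le_sum fun l _ => ?_)
    ((geo_le (range (nn j)) 0 (by simp)).trans (by simp)))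
  rcases Nat.eq_zero_or_pos l with rfl | hl
  · simpa using h0
  · simpa using (h.2 l hl).N_le one_pos (le_add_of_nonneg_right (by positivity))

omit [LinearOrder Ω] in
theorem res_opf (E : Set Ω) (j : ℕ) (w : ℕ → V Ω) :
    res E (opf j w) = opf j fun l => res E (w l) := by
  simp [opf]

variable [Rho Ω]

theorem Code.inj {z : ℕ → V Ω} {j : ℕ → ℕ} {n : ℕ} (h : Code z j n) {l l' : ℕ} (hl : l < n)
    (hl' : l' < n) (e : j l = j l') : l = l' := by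
  rcases lt_trichotomy l l' with h1 | h1 | h1
  · exact absurd e (h.mono _ _ h1 hl').ne
  · exact h1
  · exact absurd e (h.mono _ _ h1 hl).ne'

theorem blocks_sum {s : Finset ℕ} {z : ℕ → ℕ → V Ω} {j : ℕ → ℕ → ℕ} {n lo hi : ℕ → ℕ}
    (hc : ∀ i ∈ s, Code (z i) (j i) (n i)) (hd : Disj s j n lo hi) (β : ℕ → ℝ) :
    ∃ S : Finset ℕ, (∀ x ∈ S, ∃ i ∈ s, lo i ≤ x ∧ x < hi i) ∧
      ∑ i ∈ s, ∑ l ∈ idx (j i) (n i) (lo i) (hi i), β (j i l) = ∑ x ∈ S, β x := by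
  refine ⟨(s.sigma fun i => idx (j i) (n i) (lo i) (hi i)).image fun x => j x.1 x.2, ?_, ?_⟩
  · intro x hx
    obtain ⟨⟨i, l⟩, h, rfl⟩ := mem_image.1 hx
    rw [mem_sigma, mem_idx] at h
    exact ⟨i, h.1, h.2.2⟩
  · rw [sum_image, sum_sigma]
    rintro ⟨i, l⟩ h ⟨i', l'⟩ h' e
    rw [mem_coe, mem_sigma] at h h'
    obtain rfl : i = i' := by
      by_contra hne
      exact hd i h.1 i' h'.1 hne l h.2 l' h'.2 e
    obtain rfl : l = l' := (hc i h.1).inj (mem_idx.1 h.2).1 (mem_idx.1 h'.2).1 e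
    rfl

omit [LinearOrder Ω] [Rho Ω] in
theorem abs_le_one_of_sq {s : Finset ℕ} {c : ℕ → ℝ} (h2 : ∑ i ∈ s, c i ^ 2 ≤ 1) {i : ℕ}
    (hi : i ∈ s) : |c i| ≤ 1 :=
  sq_le_one_iff_abs_le_one _ |>.1 ((single_le_sum (fun i _ => sq_nonneg (c i)) hi).trans h2)

theorem N_spec_le {s : Finset ℕ} {c : ℕ → ℝ} {z : ℕ → ℕ → V Ω} {j : ℕ → ℕ → ℕ} {n lo hi : ℕ → ℕ}
    (hN : ∀ i ∈ s, ∀ l < n i, N (z i l) ≤ 2 * (mm (j i l))⁻¹)
    (hc : ∀ i ∈ s, Code (z i) (j i) (n i)) (hd : Disj s j n lo hi) (h2 : ∑ i ∈ s, c i ^ 2 ≤ 1)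
    {J : ℕ} (hJ : ∀ i ∈ s, J ≤ lo i) :
    N (∑ i ∈ s, c i • seg (z i) (j i) (n i) (lo i) (hi i)) ≤ (1 / 2) ^ J / 4 := by
  obtain ⟨S, hS, e⟩ := blocks_sum hc hd fun x => (1 / 2 : ℝ) ^ x / 8
  have h1 := geo_le S J fun x hx => by
    obtain ⟨i, hi, h, -⟩ := hS x hx
    exact (hJ i hi).trans h
  calc _ ≤ ∑ i ∈ s, ∑ l ∈ idx (j i) (n i) (lo i) (hi i), (1 / 2 : ℝ) ^ (j i l) / 8 := by
        refine (N_sum_le _ _).trans (sum_le_sum fun i hi => ?_)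
        rw [N_smul]
        refine (mul_le_of_le_one_left (N_nonneg _) (abs_le_one_of_sq h2 hi)).trans
          ((N_sum_le _ _).trans (sum_le_sum fun l hl => ?_))
        have := hN i hi l (mem_idx.1 hl).1
        have := inv_mm_le (j i l)
        linarith
    _ ≤ _ := by rw [e, ← sum_div]; linarith

theorem InK.N_le {w : V Ω} (h : InK w) : N w ≤ 1 := by
  induction h with
  | leaf ξ => exact (N_single ξ).le
  | comb s a w _ ha ih =>
    refine (N_sum_le _ _).trans (le_trans (sum_le_sum fun l hl => ?_) ha)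
    rw [N_smul]
    exact mul_le_of_le_one_right (abs_nonneg _) (ih l hl)
  | restr E _ w _ ih => exact (N_res_le E w).trans ih
  | op j w _ hw ih =>
    have h1 := N_opf_le hw (ih 0) j
    have h2 := inv_mm_le j
    have h3 : (1 / 2 : ℝ) ^ j ≤ 1 := pow_le_one₀ (by norm_num) (by norm_num)
    linarith
  | spec s c z j n lo hi ch _ hop hc hd h2 ih =>
    have := N_spec_le (J := 0) (fun i hi l hl => by
      rw [(hop i hi l hl).2]
      exact N_opf_le (hop i hi l hl).1 (ih i hi l hl 0) _) hc hd h2 fun _ _ => Nat.zero_le _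
    linarith

theorem InK.abs_apply_le {w : V Ω} (h : InK w) (ξ : Ω) : |w ξ| ≤ 1 :=
  (abs_apply_le_N w ξ).trans h.N_le

theorem InK.zero : InK (0 : V Ω) := by
  simpa using InK.comb (Ω := Ω) ∅ 0 0 (by simp) (by simp)

theorem InK.neg {w : V Ω} (h : InK w) : InK (-w) := by
  simpa using InK.comb {0} (fun _ => -1) (fun _ => w) (fun _ _ => h) (by simp)

omit [LinearOrder Ω] [Rho Ω] in
theorem IsRat.sum_smul {s : Finset ℕ} {a : ℕ → ℚ} {w : ℕ → V Ω} (h : ∀ l ∈ s, IsRat (w l)) :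
    IsRat (∑ l ∈ s, (a l : ℝ) • w l) := by
  intro ξ
  choose! q hq using fun l hl => h l hl ξ
  refine ⟨∑ l ∈ s, a l * q l, ?_⟩
  rw [Finsupp.finsetSum_apply]
  push_cast
  exact sum_congr rfl fun l hl => by rw [hq l hl, Pi.smul_apply, smul_eq_mul]

theorem InK.isRat {w : V Ω} (h : InK w) : IsRat w := by
  induction h with
  | leaf ξ =>
    intro η
    by_cases e : ξ = η
    · exact ⟨1, by simp [e]⟩
    · exact ⟨0, by simp [e]⟩
  | comb s a w _ _ ih => exact IsRat.sum_smul ih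
  | restr E _ w _ ih =>
    intro ξ
    by_cases e : ξ ∈ E
    · rw [res_pos _ e]
      exact ih ξ
    · exact ⟨0, by simp [res_neg _ e]⟩
  | op j w _ _ ih =>
    have := IsRat.sum_smul (s := range (nn j)) (a := fun _ => (4 ^ (j + 2))⁻¹) fun l _ => ih l
    simpa [opf, mm, smul_sum] using this
  | spec s c z j n lo hi ch _ _ hc _ _ _ =>
    refine IsRat.sum_smul fun i his => ?_
    have := IsRat.sum_smul (s := idx (j i) (n i) (lo i) (hi i)) (a := fun _ => 1)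
      fun l hl => (hc i his).rat l (mem_idx.1 hl).1
    simpa [seg] using this

theorem IsOp.inK {j : ℕ} {z : V Ω} (h : IsOp j z) : InK z := by
  obtain ⟨w, h1, h2, rfl⟩ := h
  exact InK.op j w h1 h2

theorem IsOp.N_le {j : ℕ} {z : V Ω} (h : IsOp j z) : N z ≤ 2 * (mm j)⁻¹ := by
  obtain ⟨w, h1, h2, rfl⟩ := h
  exact N_opf_le h2 (h1 0).N_le j

theorem IsOp.res {j : ℕ} {z : V Ω} (h : IsOp j z) {E : Set Ω} (hE : E.OrdConnected) :
    IsOp j (res E z) := by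
  obtain ⟨w, h1, h2, rfl⟩ := h
  exact ⟨_, fun l => (h1 l).restr E hE _, h2.mono fun l => abs_res_le E _, res_opf E j w⟩

theorem isOp_zero (j : ℕ) : IsOp j (0 : V Ω) :=
  ⟨0, fun _ => InK.zero, ⟨fun l l' _ α hα => by simp at hα, fun l _ => by simp [Chg, N_zero]⟩,
    by simp [opf]⟩

theorem InK.spec' {s : Finset ℕ} (c : ℕ → ℚ) {z : ℕ → ℕ → V Ω} {j : ℕ → ℕ → ℕ} {n lo hi : ℕ → ℕ}
    (hs : ∀ i ∈ s, Sp (z i) (j i) (n i)) (hd : Disj s j n lo hi)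
    (h2 : ∑ i ∈ s, (c i : ℝ) ^ 2 ≤ 1) :
    InK (∑ i ∈ s, (c i : ℝ) • seg (z i) (j i) (n i) (lo i) (hi i)) := by
  choose! ch h1 h3 h4 using fun i hi l hl => (hs i hi).2 l hl
  exact InK.spec s c z j n lo hi ch h1 (fun i hi l hl => ⟨h3 i hi l hl, h4 i hi l hl⟩)
    (fun i hi => (hs i hi).1) hd h2

/-- The norm. -/
noncomputable def nm (y : V Ω) : ℝ := sSup {r | ∃ w, InK w ∧ pr w y = r}

theorem pr_le_nm {w : V Ω} (h : InK w) (y : V Ω) : pr w y ≤ nm y := by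
  refine le_csSup ⟨N y, ?_⟩ ⟨w, h, rfl⟩
  rintro _ ⟨w, h, rfl⟩
  exact ((le_abs_self _).trans (abs_pr_le_N w y)).trans (mul_le_of_le_one_left (N_nonneg _) h.N_le)

theorem abs_pr_le_nm {w : V Ω} (h : InK w) (y : V Ω) : |pr w y| ≤ nm y :=
  abs_le'.2 ⟨pr_le_nm h y, by simpa using pr_le_nm h.neg y⟩

theorem nm_le {y : V Ω} {c : ℝ} (h : ∀ w, InK w → pr w y ≤ c) : nm y ≤ c :=
  csSup_le ⟨_, 0, InK.zero, rfl⟩ (by rintro _ ⟨w, hw, rfl⟩; exact h w hw)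

theorem exists_K {y : V Ω} {c : ℝ} (h : c < nm y) : ∃ w, InK w ∧ c < pr w y := by
  by_contra! hc
  exact (nm_le hc).not_gt h

theorem nm_nonneg (y : V Ω) : 0 ≤ nm y := (abs_nonneg _).trans (abs_pr_le_nm InK.zero y)

theorem nm_zero : nm (0 : V Ω) = 0 := le_antisymm (nm_le fun w _ => by simp) (nm_nonneg _)

theorem nm_add_le (x y : V Ω) : nm (x + y) ≤ nm x + nm y :=
  nm_le fun w hw => by rw [map_add]; exact add_le_add (pr_le_nm hw x) (pr_le_nm hw y)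

theorem nm_smul_le (c : ℝ) (y : V Ω) : nm (c • y) ≤ |c| * nm y :=
  nm_le fun w hw => by
    rw [map_smul, smul_eq_mul]
    refine (le_abs_self _).trans ?_
    rw [abs_mul]
    exact mul_le_mul_of_nonneg_left (abs_pr_le_nm hw y) (abs_nonneg _)

theorem nm_smul (c : ℝ) (y : V Ω) : nm (c • y) = |c| * nm y := by
  refine le_antisymm (nm_smul_le c y) ?_
  rcases eq_or_ne c 0 with rfl | hc
  · simp [nm_nonneg]
  have := nm_smul_le c⁻¹ (c • y)
  rwa [smul_smul, inv_mul_cancel₀ hc, one_smul, abs_inv, le_inv_mul_iff₀ (abs_pos.2 hc)] at this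

theorem nm_neg (y : V Ω) : nm (-y) = nm y := by simpa using nm_smul (-1) y

theorem nm_sub_le (x y : V Ω) : nm (x - y) ≤ nm x + nm y := by
  simpa [sub_eq_add_neg, nm_neg] using nm_add_le x (-y)

theorem nm_sum_le {ι : Type*} (s : Finset ι) (y : ι → V Ω) :
    nm (∑ i ∈ s, y i) ≤ ∑ i ∈ s, nm (y i) :=
  le_sum_of_subadditive nm nm_zero.le nm_add_le s y

theorem nm_res_le {E : Set Ω} (hE : E.OrdConnected) (y : V Ω) : nm (res E y) ≤ nm y :=
  nm_le fun w hw => by rw [← pr_res]; exact pr_le_nm (hw.restr E hE w) y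

theorem abs_apply_le_nm (y : V Ω) (ξ : Ω) : |y ξ| ≤ nm y := by
  simpa [pr_single] using abs_pr_le_nm (InK.leaf ξ) y

theorem nm_pos {y : V Ω} (h : y ≠ 0) : 0 < nm y := by
  obtain ⟨ξ, hξ⟩ := Finsupp.ne_iff.1 h
  exact (abs_pos.2 hξ).trans_le (abs_apply_le_nm y ξ)

theorem nm_single_le (ξ : Ω) : nm (Finsupp.single ξ (1 : ℝ)) ≤ 1 :=
  nm_le fun w hw => by
    rw [pr_comm, pr_single, one_mul]
    exact (le_abs_self _).trans (hw.abs_apply_le ξ)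

omit [LinearOrder Ω] [Rho Ω] in
theorem sq_sum_le_of_rat {s : Finset ℕ} {x : ℕ → ℝ} {B : ℝ} (hB : 0 ≤ B)
    (h : ∀ c : ℕ → ℚ, ∑ i ∈ s, (c i : ℝ) ^ 2 ≤ 1 → ∑ i ∈ s, c i * x i ≤ B) :
    ∑ i ∈ s, x i ^ 2 ≤ B ^ 2 := by
  set σ := √(∑ i ∈ s, x i ^ 2) with hσ
  have hσ2 : σ ^ 2 = ∑ i ∈ s, x i ^ 2 := Real.sq_sqrt (sum_nonneg fun _ _ => sq_nonneg _)
  rw [← hσ2]
  refine pow_le_pow_left₀ (Real.sqrt_nonneg _) ?_ 2
  by_contra! hlt
  have hσ0 : 0 < σ := hB.trans_lt hlt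
  set t := (B / σ + 1) / 2 with ht
  have ht1 : t < 1 := by
    have := (div_lt_one hσ0).2 hlt
    linarith
  have ht0 : 0 < t := by positivity
  let U : Set (ℕ → ℝ) := {c | ∑ i ∈ s, c i ^ 2 < 1} ∩ {c | B < ∑ i ∈ s, c i * x i}
  have hU : IsOpen U :=
    (isOpen_lt (by fun_prop) continuous_const).inter (isOpen_lt continuous_const (by fun_prop))
  have hne : U.Nonempty := by
    refine ⟨fun i => t / σ * x i, ?_, ?_⟩
    · simp only [Set.mem_ofPred_eq, mul_pow, ← mul_sum, ← hσ2]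
      rw [div_pow, div_mul_cancel₀ _ (by positivity)]
      exact pow_lt_one₀ ht0.le ht1 two_ne_zero
    · simp only [Set.mem_ofPred_eq, mul_assoc, ← mul_sum, ← pow_two, ← hσ2]
      have : t / σ * σ ^ 2 = (B + σ) / 2 := by rw [ht]; field_simp
      linarith
  obtain ⟨c, hc1, hc2⟩ := (DenseRange.piMap fun _ : ℕ => Rat.denseRange_cast (𝕜 := ℝ)).exists_mem_open
    hU hne
  exact (h c (le_of_lt hc1)).not_gt hc2

/-- The `ℓ²` estimate for weight-disjoint segments. -/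
theorem l2_seg {s : Finset ℕ} {z : ℕ → ℕ → V Ω} {j : ℕ → ℕ → ℕ} {n lo hi : ℕ → ℕ}
    (hs : ∀ i ∈ s, Sp (z i) (j i) (n i)) (hd : Disj s j n lo hi) (y : V Ω) :
    ∑ i ∈ s, pr (seg (z i) (j i) (n i) (lo i) (hi i)) y ^ 2 ≤ nm y ^ 2 :=
  sq_sum_le_of_rat (nm_nonneg y) fun c hc => by
    simpa using pr_le_nm (InK.spec' c hs hd hc) y

theorem Sp.seg_inK {z : ℕ → V Ω} {j : ℕ → ℕ} {n : ℕ} (h : Sp z j n) (lo hi : ℕ) :
    InK (seg z j n lo hi) := by
  simpa using InK.spec' (s := {0}) (fun _ => 1) (z := fun _ => z) (j := fun _ => j)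
    (n := fun _ => n) (lo := fun _ => lo) (hi := fun _ => hi) (fun _ _ => h)
    (fun i hi i' hi' h => absurd ((mem_singleton.1 hi).trans (mem_singleton.1 hi').symm) h)
    (by simp)

theorem Sp.mono {z : ℕ → V Ω} {j : ℕ → ℕ} {n n' : ℕ} (h : Sp z j n) (hn : n' ≤ n) : Sp z j n' :=
  ⟨⟨fun l hl => h.1.rat l (hl.trans_le hn), fun l l' h1 h2 => h.1.succ l l' h1 (h2.trans_le hn),
    fun l l' h1 h2 => h.1.mono l l' h1 (h2.trans_le hn), fun l hl => h.1.code l (hl.trans_le hn)⟩,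
    fun l hl => h.2 l (hl.trans_le hn)⟩

theorem Code.le {z : ℕ → V Ω} {j : ℕ → ℕ} {n : ℕ} (h : Code z j n) {l : ℕ} (hl : l < n) :
    l ≤ j l := by
  induction l with
  | zero => exact Nat.zero_le _
  | succ l ih => exact (ih (by omega)).trans_lt (h.mono l (l + 1) (by omega) hl)

theorem Code.seg_stable {z : ℕ → V Ω} {j : ℕ → ℕ} {n : ℕ} (h : Code z j n) {lo hi : ℕ}
    (hn : hi ≤ n) : seg z j n lo hi = seg z j hi lo hi := by
  unfold seg
  congr 1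
  ext l
  simp only [mem_idx]
  exact ⟨fun h1 => ⟨(h.le h1.1).trans_lt h1.2.2, h1.2⟩, fun h1 => ⟨h1.1.trans_le hn, h1.2⟩⟩

end Vale.Agent.P129.CH
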