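import Vale.Agent.P129.CH.Ineq

/-! Every block subspace contains exact pairs of every weight. -/

open Finset Filter Topology

namespace Vale.Agent.P129.CH

variable {Ω : Type}

theorem exists_sel {ι : Type} [Nonempty ι] (F : Filter ι) [F.NeBot] {G : ι → ι → ι → ι → Prop}
    (hG : ∀ x0, ∀ᶠ x1 in F, ∀ᶠ x2 in F, ∀ᶠ x3 in F, G x0 x1 x2 x3) {R : ι → ι → Prop}
    (hR : ∀ x, ∀ᶠ y in F, R x y) {P : ι → Prop} (hP : ∀ᶠ x in F, P x) {f : ι → V Ω}
    (hf : ∀ t > 0, ∀ᶠ x in F, N (f x) ≤ t) : ∃ s : ℕ → ι, (∀ l, P (s l)) ∧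
      (∀ i l, i < l → R (s i) (s l)) ∧
      (∀ a b c d, a < b → b < c → c < d → G (s a) (s b) (s c) (s d)) ∧
      ∀ l, Chg (fun i => f (s i)) l := by
  obtain ⟨s, hs⟩ := exists_rec (α := ℕ) (D := ι)
    (fun l s d => (P d ∧ ChgV (fun i => f (s i)) l (f d)) ∧
      (∀ a ∈ range l, R (s a) d ∧ ∀ᶠ x2 in F, ∀ᶠ x3 in F, G (s a) d x2 x3) ∧
      (∀ b ∈ range l, ∀ a ∈ range b, ∀ᶠ x3 in F, G (s a) (s b) d x3) ∧
      ∀ c ∈ range l, ∀ b ∈ range c, ∀ a ∈ range b, G (s a) (s b) (s c) d)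
    (fun l s s' d e h => by
      simp only [mem_range] at h ⊢
      refine ⟨⟨h.1.1, h.1.2.congr fun i hi => by rw [e i hi]⟩, fun a ha => e a ha ▸ h.2.1 a ha,
        fun b hb a ha => ?_, fun c hc b hb a ha => ?_⟩
      · rw [← e a (by omega), ← e b hb]
        exact h.2.2.1 b hb a ha
      · rw [← e a (by omega), ← e b (by omega), ← e c hc]
        exact h.2.2.2 c hc b hb a ha)
    fun l s ih => by
      obtain ⟨t, ht, h1⟩ := exists_chg (fun i => f (s i)) l
      refine ((hP.and ((hf t ht).mono fun x => h1 _)).and (Eventually.and ?_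
        (Eventually.and ?_ ?_))).exists
      · exact (eventually_all_finset _).2 fun a _ => (hR _).and (hG _)
      · exact (eventually_all_finset _).2 fun b hb => (eventually_all_finset _).2 fun a ha =>
          ((ih b (mem_range.1 hb)).2.1 a ha).2
      · exact (eventually_all_finset _).2 fun c hc => (eventually_all_finset _).2 fun b hb =>
          (eventually_all_finset _).2 fun a ha => (ih c (mem_range.1 hc)).2.2.1 b hb a ha
  exact ⟨s, fun l => (hs l).1.1, fun i l h => ((hs l).2.1 i (mem_range.2 h)).1,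
    fun a b c d h1 h2 h3 => (hs d).2.2.2 c (mem_range.2 h3) b (mem_range.2 h2) a (mem_range.2 h1),
    fun l => (hs l).1.2⟩

variable [LinearOrder Ω] [Rho Ω]

theorem Sp.spD {z : ℕ → V Ω} {j : ℕ → ℕ} {n : ℕ} (h : Sp z j n) (lo hi : ℕ) :
    SpD {0} (fun _ => 1) (fun _ => z) (fun _ => j) (fun _ => n) (fun _ => lo) (fun _ => hi) :=
  ⟨fun _ _ => h,
    fun i hi i' hi' h => absurd ((mem_singleton.1 hi).trans (mem_singleton.1 hi').symm) h, by simp⟩

omit [LinearOrder Ω] [Rho Ω] in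
theorem spc_single (z : ℕ → V Ω) (j : ℕ → ℕ) (n lo hi : ℕ) :
    spc {0} (fun _ => 1) (fun _ => z) (fun _ => j) (fun _ => n) (fun _ => lo) (fun _ => hi) =
      seg z j n lo hi := by simp [spc]

theorem Unspl.half_sub {u u' : V Ω} {M : ℕ} (h : Unspl u M) (h' : Unspl u' M) :
    Unspl ((1 / 2 : ℝ) • (u - u')) M := by
  intro w h1 h2
  have := h w h1 h2
  have := h' w h1 h2
  calc _ ≤ ∑ l ∈ range M, 1 / 2 * (|pr (w l) u| + |pr (w l) u'|) := by
        refine sum_le_sum fun l _ => ?_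
        rw [map_smul, map_sub, smul_eq_mul, abs_mul, abs_of_pos one_half_pos]
        gcongr
        exact abs_sub _ _
    _ ≤ _ := by rw [← mul_sum, sum_add_distrib]; linarith

variable {g : ℕ → V Ω}

theorem exact_pair (hg : Succ g) (h0 : ∀ n, g n ≠ 0) (j1 a : ℕ) :
    ∃ C : Col g, a ≤ C.a ∧ IsOp (j1 + 1) C.w ∧ 1 ≤ pr C.w C.v ∧ nm C.v ≤ 192 := by
  choose C hC hCa hCN using fun r : ℕ =>
    exists_unspl hg h0 (nn r) r (t := 1 / (r + 1)) (by positivity)
  have hen : ∀ r, ∃ e, r ≤ e ∧ N (C r).v * mm r ≤ 2 ^ e := fun r => by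
    obtain ⟨e, he⟩ := pow_unbounded_of_one_lt (N (C r).v * mm r) one_lt_two
    exact ⟨max r e, le_max_left _ _,
      he.le.trans (pow_le_pow_right₀ one_le_two (le_max_right _ _))⟩
  choose en hen1 hen2 using hen
  let H : Ultrafilter ℕ := hyperfilter ℕ
  have hH : ∀ n, ∀ᶠ r : ℕ in H, n ≤ r := fun n => Nat.hyperfilter_le_atTop (eventually_ge_atTop n)
  let U : Ultrafilter (ℕ × ℕ) := H.bind fun r => H.map (Prod.mk r)
  have hU : ∀ {P : ℕ × ℕ → Prop}, (∀ᶠ r : ℕ in H, ∀ᶠ r' : ℕ in H, P (r, r')) → ∀ᶠ x : ℕ × ℕ in U, P x :=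
    fun h => eventually_bind.2 h
  let D : ℕ × ℕ → Col g := fun x =>
    ⟨min (C x.1).a (C x.2).a, max (C x.1).b (C x.2).b, (1 / 2 : ℝ) • ((C x.1).v - (C x.2).v),
      (C x.1).w, Submodule.smul_mem _ _ (sub_mem
        (Z_mono g (min_le_left _ _) (le_max_left _ _) (C x.1).hv)
        (Z_mono g (min_le_right _ _) (le_max_right _ _) (C x.2).hv)),
      fun ξ hξ => Rg_mono g (min_le_left _ _) (le_max_left _ _) ((C x.1).hw ξ hξ), (C x.1).hK,
      ((min_le_left _ _).trans (C x.1).hab).trans (le_max_left _ _)⟩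
  have d1 : ∀ n, ∀ᶠ x : ℕ × ℕ in U, n ≤ (D x).a := fun n =>
    hU ((hH n).mono fun r hr => (hH n).mono fun r' hr' =>
      le_min (hr.trans (hCa r)) (hr'.trans (hCa r')))
  have d2 : ∀ x, nm (D x).v ≤ 1 := fun x => by
    have := nm_sub_le (C x.1).v (C x.2).v
    have := (hC x.1).1
    have := (hC x.2).1
    simp only [D, nm_smul, abs_of_pos (one_half_pos (α := ℝ))]
    linarith
  have d3 : ∀ n, ∀ᶠ x : ℕ × ℕ in U, n ≤ x.1 := fun n =>
    hU ((hH n).mono fun r hr => Eventually.of_forall fun _ => hr)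
  have d4 : ∀ ε > 0, ∀ z j, (∀ n, Sp z j n) →
      ∀ᶠ x : ℕ × ℕ in U, |pr (seg z j (en x.2) x.1 (en x.2)) (D x).v| < ε := by
    intro ε hε z j hz
    obtain ⟨lam, -, hl⟩ := (isCompact_Icc (a := (-1 : ℝ)) (b := 1)).ultrafilter_le_nhds
      (H.map fun r => pr (seg z j (en r) r (en r)) (C r).v) (by
        rw [le_principal_iff, Ultrafilter.coe_map, Filter.mem_map]
        exact univ_mem' fun r => abs_le.1 ((abs_pr_le_nm ((hz _).seg_inK _ _) _).trans (hC r).1))
    have h1 : ∀ᶠ r : ℕ in H, |pr (seg z j (en r) r (en r)) (C r).v - lam| < ε / 4 :=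
      Metric.tendsto_nhds.1 hl _ (by positivity)
    obtain ⟨k, hk⟩ := exists_nat_gt (5 / ε)
    refine hU ?_
    filter_upwards [h1, hH k] with r a1 a2
    filter_upwards [h1, hH (en r)] with r' b1 b2
    have c0 := hen1 r
    have c1 := hen1 r'
    have c2 := high_le (hen2 r) (((hz (en r')).spD (en r) (en r')).N_le fun _ _ => le_rfl)
    have c3 := (hC r').2.2.low ((hz (en r')).spD r r') fun _ _ => ⟨le_rfl, le_rfl⟩
    rw [spc_single] at c2 c3
    have c4 := seg_split z j (en r') r (en r') (en r)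
    have c5 := seg_split z j (en r') r (en r') r'
    rw [min_eq_right (by omega), max_eq_right (by omega)] at c4 c5
    rw [(hz (en r')).1.seg_stable (hi := en r) (by omega)] at c4
    have c6 : 5 * (mm r)⁻¹ < ε := by
      have := le_mm r
      have : (k : ℝ) ≤ r := by exact_mod_cast a2
      rw [← div_eq_mul_inv, div_lt_comm₀ (mm_pos r) hε]
      linarith
    have c7 := congrArg (fun w => pr w (C r).v) c4
    have c8 := congrArg (fun w => pr w (C r').v) c5
    simp only [map_add, LinearMap.add_apply] at c7 c8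
    simp only [D, map_smul, map_sub, smul_eq_mul, c7, c8]
    rw [abs_lt] at a1 b1 ⊢
    rw [abs_le] at c2 c3
    constructor <;> linarith
  obtain ⟨s, s1, s2, s3, s4⟩ := exists_sel (F := U) (f := fun x => (D x).w)
    (fun x0 => no_triple U (st := Prod.fst) (en := fun x => en x.2) d2
      (tendsto_atTop.2 d3) (fun x => (d1 (D x).b).mono fun y hy α hα β hβ =>
        Rg_lt hg hy (mem_Rg (D x).hv α hα) (mem_Rg (D y).hv β hβ))
      (acc_pos (j1 + 1) (en x0.2)) (d4 _ (acc_pos _ _)))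
    (fun x => (d1 (D x).b).and (d3 (en x.2)))
    (P := fun x => (a ≤ (D x).a ∧ j1 + 1 ≤ x.1) ∧ (C x.1).b ≤ (C x.2).a ∧ en x.1 ≤ x.2)
    (((d1 a).and (d3 _)).and (hU (Eventually.of_forall fun r =>
      ((hH (C r).b).mono fun r' h => h.trans (hCa r')).and (hH (en r)))))
    (fun t ht => by
      obtain ⟨k, hk⟩ := exists_nat_one_div_lt ht
      exact (d3 k).mono fun x hx => (hCN x.1).trans (le_trans (by gcongr) hk.le))
  have ho : Ord fun l => D (s l) := fun i l h => (s2 i l h).1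
  have hris : RIS (j1 + 1) (fun l => (D (s l)).v) (fun l => (s l).1) fun l => en (s l).2 := by
    refine ⟨ho.succ_v hg, fun k => d2 _, fun k => (hC _).2.2.half_sub ((hC _).2.2.mono
      (nn_strictMono.monotone ((hen1 _).trans (s1 k).2.2))), fun k => ?_, fun k => (s1 k).1.2,
      fun k k' h => (s2 k k' h).2, s3⟩
    have a1 := (hen2 (s k).1).trans (pow_le_pow_right₀ one_le_two ((s1 k).2.2.trans (hen1 _)))
    have a2 := (mul_le_mul_of_nonneg_left (mm_mono ((hen1 _).trans (s1 k).2.2))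
      (N_nonneg _)).trans (hen2 (s k).2)
    have a3 := N_add_le (C (s k).1).v ((-1 : ℝ) • (C (s k).2).v)
    rw [N_smul, abs_neg, abs_one, one_mul, neg_one_smul, ← sub_eq_add_neg] at a3
    have a4 := mul_le_mul_of_nonneg_right a3 (mm_pos (s k).1).le
    simp only [D, N_smul, abs_of_pos (one_half_pos (α := ℝ))]
    linarith
  have hop : IsOp (j1 + 1) (opf (j1 + 1) fun l => (D (s l)).w) :=
    ⟨_, fun l => (D (s l)).hK, ⟨ho.succ_w hg, fun l _ => s4 l⟩, rfl⟩
  have hN : (0 : ℝ) < nn (j1 + 1) := by exact_mod_cast (nn_ge _).trans_lt' (by norm_num)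
  have hm := mm_pos (j1 + 1)
  refine ⟨⟨(D (s 0)).a, (D (s (nn (j1 + 1)))).a,
    (8 * mm (j1 + 1) / nn (j1 + 1)) • ∑ k ∈ range (nn (j1 + 1)), (D (s k)).v, _,
    Submodule.smul_mem _ _ (by simpa only [zero_add] using ho.sum_mem 0 (nn (j1 + 1))),
    support_opf_subset fun l hl ξ hξ => Rg_mono g (ho.a_mono (Nat.zero_le l)) (ho _ _ hl)
      ((D (s l)).hw ξ hξ), hop.inK, ho.a_mono (Nat.zero_le _)⟩, (s1 0).1.1, hop, ?_, ?_⟩
  · have a1 := card_nsmul_le_sum (range (nn (j1 + 1)))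
      (fun l => pr (D (s l)).w (∑ k ∈ range (nn (j1 + 1)), (D (s k)).v)) (1 / 8) fun l hl => by
        rw [ho.pr_sum hg, if_pos hl]
        have a2 : pr (C (s l).1).w (C (s l).2).v = 0 := pr_eq_zero fun ξ h1 h2 =>
          (Rg_lt hg (s1 l).2.1 ((C _).hw ξ h1) (mem_Rg (C _).hv ξ h2)).false
        have := (hC (s l).1).2.1
        simp only [D, map_smul, map_sub, smul_eq_mul, a2]
        linarith
    rw [card_range, nsmul_eq_mul] at a1
    simp only [map_smul, pr_opf, smul_eq_mul]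
    calc (1 : ℝ) = 8 * mm (j1 + 1) / nn (j1 + 1) * ((mm (j1 + 1))⁻¹ * (nn (j1 + 1) * (1 / 8))) := by
          field_simp
      _ ≤ _ := by gcongr
  · simp only [nm_smul]
    rw [abs_of_pos (by positivity)]
    calc _ ≤ 8 * mm (j1 + 1) / nn (j1 + 1) * (24 * nn (j1 + 1) / mm (j1 + 1)) := by
          gcongr
          exact hris.basic
      _ = _ := by field_simp; norm_num

end Vale.Agent.P129.CH
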