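import Vale.Agent.P129.CH.Blocks

/-! Special combinations, the induction principle, and unsplittable vectors. -/

open Finset Filter Topology

namespace Vale.Agent.P129.CH

variable {Ω : Type}

theorem seg_split (z : ℕ → V Ω) (j : ℕ → ℕ) (n lo hi J : ℕ) :
    seg z j n lo hi = seg z j n lo (min hi J) + seg z j n (max lo J) hi := by
  unfold seg
  rw [← sum_union]
  · congr 1
    ext l
    simp only [mem_union, mem_idx]
    omega
  · rw [disjoint_left]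
    intro l
    simp only [mem_idx]
    omega

theorem idx_mono {j : ℕ → ℕ} {n lo hi lo' hi' : ℕ} (h1 : lo ≤ lo') (h2 : hi' ≤ hi) :
    idx j n lo' hi' ⊆ idx j n lo hi := fun l => by
  simp only [mem_idx]
  omega

theorem Disj.mono {s : Finset ℕ} {j : ℕ → ℕ → ℕ} {n lo hi lo' hi' : ℕ → ℕ} (h : Disj s j n lo hi)
    (h1 : ∀ i, lo i ≤ lo' i) (h2 : ∀ i, hi' i ≤ hi i) : Disj s j n lo' hi' :=
  fun i hi i' hi' hne l hl l' hl' =>
    h i hi i' hi' hne l (idx_mono (h1 i) (h2 i) hl) l' (idx_mono (h1 i') (h2 i') hl')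

/-- Special combinations. -/
noncomputable def spc (s : Finset ℕ) (c : ℕ → ℚ) (z : ℕ → ℕ → V Ω) (j : ℕ → ℕ → ℕ)
    (n lo hi : ℕ → ℕ) : V Ω := ∑ i ∈ s, (c i : ℝ) • seg (z i) (j i) (n i) (lo i) (hi i)

theorem spc_split (s : Finset ℕ) (c : ℕ → ℚ) (z : ℕ → ℕ → V Ω) (j : ℕ → ℕ → ℕ)
    (n lo hi : ℕ → ℕ) (J : ℕ) : spc s c z j n lo hi =
      spc s c z j n lo (fun i => min (hi i) J) + spc s c z j n (fun i => max (lo i) J) hi := by
  unfold spc
  rw [← sum_add_distrib]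
  exact sum_congr rfl fun i _ => by rw [seg_split _ _ _ _ _ J, smul_add]

theorem pr_spc (s : Finset ℕ) (c : ℕ → ℚ) (z : ℕ → ℕ → V Ω) (j : ℕ → ℕ → ℕ)
    (n lo hi : ℕ → ℕ) (y : V Ω) : pr (spc s c z j n lo hi) y =
      ∑ i ∈ s, c i * pr (seg (z i) (j i) (n i) (lo i) (hi i)) y := by
  simp [spc]

variable [LinearOrder Ω] [Rho Ω]

/-- Admissible data for a special combination. -/
structure SpD (s : Finset ℕ) (c : ℕ → ℚ) (z : ℕ → ℕ → V Ω) (j : ℕ → ℕ → ℕ)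
    (n lo hi : ℕ → ℕ) : Prop where
  sp : ∀ i ∈ s, Sp (z i) (j i) (n i)
  disj : Disj s j n lo hi
  sq : ∑ i ∈ s, (c i : ℝ) ^ 2 ≤ 1

section
variable {s : Finset ℕ} {c : ℕ → ℚ} {z : ℕ → ℕ → V Ω} {j : ℕ → ℕ → ℕ} {n lo hi : ℕ → ℕ}

theorem SpD.mono (h : SpD s c z j n lo hi) {lo' hi' : ℕ → ℕ} (h1 : ∀ i, lo i ≤ lo' i)
    (h2 : ∀ i, hi' i ≤ hi i) : SpD s c z j n lo' hi' := ⟨h.sp, h.disj.mono h1 h2, h.sq⟩

theorem SpD.left (h : SpD s c z j n lo hi) (J : ℕ) : SpD s c z j n lo fun i => min (hi i) J :=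
  h.mono (fun _ => le_rfl) fun _ => min_le_left _ _

theorem SpD.right (h : SpD s c z j n lo hi) (J : ℕ) : SpD s c z j n (fun i => max (lo i) J) hi :=
  h.mono (fun _ => le_max_left _ _) fun _ => le_rfl

theorem SpD.inK (h : SpD s c z j n lo hi) : InK (spc s c z j n lo hi) :=
  InK.spec' c h.sp h.disj h.sq

theorem SpD.N_le (h : SpD s c z j n lo hi) {J : ℕ} (hJ : ∀ i ∈ s, J ≤ lo i) :
    N (spc s c z j n lo hi) ≤ (1 / 2) ^ J / 4 :=
  N_spec_le (fun i hi l hl => ((h.sp i hi).2 l hl).N_le) (fun i hi => (h.sp i hi).1) h.disj h.sq hJ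

theorem SpD.abs_le (h : SpD s c z j n lo hi) {y : V Ω} (β : ℕ → ℝ)
    (hβ : ∀ i ∈ s, ∀ l ∈ idx (j i) (n i) (lo i) (hi i), |pr (z i l) y| ≤ β (j i l)) {B : ℝ}
    (hB : ∀ S : Finset ℕ, (∀ x ∈ S, ∃ i ∈ s, lo i ≤ x ∧ x < hi i) → ∑ x ∈ S, β x ≤ B) :
    |pr (spc s c z j n lo hi) y| ≤ B := by
  obtain ⟨S, hS, e⟩ := blocks_sum (fun i hi => (h.sp i hi).1) h.disj β
  refine le_trans ?_ (e ▸ hB S hS)
  rw [pr_spc]
  refine (abs_sum_le_sum_abs _ _).trans (sum_le_sum fun i hi => ?_)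
  rw [abs_mul]
  refine (mul_le_of_le_one_left (abs_nonneg _) (abs_le_one_of_sq h.sq hi)).trans ?_
  rw [seg, map_sum, LinearMap.sum_apply]
  exact (abs_sum_le_sum_abs _ _).trans (sum_le_sum (hβ i hi))

end

theorem InK.bound {κ : Type} (y : κ → V Ω) (B : κ → ℝ) (leaf : ∀ x ξ, |y x ξ| ≤ B x)
    (hB : ∀ x, 0 ≤ B x)
    (op : ∀ (j : ℕ) (w : ℕ → V Ω), (∀ l, InK (w l)) → (∀ l x, |pr (w l) (y x)| ≤ B x) → OpOK w →
      ∀ x, |pr (opf j w) (y x)| ≤ B x)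
    (spec : ∀ (E : Set Ω) s c z j n lo hi, E.OrdConnected → SpD s c z j n lo hi →
      (∀ i ∈ s, ∀ l < n i, ∃ ch : ℕ → V Ω, (∀ t x, |pr (ch t) (y x)| ≤ B x) ∧ OpOK ch ∧
        z i l = opf (j i l) ch) → ∀ x, |pr (res E (spc s c z j n lo hi)) (y x)| ≤ B x)
    {w : V Ω} (hw : InK w) (x : κ) : |pr w (y x)| ≤ B x := by
  suffices h : ∀ E : Set Ω, E.OrdConnected → ∀ x, |pr (res E w) (y x)| ≤ B x by
    simpa [res_univ] using h _ Set.ordConnected_univ x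
  induction hw with
  | leaf ξ =>
    intro E _ x
    rw [pr_res, pr_single, one_mul]
    exact (abs_res_le E _ ξ).trans (leaf x ξ)
  | comb s a w _ ha ih =>
    intro E hE x
    simp only [map_sum, map_smul, LinearMap.sum_apply, LinearMap.smul_apply, smul_eq_mul]
    refine (abs_sum_le_sum_abs _ _).trans (le_trans (sum_le_sum fun l hl => ?_)
      ((sum_mul s (fun l => |(a l : ℝ)|) (B x)).ge.trans (mul_le_of_le_one_left (hB x) ha)))
    rw [abs_mul]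
    exact mul_le_mul_of_nonneg_left (ih l hl E hE x) (abs_nonneg _)
  | restr E' hE' w _ ih =>
    intro E hE x
    rw [res_res]
    exact ih _ (hE.inter hE') x
  | op j w hK hw ih =>
    intro E hE x
    rw [res_opf]
    exact op j _ (fun l => (hK l).restr E hE _) (fun l => ih l E hE)
      (hw.mono fun l => abs_res_le E _) x
  | spec s c z j n lo hi ch hK hop hc hd h2 ih =>
    intro E hE x
    refine spec E s c z j n lo hi hE ⟨fun i hi => ⟨hc i hi, fun l hl =>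
      ⟨_, hK i hi l hl, hop i hi l hl⟩⟩, hd, h2⟩ (fun i hi l hl => ⟨_, fun t x => ?_,
        hop i hi l hl⟩) x
    simpa [res_univ] using ih i hi l hl t _ Set.ordConnected_univ x

/-- Vectors that cannot be split efficiently. -/
def Unspl (u : V Ω) (M : ℕ) : Prop :=
  ∀ w : ℕ → V Ω, (∀ l, InK (w l)) → Succ w → ∑ l ∈ range M, |pr (w l) u| ≤ 2

theorem Unspl.mono {u : V Ω} {M M' : ℕ} (h : Unspl u M) (hM : M' ≤ M) : Unspl u M' :=
  fun w h1 h2 => (sum_le_sum_of_subset_of_nonneg (range_subset_range.2 hM)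
    fun _ _ _ => abs_nonneg _).trans (h w h1 h2)

theorem Unspl.op {u : V Ω} {J : ℕ} (h : Unspl u (nn J)) {j : ℕ} (hj : j ≤ J) {z : V Ω}
    (hz : IsOp j z) : |pr z u| ≤ 2 * (mm j)⁻¹ := by
  obtain ⟨w, h1, h2, rfl⟩ := hz
  rw [pr_opf, abs_mul, abs_of_pos (inv_pos.2 (mm_pos j)), mul_comm]
  gcongr
  · exact (inv_pos.2 (mm_pos j)).le
  exact (abs_sum_le_sum_abs _ _).trans (h.mono (nn_strictMono.monotone hj) w h1 h2.1)

theorem Unspl.low {u : V Ω} {st : ℕ} (h : Unspl u (nn st)) {s : Finset ℕ} {c : ℕ → ℚ}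
    {z : ℕ → ℕ → V Ω} {j : ℕ → ℕ → ℕ} {n lo hi : ℕ → ℕ} (hs : SpD s c z j n lo hi) {J : ℕ}
    (hJ : ∀ i ∈ s, J ≤ lo i ∧ hi i ≤ st) : |pr (spc s c z j n lo hi) u| ≤ 4 * (mm J)⁻¹ := by
  refine hs.abs_le (fun x => 2 * (mm x)⁻¹) (fun i hi l hl => h.op
    ((mem_idx.1 hl).2.2.le.trans (hJ i hi).2) ((hs.sp i hi).2 l (mem_idx.1 hl).1)) fun S hS => ?_
  have := geo_mm (S := S) (J := J) fun x hx => by
    obtain ⟨i, hi, h1, -⟩ := hS x hx
    exact (hJ i hi).1.trans h1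
  rw [← mul_sum]
  linarith

omit [LinearOrder Ω] [Rho Ω] in
theorem high_le {u w : V Ω} {st en : ℕ} (h : N u * mm st ≤ 2 ^ en) (hw : N w ≤ (1 / 2) ^ en / 4) :
    |pr w u| ≤ (mm st)⁻¹ := by
  have h1 := mm_pos st
  refine (abs_pr_le_N w u).trans ?_
  rw [← le_div_iff₀ h1] at h
  calc _ ≤ (1 / 2) ^ en / 4 * (2 ^ en / mm st) := by
        gcongr
        exact N_nonneg _
    _ = (mm st)⁻¹ / 4 := by rw [one_div, inv_pow]; field_simp
    _ ≤ _ := by have := inv_pos.2 h1; linarith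

/-- The columns met by a functional. -/
noncomputable def mts (w : V Ω) (y : ℕ → V Ω) (I : Finset ℕ) : Finset ℕ :=
  I.filter fun k => ∃ ξ ∈ w.support, ξ ∈ (y k).support

omit [Rho Ω] in
theorem mts_subset (w : V Ω) (y : ℕ → V Ω) (I : Finset ℕ) : mts w y I ⊆ I := filter_subset _ _

omit [Rho Ω] in
theorem sum_meets_le {w y : ℕ → V Ω} (hw : Succ w) (hy : Succ y) (I : Finset ℕ) (M : ℕ) :
    ∑ l ∈ range M, ((mts (w l) y I).card : ℝ) ≤ I.card + M := by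
  have := sum_card_le (J := fun l => mts (w l) y I)
    (fun l l' hl k hk k' hk' => by
      obtain ⟨ξ, h1, h2⟩ := (mem_filter.1 hk).2
      obtain ⟨η, h3, h4⟩ := (mem_filter.1 hk').2
      by_contra! hlt
      exact (hw l l' hl ξ h1 η h3).not_gt (hy k' k hlt η h4 ξ h2))
    (fun l => mts_subset _ _ _) M
  exact_mod_cast this

omit [Rho Ω] in
theorem pr_sum_meets (w : V Ω) (y : ℕ → V Ω) (I : Finset ℕ) :
    pr w (∑ k ∈ I, y k) = pr w (∑ k ∈ mts w y I, y k) := by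
  rw [map_sum, map_sum, mts, sum_filter_of_ne fun k _ h => exists_of_pr_ne_zero h]

theorem unspl_avg {y : ℕ → V Ω} (hy : Succ y) {n M : ℕ} (hM : M ≤ n) {α : ℝ} (hα : 0 < α)
    (hn : 0 < n) (h : ∀ k < n, nm (y k) ≤ α) :
    Unspl ((n * α)⁻¹ • ∑ k ∈ range n, y k) M := by
  intro w h1 h2
  have h3 := sum_meets_le h2 hy (range n) M
  have h4 : (M : ℝ) ≤ n := by exact_mod_cast hM
  have h5 : (0 : ℝ) < n * α := by positivity
  simp only [map_smul, smul_eq_mul, abs_mul, abs_of_pos (inv_pos.2 h5), ← mul_sum]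
  rw [inv_mul_le_iff₀ h5]
  rw [card_range] at h3
  calc _ ≤ ∑ l ∈ range M, ((mts (w l) y (range n)).card : ℝ) * α := by
        refine sum_le_sum fun l _ => ?_
        rw [pr_sum_meets, map_sum, ← nsmul_eq_mul]
        exact (abs_sum_le_sum_abs _ _).trans (sum_le_card_nsmul _ _ _ fun k hk =>
          (abs_pr_le_nm (h1 l) _).trans (h k (mem_range.1 (mts_subset _ _ _ hk))))
    _ ≤ (n + n) * α := by rw [← sum_mul]; gcongr; linarith
    _ = _ := by ring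

end Vale.Agent.P129.CH
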